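import Vale.Agent.Lib.P143.Flow

/-! Divergence free finitely supported vectors on a set of unordered pairs. The orientation used is
the chosen representative `e.out`; the functional `aval` does not depend on it. -/

open Classical

noncomputable section

namespace Vale.Agent.Lib.P143

variable {V : Type*}

/-- Signed incidence of a vertex and an unordered pair, for the orientation `e.out`. -/
def sgnInc (v : V) (e : Sym2 V) : ℝ :=
  (if e.out.1 = v then 1 else 0) - (if e.out.2 = v then 1 else 0)

/-- The divergence at `v` of a finitely supported vector. -/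
def divAt (θ : Sym2 V →₀ ℝ) (v : V) : ℝ := θ.sum fun e t => sgnInc v e * t

theorem divAt_add (θ θ' : Sym2 V →₀ ℝ) (v : V) : divAt (θ + θ') v = divAt θ v + divAt θ' v := by
  unfold divAt
  exact Finsupp.sum_add_index' (by simp) (fun e a b => by ring)

theorem divAt_smul (c : ℝ) (θ : Sym2 V →₀ ℝ) (v : V) : divAt (c • θ) v = c * divAt θ v := by
  unfold divAt
  rw [Finsupp.sum_smul_index (by simp), Finsupp.mul_sum]
  refine Finsupp.sum_congr fun e _ => by ring

/-- The divergence free finitely supported vectors with support in `X`. -/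
def flowSpace (X : Set (Sym2 V)) : Submodule ℝ (Sym2 V →₀ ℝ) where
  carrier := {θ | (∀ e, θ e ≠ 0 → e ∈ X) ∧ ∀ v, divAt θ v = 0}
  add_mem' := by
    rintro θ θ' ⟨h1, h2⟩ ⟨h1', h2'⟩
    refine ⟨fun e he => ?_, fun v => by rw [divAt_add, h2, h2', add_zero]⟩
    by_contra hcon
    have h3 : θ e = 0 := by
      by_contra h4; exact hcon (h1 e h4)
    have h4 : θ' e = 0 := by
      by_contra h5; exact hcon (h1' e h5)
    exact he (by simp [h3, h4])
  zero_mem' := ⟨fun e he => absurd rfl he, fun v => by simp [divAt]⟩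
  smul_mem' := by
    rintro c θ ⟨h1, h2⟩
    refine ⟨fun e he => h1 e ?_, fun v => by rw [divAt_smul, h2, mul_zero]⟩
    intro h0
    exact he (by simp [h0])

theorem mem_flowSpace {X : Set (Sym2 V)} {θ : Sym2 V →₀ ℝ} :
    θ ∈ flowSpace X ↔ (∀ e, θ e ≠ 0 → e ∈ X) ∧ ∀ v, divAt θ v = 0 := Iff.rfl

theorem flowSpace_mono {X X' : Set (Sym2 V)} (h : X ⊆ X') : flowSpace X ≤ flowSpace X' :=
  fun _ hθ => ⟨fun e he => h (hθ.1 e he), hθ.2⟩

end Vale.Agent.Lib.P143
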