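import Vale.Agent.Lib.P143.Defs
import Vale.Agent.Lib.P143.GraphFlow

/-! The functional on flows is natural for bijections of the vertices, and exhaustions exist. -/

open Classical

noncomputable section

namespace Vale.Agent.Lib.P143

variable {V V' : Type*}

/-- A bijection of the vertices acts on unordered pairs. -/
def symEquiv (π : V ≃ V') : Sym2 V ≃ Sym2 V' where
  toFun := Sym2.map π
  invFun := Sym2.map π.symm
  left_inv e := by rw [Sym2.map_map]; simp
  right_inv e := by rw [Sym2.map_map]; simp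

@[simp] theorem map_symm_map (π : V ≃ V') (f : Sym2 V) : Sym2.map π.symm (Sym2.map π f) = f :=
  (symEquiv π).left_inv f

@[simp] theorem map_map_symm (π : V ≃ V') (f : Sym2 V') : Sym2.map π (Sym2.map π.symm f) = f :=
  (symEquiv π).right_inv f

/-- The sign relating the chosen orientation of the image of a pair to the image of the chosen
orientation. -/
def orient (π : V ≃ V') (f : Sym2 V) : ℝ :=
  if (Sym2.map π f).out.1 = π f.out.1 then 1 else -1

theorem orient_mul_self (π : V ≃ V') (f : Sym2 V) : orient π f * orient π f = 1 := by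
  unfold orient
  split_ifs <;> norm_num

theorem sgnInc_map (π : V ≃ V') (v : V) (f : Sym2 V) :
    sgnInc (π v) (Sym2.map π f) = orient π f * sgnInc v f := by
  have h0 : s(f.out.1, f.out.2) = f := Quot.out_eq f
  have h1 : s((Sym2.map π f).out.1, (Sym2.map π f).out.2) = Sym2.map π f := Quot.out_eq _
  have h2 : Sym2.map π f = s(π f.out.1, π f.out.2) := by
    conv_lhs => rw [← h0]
    rfl
  rw [h2, Sym2.eq_iff, ← h2] at h1
  unfold sgnInc orient
  rcases h1 with ⟨h3, h4⟩ | ⟨h3, h4⟩
  · rw [h3, h4, if_pos rfl]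
    simp only [π.injective.eq_iff, one_mul]
  · by_cases hab : f.out.2 = f.out.1
    · rw [h3, h4, hab]
      simp
    · have hne : π f.out.2 ≠ π f.out.1 := fun h => hab (π.injective h)
      rw [h3, h4, if_neg hne]
      simp only [π.injective.eq_iff]
      ring

/-- The transport of a finitely supported vector, with the orientation signs. -/
def pushFlow (π : V ≃ V') (θ : Sym2 V →₀ ℝ) : Sym2 V' →₀ ℝ :=
  Finsupp.onFinset (θ.support.map (symEquiv π).toEmbedding)
    (fun f' => orient π (Sym2.map π.symm f') * θ (Sym2.map π.symm f')) (by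
      intro f' hf'
      have h : θ (Sym2.map π.symm f') ≠ 0 := fun h => hf' (by simp [h])
      exact Finset.mem_map.2 ⟨Sym2.map π.symm f', by simpa using h, map_map_symm π f'⟩)

theorem pushFlow_apply (π : V ≃ V') (θ : Sym2 V →₀ ℝ) (f : Sym2 V) :
    pushFlow π θ (Sym2.map π f) = orient π f * θ f := by
  simp [pushFlow]

theorem pushFlow_sum (π : V ≃ V') (θ : Sym2 V →₀ ℝ) (g : Sym2 V' → ℝ → ℝ) (hg : ∀ f, g f 0 = 0) :
    (pushFlow π θ).sum g = θ.sum fun f t => g (Sym2.map π f) (orient π f * t) := by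
  rw [Finsupp.sum_of_support_subset (pushFlow π θ) (s := θ.support.map (symEquiv π).toEmbedding)
    (Finsupp.support_onFinset_subset) g (fun f _ => hg f), Finset.sum_map]
  unfold Finsupp.sum
  refine Finset.sum_congr rfl fun f _ => ?_
  exact congrArg _ (pushFlow_apply π θ f)

theorem energy_pushFlow (π : V ≃ V') (y : Sym2 V → ℝ) (θ : Sym2 V →₀ ℝ) :
    energy (fun f' => y (Sym2.map π.symm f')) (pushFlow π θ) = energy y θ := by
  unfold energy
  rw [pushFlow_sum π θ _ (fun f => by simp)]
  refine Finsupp.sum_congr fun f _ => ?_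
  have h := orient_mul_self π f
  simp only [map_symm_map]
  rw [mul_pow, sq (orient π f), h, one_mul]

theorem ratio_pushFlow (π : V ≃ V') (y : Sym2 V → ℝ) (θ : Sym2 V →₀ ℝ) (e : Sym2 V) :
    ratio (fun f' => y (Sym2.map π.symm f')) (Sym2.map π e) (pushFlow π θ) = ratio y e θ := by
  unfold ratio
  rw [energy_pushFlow, pushFlow_apply]
  simp only [map_symm_map]
  rw [mul_pow, sq (orient π e), orient_mul_self, one_mul]

theorem divAt_pushFlow (π : V ≃ V') (θ : Sym2 V →₀ ℝ) (v : V) :
    divAt (pushFlow π θ) (π v) = divAt θ v := by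
  unfold divAt
  rw [pushFlow_sum π θ _ (fun f => by simp)]
  refine Finsupp.sum_congr fun f _ => ?_
  rw [sgnInc_map]
  have h := orient_mul_self π f
  calc orient π f * sgnInc v f * (orient π f * θ f)
      = (orient π f * orient π f) * (sgnInc v f * θ f) := by ring
    _ = _ := by rw [h, one_mul]

theorem pushFlow_mem (π : V ≃ V') {X : Set (Sym2 V)} {θ : Sym2 V →₀ ℝ} (hθ : θ ∈ flowSpace X) :
    pushFlow π θ ∈ flowSpace (Sym2.map π '' X) := by
  refine ⟨fun f' hf' => ?_, fun v' => ?_⟩
  · refine ⟨Sym2.map π.symm f', hθ.1 _ ?_, map_map_symm π f'⟩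
    intro h
    apply hf'
    have := pushFlow_apply π θ (Sym2.map π.symm f')
    rw [map_map_symm] at this
    rw [this, h, mul_zero]
  · obtain ⟨v, rfl⟩ := π.surjective v'
    rw [divAt_pushFlow]
    exact hθ.2 v

theorem aval_le_map (π : V ≃ V') (X : Set (Sym2 V)) (y : Sym2 V → ℝ) (e : Sym2 V) :
    aval (flowSpace X) y e ≤
      aval (flowSpace (Sym2.map π '' X)) (fun f' => y (Sym2.map π.symm f')) (Sym2.map π e) :=
  aval_le_of fun θ hθ => by
    rw [← ratio_pushFlow π y θ e]
    exact ratio_le_aval _ _ (pushFlow_mem π hθ)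

/-- The functional on flows is natural for bijections of the vertices. -/
theorem aval_map (π : V ≃ V') (X : Set (Sym2 V)) (y : Sym2 V → ℝ) (e : Sym2 V) :
    aval (flowSpace (Sym2.map π '' X)) (fun f' => y (Sym2.map π.symm f')) (Sym2.map π e) =
      aval (flowSpace X) y e := by
  refine le_antisymm ?_ (aval_le_map π X y e)
  have h := aval_le_map π.symm (Sym2.map π '' X) (fun f' => y (Sym2.map π.symm f')) (Sym2.map π e)
  have h1 : Sym2.map π.symm '' (Sym2.map π '' X) = X := by
    rw [Set.image_image]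
    simp
  have h2 : (fun f : Sym2 V => y (Sym2.map π.symm (Sym2.map π.symm.symm f))) = y := by
    funext f
    simp
  simp only [Equiv.symm_symm] at h h2
  rw [h1, map_symm_map, h2] at h
  exact h

/-- Naturality for the edge set of a graph. -/
theorem aval_edgeSet_map {G : SimpleGraph V} {G' : SimpleGraph V'} (π : V ≃ V')
    (hπ : ∀ a b, G'.Adj (π a) (π b) ↔ G.Adj a b) (y : Sym2 V → ℝ) (e : Sym2 V) :
    aval (flowSpace G'.edgeSet) (fun f' => y (Sym2.map π.symm f')) (Sym2.map π e) =
      aval (flowSpace G.edgeSet) y e := by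
  have h : Sym2.map π '' G.edgeSet = G'.edgeSet := by
    ext f'
    constructor
    · rintro ⟨f, hf, rfl⟩
      induction f using Sym2.ind with
      | _ a b => exact (hπ a b).2 hf
    · intro hf'
      refine ⟨Sym2.map π.symm f', ?_, map_map_symm π f'⟩
      induction f' using Sym2.ind with
      | _ a b =>
        have h1 : G'.Adj a b := hf'
        show G.Adj (π.symm a) (π.symm b)
        rw [← hπ]
        simpa using h1
  rw [← h]
  exact aval_map π _ y e

/-! ### Exhaustions -/

variable {G : SimpleGraph V}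

theorem reachable_of_walk (S : Set V) {a b : V} (p : G.Walk a b) (h : ∀ w ∈ p.support, w ∈ S) :
    ∃ (ha : a ∈ S) (hb : b ∈ S),
      ((⊤ : G.Subgraph).induce S).coe.Reachable
        ⟨a, ha⟩ ⟨b, hb⟩ := by
  induction p with
  | @nil u =>
    have ha : u ∈ S := h u (by simp)
    exact ⟨ha, ha, SimpleGraph.Reachable.refl _⟩
  | @cons u v w huv p ih =>
    obtain ⟨hv, hw, hr⟩ := ih (fun x hx => h x (by simp [hx]))
    have hu : u ∈ S := h u (by simp)
    refine ⟨hu, hw, SimpleGraph.Reachable.trans ?_ hr⟩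
    refine SimpleGraph.Adj.reachable ?_
    exact ⟨hu, hv, huv⟩

/-- An exhaustion exists for a connected graph on a countable vertex set. -/
theorem exists_exhaustion [Countable V] (hc : G.Connected) : ∃ Gn, IsExhaustion G Gn := by
  have hne := hc.nonempty
  obtain ⟨o⟩ := id hne
  obtain ⟨f, hf⟩ := exists_surjective_nat V
  have hw : ∀ i, Nonempty (G.Walk o (f i)) := fun i => hc.preconnected o (f i)
  let p : ∀ i, G.Walk o (f i) := fun i => (hw i).some
  let S : ℕ → Set V := fun n => ⋃ i ∈ Set.Iic n, {w | w ∈ (p i).support}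
  have hS : ∀ {i n}, i ≤ n → ∀ w ∈ (p i).support, w ∈ S n := by
    intro i n hi w hwm
    exact Set.mem_biUnion (Set.mem_Iic.2 hi) hwm
  have hmono : ∀ n, S n ⊆ S (n + 1) := by
    intro n w hwm
    obtain ⟨i, hi, hwi⟩ := Set.mem_iUnion₂.1 hwm
    exact hS (Nat.le_succ_of_le (Set.mem_Iic.1 hi)) w hwi
  refine ⟨fun n => (⊤ : G.Subgraph).induce (S n), ?_, ?_, ?_, ?_, ?_⟩
  · intro n
    exact (Set.finite_Iic n).biUnion fun i _ => (p i).support.finite_toSet
  · intro n
    have ho : o ∈ S n := hS (Nat.zero_le n) o (by simp)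
    have hreach : ∀ x : S n, ((⊤ : G.Subgraph).induce (S n)).coe.Reachable ⟨o, ho⟩ x := by
      rintro ⟨x, hx⟩
      obtain ⟨i, hi, hxi⟩ := Set.mem_iUnion₂.1 hx
      have hxi' : x ∈ (p i).support := hxi
      obtain ⟨_, _, hr⟩ := reachable_of_walk (G := G) (S n) ((p i).takeUntil x hxi') (fun w hwm =>
        hS (Set.mem_Iic.1 hi) w ((p i).support_takeUntil_subset_support hxi' hwm))
      exact hr
    constructor
    rw [SimpleGraph.connected_iff]
    refine ⟨fun x y => (hreach x).symm.trans (hreach y), ⟨⟨o, ho⟩⟩⟩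
  · intro n
    exact SimpleGraph.Subgraph.induce_mono_right (hmono n)
  · intro v
    obtain ⟨i, rfl⟩ := hf v
    exact ⟨i, hS le_rfl _ (by simp)⟩
  · intro e he
    induction e using Sym2.ind with
    | _ a b =>
      obtain ⟨i, rfl⟩ := hf a
      obtain ⟨j, rfl⟩ := hf b
      refine ⟨max i j, ?_⟩
      exact ⟨hS (le_max_left i j) _ (by simp), hS (le_max_right i j) _ (by simp), he⟩

end Vale.Agent.Lib.P143
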