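import Mathlib

/-! The noise path attached to a dyadic array: only measurability and an `L¹` estimate. -/

open Filter Topology MeasureTheory
open scoped ENNReal

noncomputable section

namespace Vale.Agent.Lib.P143

/-- The scale `1/√2`. -/
def rr : ℝ := (Real.sqrt 2)⁻¹

/-- The refinement relation of a dyadic array. -/
def Refines (g : ℕ → ℕ → ℝ) : Prop :=
  ∀ l k, g l k = (g (l + 1) (2 * k) + g (l + 1) (2 * k + 1)) / Real.sqrt 2

/-- Partial sums at level `l`: the value of the path at time `k 2^{-l}`. -/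
def wSum (g : ℕ → ℕ → ℝ) (l k : ℕ) : ℝ := rr ^ l * ∑ i ∈ Finset.range k, g l i

/-- The step function at level `l`. -/
def bStep (g : ℕ → ℕ → ℝ) (l : ℕ) (s : ℝ) : ℝ := wSum g l ⌊s * 2 ^ l⌋₊

/-- The path: the upper limit of the step functions. -/
def bPath (g : ℕ → ℕ → ℝ) (s : ℝ) : ℝ := limsup (fun l => bStep g l s) atTop

lemma rr_pos : 0 < rr := by
  unfold rr
  positivity

lemma rr_mul_sqrt : rr * Real.sqrt 2 = 1 := by
  unfold rr
  exact inv_mul_cancel₀ (by positivity)

lemma rr_lt : rr ≤ 3 / 4 := by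
  unfold rr
  rw [inv_le_comm₀ (by positivity) (by norm_num)]
  rw [Real.le_sqrt' (by norm_num)]
  norm_num

lemma sum_double {g : ℕ → ℕ → ℝ} (hg : Refines g) (l k : ℕ) :
    ∑ j ∈ Finset.range (2 * k), g (l + 1) j = Real.sqrt 2 * ∑ j ∈ Finset.range k, g l j := by
  have h2 : Real.sqrt 2 ≠ 0 := by positivity
  induction k with
  | zero => simp
  | succ k ih =>
    rw [show 2 * (k + 1) = 2 * k + 1 + 1 by ring, Finset.sum_range_succ, Finset.sum_range_succ, ih,
      Finset.sum_range_succ (n := k), hg l k]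
    field_simp
    ring

/-- Consistency of the partial sums. Proof: induction on `k`, each term of level `l` is the sum of
two terms of level `l + 1`, and `rr ^ (l+1) / ... `. -/
theorem wSum_refine {g : ℕ → ℕ → ℝ} (hg : Refines g) (l k : ℕ) :
    wSum g (l + 1) (2 * k) = wSum g l k := by
  simp only [wSum, sum_double hg, pow_succ]
  calc rr ^ l * rr * (Real.sqrt 2 * ∑ j ∈ Finset.range k, g l j)
      = rr ^ l * (rr * Real.sqrt 2) * ∑ j ∈ Finset.range k, g l j := by ring
    _ = rr ^ l * ∑ j ∈ Finset.range k, g l j := by rw [rr_mul_sqrt, mul_one]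

lemma wSum_refine_pow {g : ℕ → ℕ → ℝ} (hg : Refines g) (l k : ℕ) :
    wSum g l (2 ^ l * k) = wSum g 0 k := by
  induction l with
  | zero => simp
  | succ l ih =>
    rw [pow_succ', mul_assoc, wSum_refine hg, ih]

/-- At integer times the path equals the level zero partial sum: all step functions agree there. -/
theorem bPath_nat {g : ℕ → ℕ → ℝ} (hg : Refines g) (T : ℕ) : bPath g T = wSum g 0 T := by
  have h : ∀ l, bStep g l (T : ℝ) = wSum g 0 T := by
    intro l
    have hx : (T : ℝ) * 2 ^ l = ((2 ^ l * T : ℕ) : ℝ) := by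
      push_cast
      ring
    simp only [bStep]
    rw [hx, Nat.floor_natCast, wSum_refine_pow hg]
  simp only [bPath, h]
  exact limsup_const _

lemma measurable_wSum {Ω : Type*} [MeasurableSpace Ω] {A : Ω → ℕ → ℕ → ℝ}
    (hA : ∀ l k, Measurable fun ω => A ω l k) (l k : ℕ) :
    Measurable fun ω => wSum (A ω) l k := by
  simp only [wSum]
  exact (Finset.measurable_fun_sum _ fun i _ => hA l i).const_mul _

lemma measurable_bStep {Ω : Type*} [MeasurableSpace Ω] {A : Ω → ℕ → ℕ → ℝ}
    (hA : ∀ l k, Measurable fun ω => A ω l k) (l : ℕ) :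
    Measurable fun p : Ω × ℝ => bStep (A p.1) l p.2 := by
  have h1 : Measurable fun q : Ω × ℕ => wSum (A q.1) l q.2 :=
    measurable_from_prod_countable_left fun k => measurable_wSum hA l k
  have h2 : Measurable fun p : Ω × ℝ => (p.1, ⌊p.2 * 2 ^ l⌋₊) :=
    measurable_fst.prodMk (Nat.measurable_floor.comp (measurable_snd.mul_const _))
  exact h1.comp h2

/-- Joint measurability (`⌊s 2^l⌋₊` is countable valued; `Measurable.limsup`). -/
theorem measurable_bPath {Ω : Type*} [MeasurableSpace Ω] {A : Ω → ℕ → ℕ → ℝ}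
    (hA : ∀ l k, Measurable fun ω => A ω l k) :
    Measurable fun p : Ω × ℝ => bPath (A p.1) p.2 := by
  simp only [bPath]
  exact Measurable.limsup fun l => measurable_bStep hA l

/-- The one-step increment of the step functions. -/
lemma abs_bStep_succ_sub_le {g : ℕ → ℕ → ℝ} (hg : Refines g) (l : ℕ) {s : ℝ} (hs : 0 ≤ s) :
    |bStep g (l + 1) s - bStep g l s| ≤
      rr ^ (l + 1) * |g (l + 1) (2 * ⌊s * 2 ^ l⌋₊)| := by
  set x : ℝ := s * 2 ^ l with hx
  have hx0 : 0 ≤ x := by positivity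
  set k : ℕ := ⌊x⌋₊ with hk
  have hk1 : (k : ℝ) ≤ x := Nat.floor_le hx0
  have hk2 : x < k + 1 := Nat.lt_floor_add_one x
  have hl : bStep g l s = wSum g l k := rfl
  have hl' : s * 2 ^ (l + 1) = 2 * x := by rw [hx]; ring
  have hs1 : bStep g (l + 1) s = wSum g (l + 1) ⌊2 * x⌋₊ := by
    simp only [bStep, hl']
  have hp : 0 ≤ rr ^ (l + 1) * |g (l + 1) (2 * k)| := by
    have := rr_pos
    positivity
  rcases lt_or_ge x (k + 1 / 2) with hc | hc
  · have hfl : ⌊2 * x⌋₊ = 2 * k := by
      rw [Nat.floor_eq_iff (by positivity)]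
      push_cast
      constructor <;> linarith
    rw [hs1, hl, hfl, wSum_refine hg]
    simpa using hp
  · have hfl : ⌊2 * x⌋₊ = 2 * k + 1 := by
      rw [Nat.floor_eq_iff (by positivity)]
      push_cast
      constructor <;> linarith
    have hw : wSum g (l + 1) (2 * k + 1) =
        wSum g (l + 1) (2 * k) + rr ^ (l + 1) * g (l + 1) (2 * k) := by
      simp only [wSum, Finset.sum_range_succ]
      ring
    rw [hs1, hl, hfl, hw, wSum_refine hg, add_sub_cancel_left, abs_mul,
      abs_of_pos (pow_pos rr_pos _)]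

/-- The pointwise bound of the distance from the path to a step function. -/
lemma ofReal_abs_bPath_sub_le {g : ℕ → ℕ → ℝ} (hg : Refines g) {s : ℝ} (hs : 0 ≤ s) (l : ℕ) :
    ENNReal.ofReal |bPath g s - bStep g l s| ≤
      ∑' i : ℕ, ENNReal.ofReal (rr ^ (i + l + 1) * |g (i + l + 1) (2 * ⌊s * 2 ^ (i + l)⌋₊)|) := by
  set d : ℕ → ℝ := fun i => rr ^ (i + l + 1) * |g (i + l + 1) (2 * ⌊s * 2 ^ (i + l)⌋₊)| with hd
  have hd0 : ∀ i, 0 ≤ d i := fun i => by
    have := rr_pos
    simp only [hd]
    positivity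
  by_cases hsum : Summable d
  · have hinc : ∀ i, |bStep g (i + 1 + l) s - bStep g (i + l) s| ≤ d i := by
      intro i
      have := abs_bStep_succ_sub_le hg (i + l) hs
      rwa [show i + 1 + l = i + l + 1 by omega]
    have hcauchy : CauchySeq fun i => bStep g (i + l) s :=
      cauchySeq_of_dist_le_of_summable d (fun i => by
        rw [Real.dist_eq, abs_sub_comm]
        exact hinc i) hsum
    obtain ⟨a, ha⟩ := cauchySeq_tendsto_of_complete hcauchy
    have ha' : Tendsto (fun n => bStep g n s) atTop (𝓝 a) :=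
      (tendsto_add_atTop_iff_nat l).1 ha
    have hlim : bPath g s = a := ha'.limsup_eq
    have hle : |a - bStep g l s| ≤ ∑' i, d i := by
      have hfin : ∀ n, |bStep g (n + l) s - bStep g (0 + l) s| ≤ ∑ i ∈ Finset.range n, d i := by
        intro n
        induction n with
        | zero => simp
        | succ n ih =>
          rw [Finset.sum_range_succ]
          calc |bStep g (n + 1 + l) s - bStep g (0 + l) s|
              ≤ |bStep g (n + 1 + l) s - bStep g (n + l) s| +
                  |bStep g (n + l) s - bStep g (0 + l) s| := abs_sub_le _ _ _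
            _ ≤ d n + ∑ i ∈ Finset.range n, d i := add_le_add (hinc n) ih
            _ = ∑ i ∈ Finset.range n, d i + d n := add_comm _ _
      have h1 : Tendsto (fun n => |bStep g (n + l) s - bStep g (0 + l) s|) atTop
          (𝓝 |a - bStep g (0 + l) s|) := (ha.sub_const _).abs
      have h2 : ∀ n, |bStep g (n + l) s - bStep g (0 + l) s| ≤ ∑' i, d i := fun n =>
        (hfin n).trans (hsum.sum_le_tsum _ fun i _ => hd0 i)
      have h3 := le_of_tendsto' h1 h2
      simpa using h3
    rw [hlim]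
    calc ENNReal.ofReal |a - bStep g l s| ≤ ENNReal.ofReal (∑' i, d i) :=
          ENNReal.ofReal_le_ofReal hle
      _ = ∑' i, ENNReal.ofReal (d i) := ENNReal.ofReal_tsum_of_nonneg hd0 hsum
  · have htop : (∑' i, ENNReal.ofReal (d i)) = ∞ := by
      by_contra hne
      exact hsum ((ENNReal.summable_toReal hne).congr fun i => by
        rw [ENNReal.toReal_ofReal (hd0 i)])
    rw [htop]
    exact le_top

/-- `L¹` estimate. Proof: `|bStep (l+1) s - bStep l s|` is `0` or `rr^(l+1) |g (l+1) k|` for the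
index `k = 2⌊s 2^l⌋` (`wSum_refine`). So pointwise in `ℝ≥0∞`,
`ofReal |bPath s - bStep l s| ≤ ∑' i, ofReal |bStep (l+i+1) s - bStep (l+i) s|` (if the right side is
finite the sequence is Cauchy so converges to its limsup; otherwise trivial). Integrate:
`∑_{i} rr^(l+i+1) ≤ 3 rr^l` since `rr/(1-rr) < 3`. -/
theorem lintegral_bPath_sub_le {Ω : Type*} [MeasurableSpace Ω] {P : Measure Ω}
    {A : Ω → ℕ → ℕ → ℝ} (hA : ∀ l k, Measurable fun ω => A ω l k)
    (href : ∀ ω, Refines (A ω))
    (hL1 : ∀ l k, ∫⁻ ω, ENNReal.ofReal |A ω l k| ∂P ≤ 1) {s : ℝ} (hs : 0 ≤ s) (l : ℕ) :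
    ∫⁻ ω, ENNReal.ofReal |bPath (A ω) s - bStep (A ω) l s| ∂P ≤ ENNReal.ofReal (3 * rr ^ l) := by
  have hr0 := rr_pos
  have hr1 : rr < 1 := lt_of_le_of_lt rr_lt (by norm_num)
  have hgeo : Summable fun i : ℕ => rr ^ (i + l + 1) := by
    have : Summable fun i : ℕ => rr ^ i * rr ^ (l + 1) :=
      (summable_geometric_of_lt_one hr0.le hr1).mul_right _
    refine this.congr fun i => ?_
    rw [← pow_add]
    rfl
  have hgeo_val : ∑' i : ℕ, rr ^ (i + l + 1) = rr ^ (l + 1) / (1 - rr) := by
    have h1 : ∀ i : ℕ, rr ^ (i + l + 1) = rr ^ i * rr ^ (l + 1) := fun i => by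
      rw [← pow_add]
      rfl
    simp only [h1]
    rw [tsum_mul_right, tsum_geometric_of_lt_one hr0.le hr1]
    field_simp
  calc ∫⁻ ω, ENNReal.ofReal |bPath (A ω) s - bStep (A ω) l s| ∂P
      ≤ ∫⁻ ω, ∑' i : ℕ, ENNReal.ofReal
          (rr ^ (i + l + 1) * |A ω (i + l + 1) (2 * ⌊s * 2 ^ (i + l)⌋₊)|) ∂P :=
        lintegral_mono fun ω => ofReal_abs_bPath_sub_le (href ω) hs l
    _ = ∑' i : ℕ, ∫⁻ ω, ENNReal.ofReal
          (rr ^ (i + l + 1) * |A ω (i + l + 1) (2 * ⌊s * 2 ^ (i + l)⌋₊)|) ∂P := by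
        refine lintegral_tsum fun i => ?_
        exact (((hA _ _).abs.const_mul _).ennreal_ofReal).aemeasurable
    _ ≤ ∑' i : ℕ, ENNReal.ofReal (rr ^ (i + l + 1)) := by
        refine ENNReal.tsum_le_tsum fun i => ?_
        have hp : 0 ≤ rr ^ (i + l + 1) := by positivity
        simp only [ENNReal.ofReal_mul hp]
        rw [lintegral_const_mul _ (hA _ _).abs.ennreal_ofReal]
        calc ENNReal.ofReal (rr ^ (i + l + 1)) * ∫⁻ ω, ENNReal.ofReal
              |A ω (i + l + 1) (2 * ⌊s * 2 ^ (i + l)⌋₊)| ∂P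
            ≤ ENNReal.ofReal (rr ^ (i + l + 1)) * 1 := by
              gcongr
              exact hL1 _ _
          _ = ENNReal.ofReal (rr ^ (i + l + 1)) := mul_one _
    _ = ENNReal.ofReal (∑' i : ℕ, rr ^ (i + l + 1)) :=
        (ENNReal.ofReal_tsum_of_nonneg (fun i => by positivity) hgeo).symm
    _ ≤ ENNReal.ofReal (3 * rr ^ l) := by
        refine ENNReal.ofReal_le_ofReal ?_
        rw [hgeo_val, pow_succ]
        have hden : 0 < 1 - rr := by linarith
        rw [div_le_iff₀ hden]
        have hrl : 0 < rr ^ l := pow_pos hr0 l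
        have h34 := rr_lt
        nlinarith

end Vale.Agent.Lib.P143
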