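import Mathlib

/-!
# Weighted matrix-tree theorem and Kirchhoff's formulas for a finite multigraph

A finite multigraph is given by `src tgt : E → V`.  Everything here is self contained.
Proofs: Cauchy-Binet expansion of the reduced Laplacian, unimodularity of the incidence matrix on
spanning trees (integer span of the columns), rank two update of the determinant, and the
Cauchy-Schwarz inequality for the Dirichlet form.
-/

open Finset Matrix

namespace Vale.Agent.Lib.P143

section CauchyBinet

variable {n E : Type*} [Fintype n] [DecidableEq n] [Fintype E] [DecidableEq E]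

lemma det_expand (B : Matrix n E ℝ) (c : E → ℝ) :
    (B * Matrix.diagonal c * Bᵀ).det =
      ∑ φ : n → E, (∏ i, (B i (φ i) * c (φ i))) * (B.submatrix id φ).det := by
  have h : (B * Matrix.diagonal c * Bᵀ) =
      (fun i => ∑ e, (B i e * c e) • (fun j => B j e) : n → n → ℝ) := by
    ext i j
    simp [Matrix.mul_apply, Matrix.diagonal_apply, Finset.sum_apply, mul_comm, mul_left_comm]
  have h2 : (B * Matrix.diagonal c * Bᵀ).det =
      detRowAlternating (fun i => ∑ e, (B i e * c e) • (fun j => B j e) : n → n → ℝ) := by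
    rw [h]
    rfl
  rw [h2]
  have h3 := (detRowAlternating (n := n) (R := ℝ)).toMultilinearMap.map_sum
    (fun (i : n) (e : E) => (B i e * c e) • (fun j => B j e))
  have h4 : (detRowAlternating (fun i => ∑ e, (B i e * c e) • (fun j => B j e) : n → n → ℝ)) =
      ∑ φ : n → E, (detRowAlternating (n := n) (R := ℝ))
        (fun i => (B i (φ i) * c (φ i)) • (fun j => B j (φ i))) := h3
  rw [h4]
  refine Finset.sum_congr rfl fun φ _ => ?_
  have h5 := (detRowAlternating (n := n) (R := ℝ)).toMultilinearMap.map_smul_univ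
    (fun i => B i (φ i) * c (φ i)) (fun i j => B j (φ i))
  have h6 : (detRowAlternating (n := n) (R := ℝ))
        (fun i => (B i (φ i) * c (φ i)) • (fun j => B j (φ i))) =
      (∏ i, (B i (φ i) * c (φ i))) • (detRowAlternating (n := n) (R := ℝ))
        (fun i j => B j (φ i)) := h5
  rw [h6, smul_eq_mul]
  congr 1
  have h7 : (detRowAlternating (n := n) (R := ℝ)) (fun i j => B j (φ i)) =
      ((B.submatrix id φ)ᵀ).det := rfl
  rw [h7, Matrix.det_transpose]

theorem cauchy_binet (B : Matrix n E ℝ) (c : E → ℝ) (D : Finset E → ℝ)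
    (hD : ∀ φ : n → E, Function.Injective φ → (B.submatrix id φ).det ^ 2 = D (univ.image φ)) :
    (B * Matrix.diagonal c * Bᵀ).det =
      ∑ S ∈ powersetCard (Fintype.card n) (univ : Finset E), (∏ e ∈ S, c e) * D S := by
  classical
  rw [det_expand]
  set F : (n → E) → ℝ := fun φ => (∏ i, (B i (φ i) * c (φ i))) * (B.submatrix id φ).det with hF
  have hzero : ∀ φ, F φ ≠ 0 → Function.Injective φ := by
    intro φ hφ
    by_contra hinj
    apply hφ
    have : (B.submatrix id φ).det = 0 := by
      rw [Function.Injective] at hinj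
      push Not at hinj
      obtain ⟨i, j, hij, hne⟩ := hinj
      exact Matrix.det_zero_of_column_eq hne (fun k => by simp [hij])
    simp [hF, this]
  have h1 : ∑ φ, F φ = ∑ φ ∈ univ.filter (fun φ : n → E => Function.Injective φ), F φ :=
    (Finset.sum_filter_of_ne (fun φ _ h => hzero φ h)).symm
  rw [h1]
  have hmaps : ∀ φ ∈ univ.filter (fun φ : n → E => Function.Injective φ),
      (univ.image φ) ∈ powersetCard (Fintype.card n) (univ : Finset E) := by
    intro φ hφ
    rw [mem_powersetCard]
    refine ⟨subset_univ _, ?_⟩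
    rw [Finset.card_image_of_injective _ (mem_filter.mp hφ).2, Finset.card_univ]
  rw [← Finset.sum_fiberwise_of_maps_to hmaps]
  refine Finset.sum_congr rfl fun S hS => ?_
  have hScard : S.card = Fintype.card n := (mem_powersetCard.mp hS).2
  -- a fixed enumeration of `S`
  obtain ⟨e₀⟩ : Nonempty (n ≃ S) :=
    ⟨Fintype.equivOfCardEq (by simp [hScard])⟩
  set φ₀ : n → E := fun i => (e₀ i).1 with hφ₀
  have hinj₀ : Function.Injective φ₀ := fun i j h => e₀.injective (Subtype.ext h)
  have himg₀ : univ.image φ₀ = S := by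
    ext x
    simp only [mem_image, mem_univ, true_and]
    constructor
    · rintro ⟨i, rfl⟩
      exact (e₀ i).2
    · intro hx
      exact ⟨e₀.symm ⟨x, hx⟩, by simp [hφ₀]⟩
  -- the sum over fibre is a sum over permutations
  have hbij : ∑ φ ∈ (univ.filter (fun φ : n → E => Function.Injective φ)) with univ.image φ = S,
      F φ = ∑ σ : Equiv.Perm n, F (φ₀ ∘ σ) := by
    symm
    refine Finset.sum_bij (fun σ _ => φ₀ ∘ σ) ?_ ?_ ?_ ?_
    · intro σ _
      simp only [mem_filter, mem_univ, true_and]
      refine ⟨hinj₀.comp σ.injective, ?_⟩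
      rw [← himg₀]
      ext x
      simp only [mem_image, mem_univ, true_and, Function.comp]
      constructor
      · rintro ⟨i, rfl⟩
        exact ⟨σ i, rfl⟩
      · rintro ⟨i, rfl⟩
        exact ⟨σ.symm i, by simp⟩
    · intro σ₁ _ σ₂ _ h
      ext i
      have := congrFun h i
      exact hinj₀ this
    · intro φ hφ
      simp only [mem_filter, mem_univ, true_and] at hφ
      obtain ⟨hinj, himg⟩ := hφ
      have hex : ∀ i, ∃ j, φ₀ j = φ i := by
        intro i
        have : φ i ∈ univ.image φ₀ := by
          rw [himg₀, ← himg]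
          exact mem_image_of_mem _ (mem_univ _)
        simpa using this
      choose g hg using hex
      have hginj : Function.Injective g := by
        intro a b hab
        apply hinj
        rw [← hg a, ← hg b, hab]
      refine ⟨Equiv.ofBijective g (Finite.injective_iff_bijective.mp hginj), mem_univ _, ?_⟩
      ext i
      simp [hg]
    · intro σ _
      rfl
  rw [hbij]
  -- evaluate
  set M : Matrix n n ℝ := B.submatrix id φ₀ with hM
  have hC : ∀ σ : Equiv.Perm n, ∏ i, c (φ₀ (σ i)) = ∏ e ∈ S, c e := by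
    intro σ
    rw [Equiv.prod_comp σ (fun i => c (φ₀ i)), ← himg₀, Finset.prod_image (fun a _ b _ h => hinj₀ h)]
  have hterm : ∀ σ : Equiv.Perm n, F (φ₀ ∘ σ) =
      (∏ e ∈ S, c e) * M.det * (((Equiv.Perm.sign σ : ℤ) : ℝ) * ∏ i, Mᵀ (σ i) i) := by
    intro σ
    have h1 : (B.submatrix id (φ₀ ∘ σ)).det = ((Equiv.Perm.sign σ : ℤ) : ℝ) * M.det := by
      have : B.submatrix id (φ₀ ∘ σ) = M.submatrix id σ := by
        ext i j; simp [hM]
      rw [this, Matrix.det_permute']
    have h2 : ∏ i, (B i ((φ₀ ∘ σ) i) * c ((φ₀ ∘ σ) i)) =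
        (∏ i, Mᵀ (σ i) i) * ∏ e ∈ S, c e := by
      rw [Finset.prod_mul_distrib]
      congr 1
      exact hC σ
    simp only [hF]
    rw [h1, h2]
    ring
  have hdet : ∑ σ : Equiv.Perm n, (((Equiv.Perm.sign σ : ℤ) : ℝ) * ∏ i, Mᵀ (σ i) i) = M.det := by
    rw [← Matrix.det_transpose M, Matrix.det_apply']
  rw [Finset.sum_congr rfl (fun σ _ => hterm σ), ← Finset.mul_sum, hdet]
  have := hD φ₀ hinj₀
  rw [himg₀] at this
  rw [← this]
  ring

end CauchyBinet

variable {V E : Type*} [Fintype V] [Fintype E] [DecidableEq V] [DecidableEq E]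

/-- The cut of a vertex set: edges with exactly one endpoint in it. -/
def cut (src tgt : E → V) (S : Finset V) : Finset E :=
  univ.filter fun e => (src e ∈ S ∧ tgt e ∉ S) ∨ (src e ∉ S ∧ tgt e ∈ S)

/-- A spanning tree: `|V| - 1` edges meeting every cut of a nonempty proper vertex set. -/
def IsST (src tgt : E → V) (T : Finset E) : Prop :=
  T.card + 1 = Fintype.card V ∧
    ∀ S : Finset V, S.Nonempty → S ≠ univ → ∃ e ∈ T, e ∈ cut src tgt S

/-- The multigraph is connected: each cut of a nonempty proper vertex set has an edge. -/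
def IsConn (src tgt : E → V) : Prop :=
  ∀ S : Finset V, S.Nonempty → S ≠ univ → (cut src tgt S).Nonempty

/-- The reduced signed incidence matrix (row of the root `r` removed). -/
def inc (src tgt : E → V) (r : V) : Matrix {v // v ≠ r} E ℝ :=
  fun v e => (if tgt e = v.1 then 1 else 0) - (if src e = v.1 then 1 else 0)

open Classical in
/-- Weighted sum over the spanning trees satisfying `P`. -/
noncomputable def treeSum (src tgt : E → V) (c : E → ℝ) (P : Finset E → Prop) : ℝ :=
  ∑ T ∈ univ.filter (fun T => IsST src tgt T ∧ P T), ∏ e ∈ T, c e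

set_option linter.unusedSectionVars false

section Potential

/-- Extension of a function on the non-root vertices by `0` at the root. -/
def ext0 (r : V) (x : {v // v ≠ r} → ℝ) (v : V) : ℝ :=
  if h : v ≠ r then x ⟨v, h⟩ else 0

lemma sum_mul_ite_eq (r : V) (x : {v // v ≠ r} → ℝ) (w : V) :
    ∑ i : {v // v ≠ r}, x i * (if w = i.1 then (1 : ℝ) else 0) = ext0 r x w := by
  by_cases h : w ≠ r
  · rw [Finset.sum_eq_single (⟨w, h⟩ : {v // v ≠ r})]
    · simp [ext0, h]
    · intro b _ hb
      have : w ≠ b.1 := fun hw => hb (Subtype.ext hw.symm)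
      simp [this]
    · simp
  · have hw : w = r := by simpa using h
    subst hw
    rw [Finset.sum_eq_zero]
    · simp [ext0]
    · intro i _
      have : w ≠ i.1 := fun hw => i.2 hw.symm
      simp [this]

lemma sum_mul_inc (src tgt : E → V) (r : V) (x : {v // v ≠ r} → ℝ) (g : E) :
    ∑ i, x i * inc src tgt r i g = ext0 r x (tgt g) - ext0 r x (src g) := by
  simp only [inc, mul_sub, Finset.sum_sub_distrib, sum_mul_ite_eq]

lemma ext0_of_ne (r : V) (x : {v // v ≠ r} → ℝ) (i : {v // v ≠ r}) : ext0 r x i.1 = x i := by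
  simp [ext0, i.2]

lemma ext0_root (r : V) (x : {v // v ≠ r} → ℝ) : ext0 r x r = 0 := by
  simp [ext0]

end Potential

section Rows

/-- Rows of the reduced incidence matrix over a set missing a cut are dependent. -/
lemma det_zero_of_miss (src tgt : E → V) (r : V) (φ : {v // v ≠ r} → E) (A : Finset V)
    (hne : A.Nonempty) (hA : A ≠ univ) (hmiss : ∀ j, φ j ∉ cut src tgt A) :
    ((inc src tgt r).submatrix id φ).det = 0 := by
  classical
  -- pass to a side not containing the root
  obtain ⟨A', hA'ne, hrA', hmiss'⟩ : ∃ A' : Finset V, A'.Nonempty ∧ r ∉ A' ∧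
      ∀ j, φ j ∉ cut src tgt A' := by
    by_cases hr : r ∈ A
    · refine ⟨Aᶜ, ?_, by simpa using hr, ?_⟩
      · obtain ⟨v, hv⟩ : ∃ v, v ∉ A := by
          by_contra hcon
          push Not at hcon
          exact hA (Finset.eq_univ_iff_forall.mpr hcon)
        exact ⟨v, by simpa using hv⟩
      · intro j hj
        apply hmiss j
        simp only [cut, mem_filter, mem_univ, true_and, mem_compl, not_not] at hj ⊢
        tauto
    · exact ⟨A, hne, hr, hmiss⟩
  rw [← Matrix.exists_vecMul_eq_zero_iff]
  refine ⟨fun i => if i.1 ∈ A' then 1 else 0, ?_, ?_⟩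
  · obtain ⟨v, hv⟩ := hA'ne
    have hvr : v ≠ r := fun h => hrA' (h ▸ hv)
    intro h0
    have := congrFun h0 ⟨v, hvr⟩
    simp [hv] at this
  · ext j
    have h1 : (∑ i : {v // v ≠ r}, (if i.1 ∈ A' then (1 : ℝ) else 0) * inc src tgt r i (φ j)) =
        ext0 r (fun i => if i.1 ∈ A' then 1 else 0) (tgt (φ j)) -
          ext0 r (fun i => if i.1 ∈ A' then 1 else 0) (src (φ j)) :=
      sum_mul_inc src tgt r _ (φ j)
    have h2 : ∀ w, ext0 r (fun i => if i.1 ∈ A' then (1 : ℝ) else 0) w = if w ∈ A' then 1 else 0 := by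
      intro w
      by_cases hw : w ≠ r
      · simp [ext0, hw]
      · have : w = r := by simpa using hw
        subst this
        simp [ext0, hrA']
    have h3 := hmiss' j
    simp only [cut, mem_filter, mem_univ, true_and, not_or, not_and, not_not] at h3
    simp only [Matrix.vecMul, dotProduct, Matrix.submatrix_apply, id, Pi.zero_apply]
    rw [h1, h2, h2]
    by_cases hs : src (φ j) ∈ A'
    · have : tgt (φ j) ∈ A' := h3.1 hs
      simp [hs, this]
    · have : tgt (φ j) ∉ A' := fun ht => hs (h3.2 hs |>.elim ht)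
      simp [hs, this]

/-- Integer version of the reduced incidence matrix. -/
def incZ (src tgt : E → V) (r : V) : Matrix {v // v ≠ r} E ℤ :=
  fun v e => (if tgt e = v.1 then 1 else 0) - (if src e = v.1 then 1 else 0)

lemma exists_unit_span (src tgt : E → V) (r : V) (φ : {v // v ≠ r} → E)
    (hit : ∀ S : Finset V, S.Nonempty → S ≠ univ → ∃ j, φ j ∈ cut src tgt S) (v : V) :
    ∃ y : {v // v ≠ r} → ℤ, ∀ i : {v // v ≠ r},
      ∑ j, incZ src tgt r i (φ j) * y j = if i.1 = v then 1 else 0 := by
  classical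
  set A : Finset V := univ.filter (fun v => ∃ y : {v // v ≠ r} → ℤ, ∀ i : {v // v ≠ r},
      ∑ j, incZ src tgt r i (φ j) * y j = if i.1 = v then 1 else 0) with hA
  have hrA : r ∈ A := by
    simp only [hA, mem_filter, mem_univ, true_and]
    refine ⟨0, fun i => ?_⟩
    simp [i.2]
  by_contra hv
  have hvA : v ∉ A := by
    simpa [hA] using hv
  have hAu : A ≠ univ := fun h => hvA (h ▸ mem_univ v)
  obtain ⟨j₀, hj₀⟩ := hit A ⟨r, hrA⟩ hAu
  simp only [cut, mem_filter, mem_univ, true_and] at hj₀
  have hinc : ∀ i : {v // v ≠ r}, ∀ e : E, incZ src tgt r i e =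
      (if i.1 = tgt e then 1 else 0) - (if i.1 = src e then 1 else 0) := by
    intro i e
    simp only [incZ, eq_comm]
  rcases hj₀ with ⟨hs, ht⟩ | ⟨hs, ht⟩
  · apply ht
    simp only [hA, mem_filter, mem_univ, true_and] at hs ⊢
    obtain ⟨y, hy⟩ := hs
    refine ⟨fun j => y j + if j = j₀ then 1 else 0, fun i => ?_⟩
    have h1 : ∑ j, incZ src tgt r i (φ j) * (y j + if j = j₀ then 1 else 0) =
        ∑ j, incZ src tgt r i (φ j) * y j + incZ src tgt r i (φ j₀) := by
      simp [mul_add, Finset.sum_add_distrib]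
    rw [h1, hy i, hinc]
    ring
  · apply hs
    simp only [hA, mem_filter, mem_univ, true_and] at ht ⊢
    obtain ⟨y, hy⟩ := ht
    refine ⟨fun j => y j - if j = j₀ then 1 else 0, fun i => ?_⟩
    have h1 : ∑ j, incZ src tgt r i (φ j) * (y j - if j = j₀ then 1 else 0) =
        ∑ j, incZ src tgt r i (φ j) * y j - incZ src tgt r i (φ j₀) := by
      simp [mul_sub, Finset.sum_sub_distrib]
    rw [h1, hy i, hinc]
    ring

lemma det_sq_of_hit (src tgt : E → V) (r : V) (φ : {v // v ≠ r} → E)
    (hit : ∀ S : Finset V, S.Nonempty → S ≠ univ → ∃ j, φ j ∈ cut src tgt S) :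
    ((inc src tgt r).submatrix id φ).det ^ 2 = 1 := by
  classical
  have hex := fun k : {v // v ≠ r} => exists_unit_span src tgt r φ hit k.1
  choose y hy using hex
  set Mz : Matrix {v // v ≠ r} {v // v ≠ r} ℤ := (incZ src tgt r).submatrix id φ with hMz
  set Y : Matrix {v // v ≠ r} {v // v ≠ r} ℤ := fun j k => y k j with hY
  have hmul : Mz * Y = 1 := by
    ext i k
    rw [Matrix.mul_apply, Matrix.one_apply]
    simp only [hMz, hY, Matrix.submatrix_apply, id]
    rw [hy k i]
    simp [Subtype.ext_iff]
  have hdet : Mz.det * Y.det = 1 := by rw [← Matrix.det_mul, hmul, Matrix.det_one]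
  have hunit : IsUnit Mz.det := IsUnit.of_mul_eq_one _ hdet
  have hsq : Mz.det ^ 2 = 1 := by
    rcases Int.isUnit_iff.mp hunit with h | h <;> simp [h]
  have hcast : ((inc src tgt r).submatrix id φ).det = ((Mz.det : ℤ) : ℝ) := by
    have := (Int.castRingHom ℝ).map_det Mz
    simp only [eq_intCast] at this
    rw [this]
    congr 1
    ext i j
    simp only [hMz, inc, incZ, RingHom.mapMatrix_apply, Matrix.map_apply, Matrix.submatrix_apply, id]
    split_ifs <;> simp
  rw [hcast]
  exact_mod_cast hsq

end Rows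

lemma card_nonroot (r : V) : Fintype.card {v // v ≠ r} + 1 = Fintype.card V := by
  have h1 : Fintype.card {v // v ≠ r} = Fintype.card V - 1 := by
    simp [Fintype.card_subtype_compl]
  have h2 : 0 < Fintype.card V := Fintype.card_pos_iff.mpr ⟨r⟩
  omega

/-- **Weighted matrix-tree theorem.**  Proof: Cauchy-Binet; a set of `|V|-1` edges missing a cut
has a singular incidence block (`det_zero_of_miss`), and a spanning tree has an incidence block of
determinant `±1` (`det_sq_of_hit`). -/
theorem matrix_tree (src tgt : E → V) (r : V) (c : E → ℝ) :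
    (inc src tgt r * Matrix.diagonal c * (inc src tgt r)ᵀ).det =
      treeSum src tgt c (fun _ => True) := by
  classical
  have hcard := card_nonroot r
  rw [cauchy_binet (inc src tgt r) c (fun S => if IsST src tgt S then 1 else 0)]
  · simp only [treeSum, and_true, mul_ite, mul_one, mul_zero]
    rw [← Finset.sum_filter]
    refine Finset.sum_congr ?_ (fun _ _ => rfl)
    ext T
    simp only [mem_filter, mem_powersetCard, subset_univ, true_and, mem_univ]
    constructor
    · exact fun h => h.2
    · intro h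
      exact ⟨by have := h.1; omega, h⟩
  · intro φ hφ
    by_cases hst : IsST src tgt (univ.image φ)
    · rw [if_pos hst]
      apply det_sq_of_hit
      intro S hS hSu
      obtain ⟨e, he, hc⟩ := hst.2 S hS hSu
      obtain ⟨j, -, rfl⟩ := mem_image.mp he
      exact ⟨j, hc⟩
    · rw [if_neg hst]
      have hcardS : (univ.image φ).card + 1 = Fintype.card V := by
        rw [Finset.card_image_of_injective _ hφ, Finset.card_univ]
        exact hcard
      have : ¬ ∀ S : Finset V, S.Nonempty → S ≠ univ → ∃ e ∈ univ.image φ, e ∈ cut src tgt S :=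
        fun h => hst ⟨hcardS, h⟩
      push Not at this
      obtain ⟨A, hA, hAu, hmiss⟩ := this
      rw [det_zero_of_miss src tgt r φ A hA hAu
        (fun j => hmiss _ (mem_image_of_mem _ (mem_univ _)))]
      simp

section Rayleigh

/-- The difference of a function on non-root vertices along an edge. -/
def dd (src tgt : E → V) (r : V) (x : {v // v ≠ r} → ℝ) (g : E) : ℝ :=
  ext0 r x (tgt g) - ext0 r x (src g)

/-- The reduced weighted Laplacian. -/
def lap (src tgt : E → V) (r : V) (c : E → ℝ) : Matrix {v // v ≠ r} {v // v ≠ r} ℝ :=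
  inc src tgt r * Matrix.diagonal c * (inc src tgt r)ᵀ

lemma vecMul_inc (src tgt : E → V) (r : V) (x : {v // v ≠ r} → ℝ) (g : E) :
    (x ᵥ* inc src tgt r) g = dd src tgt r x g := by
  simp only [Matrix.vecMul, dotProduct]
  exact sum_mul_inc src tgt r x g

lemma transpose_mulVec_inc (src tgt : E → V) (r : V) (x : {v // v ≠ r} → ℝ) (g : E) :
    ((inc src tgt r)ᵀ *ᵥ x) g = dd src tgt r x g := by
  rw [Matrix.mulVec_transpose]
  exact vecMul_inc src tgt r x g

lemma dot_lap (src tgt : E → V) (r : V) (c : E → ℝ) (x y : {v // v ≠ r} → ℝ) :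
    x ⬝ᵥ (lap src tgt r c *ᵥ y) = ∑ g, c g * dd src tgt r x g * dd src tgt r y g := by
  simp only [lap]
  rw [← Matrix.mulVec_mulVec, ← Matrix.mulVec_mulVec, Matrix.dotProduct_mulVec]
  simp only [dotProduct, Matrix.mulVec_diagonal, vecMul_inc, transpose_mulVec_inc]
  exact Finset.sum_congr rfl fun g _ => by ring

lemma dot_col (src tgt : E → V) (r : V) (x : {v // v ≠ r} → ℝ) (g : E) :
    (fun i => inc src tgt r i g) ⬝ᵥ x = dd src tgt r x g := by
  simp only [dotProduct]
  have := sum_mul_inc src tgt r x g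
  simp only [dd]
  rw [← this]
  exact Finset.sum_congr rfl fun i _ => by ring

/-- Connectivity: a potential with vanishing differences vanishes. -/
lemma eq_zero_of_dd (src tgt : E → V) (hconn : IsConn src tgt) (r : V) (x : {v // v ≠ r} → ℝ)
    (h : ∀ g, dd src tgt r x g = 0) : x = 0 := by
  classical
  by_contra hx
  obtain ⟨i, hi⟩ : ∃ i, x i ≠ 0 := by
    by_contra hcon
    push Not at hcon
    exact hx (funext hcon)
  set A : Finset V := univ.filter (fun v => ext0 r x v ≠ 0) with hA
  have hiA : i.1 ∈ A := by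
    simp [hA, ext0_of_ne, hi]
  have hrA : r ∉ A := by
    simp [hA, ext0_root]
  obtain ⟨g, hg⟩ := hconn A ⟨i.1, hiA⟩ (fun hu => hrA (hu ▸ mem_univ r))
  simp only [cut, mem_filter, mem_univ, true_and, hA, not_not] at hg
  have := h g
  simp only [dd] at this
  rcases hg with ⟨h1, h2⟩ | ⟨h1, h2⟩
  · rw [h2] at this
    exact h1 (by linarith)
  · rw [h1] at this
    exact h2 (by linarith)

lemma lap_det_ne_zero (src tgt : E → V) (hconn : IsConn src tgt) (c : E → ℝ)
    (hc : ∀ e, 0 < c e) (r : V) : (lap src tgt r c).det ≠ 0 := by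
  intro h0
  obtain ⟨x, hx, hLx⟩ := Matrix.exists_mulVec_eq_zero_iff.mpr h0
  apply hx
  apply eq_zero_of_dd src tgt hconn r x
  intro g
  have h1 : ∑ g, c g * dd src tgt r x g * dd src tgt r x g = 0 := by
    rw [← dot_lap, hLx]
    simp
  have h2 : ∀ g ∈ (univ : Finset E), 0 ≤ c g * dd src tgt r x g * dd src tgt r x g := by
    intro g _
    have := mul_nonneg (hc g).le (mul_self_nonneg (dd src tgt r x g))
    linarith [this, mul_assoc (c g) (dd src tgt r x g) (dd src tgt r x g)]
  have h3 := (Finset.sum_eq_zero_iff_of_nonneg h2).mp h1 g (mem_univ g)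
  have h4 : c g ≠ 0 := (hc g).ne'
  simpa [h4] using h3

lemma treeSum_nonneg (src tgt : E → V) (c : E → ℝ) (hc : ∀ e, 0 < c e) (P : Finset E → Prop) :
    0 ≤ treeSum src tgt c P := by
  classical
  simp only [treeSum]
  exact Finset.sum_nonneg fun T _ => Finset.prod_nonneg fun e _ => (hc e).le

/-- The total tree weight is positive in a connected multigraph with positive weights. -/
theorem treeSum_pos (src tgt : E → V) (hconn : IsConn src tgt) [Nonempty V] (c : E → ℝ)
    (hc : ∀ e, 0 < c e) : 0 < treeSum src tgt c (fun _ => True) := by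
  obtain ⟨r⟩ := ‹Nonempty V›
  have h := matrix_tree src tgt r c
  have h1 := lap_det_ne_zero src tgt hconn c hc r
  have h2 := treeSum_nonneg src tgt c hc (fun _ => True)
  rw [← h]
  rw [← h] at h2
  exact lt_of_le_of_ne h2 (Ne.symm h1)

/-- Solutions of the Laplace equation. -/
lemma exists_lap_sol (src tgt : E → V) (hconn : IsConn src tgt) (c : E → ℝ)
    (hc : ∀ e, 0 < c e) (r : V) (b : {v // v ≠ r} → ℝ) :
    ∃ u, lap src tgt r c *ᵥ u = b := by
  refine ⟨(lap src tgt r c)⁻¹ *ᵥ b, ?_⟩
  rw [Matrix.mulVec_mulVec, Matrix.mul_nonsing_inv _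
    (isUnit_iff_ne_zero.mpr (lap_det_ne_zero src tgt hconn c hc r)), Matrix.one_mulVec]

/-- The determinant of a rank two update. -/
lemma det_rank_two {n : Type*} [Fintype n] [DecidableEq n] (L : Matrix n n ℝ)
    (a₁ a₂ u₁ u₂ : n → ℝ) (h₁ : L *ᵥ u₁ = a₁) (h₂ : L *ᵥ u₂ = a₂) (s t : ℝ) :
    (L + s • Matrix.vecMulVec a₁ a₁ + t • Matrix.vecMulVec a₂ a₂).det =
      L.det * ((1 + s * (a₁ ⬝ᵥ u₁)) * (1 + t * (a₂ ⬝ᵥ u₂)) - s * t * (a₁ ⬝ᵥ u₂) * (a₂ ⬝ᵥ u₁)) := by
  set U : Matrix n (Fin 2) ℝ := fun i k => if k = 0 then a₁ i else a₂ i with hU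
  set W : Matrix n (Fin 2) ℝ := fun i k => if k = 0 then u₁ i else u₂ i with hW
  set X : Matrix (Fin 2) n ℝ := fun k i => if k = 0 then s * a₁ i else t * a₂ i with hX
  have hLW : L * W = U := by
    ext i k
    rw [Matrix.mul_apply]
    fin_cases k
    · have := congrFun h₁ i
      simpa [hW, hU, Matrix.mulVec, dotProduct] using this
    · have := congrFun h₂ i
      simpa [hW, hU, Matrix.mulVec, dotProduct] using this
  have hUX : U * X = s • Matrix.vecMulVec a₁ a₁ + t • Matrix.vecMulVec a₂ a₂ := by
    ext i j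
    rw [Matrix.mul_apply]
    simp [hU, hX, Fin.sum_univ_two, Matrix.vecMulVec_apply]
    ring
  have hmain : L + s • Matrix.vecMulVec a₁ a₁ + t • Matrix.vecMulVec a₂ a₂ = L * (1 + W * X) := by
    rw [Matrix.mul_add, Matrix.mul_one, ← Matrix.mul_assoc, hLW, hUX, add_assoc]
  rw [hmain, Matrix.det_mul, Matrix.det_one_add_mul_comm, Matrix.det_fin_two]
  congr 1
  have e00 : ((1 : Matrix (Fin 2) (Fin 2) ℝ) + X * W) 0 0 = 1 + s * (a₁ ⬝ᵥ u₁) := by
    rw [Matrix.add_apply, Matrix.mul_apply]
    simp [hX, hW, dotProduct, Finset.mul_sum, mul_assoc]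
  have e11 : ((1 : Matrix (Fin 2) (Fin 2) ℝ) + X * W) 1 1 = 1 + t * (a₂ ⬝ᵥ u₂) := by
    rw [Matrix.add_apply, Matrix.mul_apply]
    simp [hX, hW, dotProduct, Finset.mul_sum, mul_assoc]
  have e01 : ((1 : Matrix (Fin 2) (Fin 2) ℝ) + X * W) 0 1 = s * (a₁ ⬝ᵥ u₂) := by
    rw [Matrix.add_apply, Matrix.mul_apply]
    simp [hX, hW, dotProduct, Finset.mul_sum, mul_assoc]
  have e10 : ((1 : Matrix (Fin 2) (Fin 2) ℝ) + X * W) 1 0 = t * (a₂ ⬝ᵥ u₁) := by
    rw [Matrix.add_apply, Matrix.mul_apply]
    simp [hX, hW, dotProduct, Finset.mul_sum, mul_assoc]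
  rw [e00, e11, e01, e10]
  ring

open Classical in
lemma treeSum_eq (src tgt : E → V) (c : E → ℝ) (P : Finset E → Prop) :
    treeSum src tgt c P =
      ∑ T ∈ univ.filter (fun T => IsST src tgt T), if P T then ∏ e ∈ T, c e else 0 := by
  simp only [treeSum]
  rw [← Finset.sum_filter, Finset.filter_filter]

/-- The weights `c` with `e`-th entry raised by `s` and the `f`-th by `t`. -/
def upd (c : E → ℝ) (e f : E) (s t : ℝ) (g : E) : ℝ :=
  c g + (if g = e then s else 0) + (if g = f then t else 0)

lemma lap_upd (src tgt : E → V) (r : V) (c : E → ℝ) (e f : E) (s t : ℝ) :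
    lap src tgt r (upd c e f s t) = lap src tgt r c +
      s • Matrix.vecMulVec (fun i => inc src tgt r i e) (fun i => inc src tgt r i e) +
      t • Matrix.vecMulVec (fun i => inc src tgt r i f) (fun i => inc src tgt r i f) := by
  have hd : Matrix.diagonal (upd c e f s t) = Matrix.diagonal c +
      Matrix.diagonal (fun g => if g = e then s else 0) +
      Matrix.diagonal (fun g => if g = f then t else 0) := by
    ext g h
    by_cases hgh : g = h
    · subst hgh
      simp [upd, Matrix.add_apply]
    · simp [hgh, Matrix.add_apply]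
  have hs : ∀ (e : E) (s : ℝ), inc src tgt r * Matrix.diagonal (fun g => if g = e then s else 0) *
      (inc src tgt r)ᵀ = s • Matrix.vecMulVec (fun i => inc src tgt r i e) (fun i => inc src tgt r i e) := by
    intro e s
    ext i j
    simp [Matrix.mul_apply, Matrix.diagonal_apply, Matrix.vecMulVec_apply]
    ring
  simp only [lap]
  rw [hd, Matrix.mul_add, Matrix.mul_add, Matrix.add_mul, Matrix.add_mul, hs, hs]

lemma treeSum_upd (src tgt : E → V) (c : E → ℝ) (e f : E) (hef : e ≠ f) (he : c e ≠ 0)
    (hf : c f ≠ 0) (s t : ℝ) :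
    treeSum src tgt (upd c e f s t) (fun _ => True) =
      treeSum src tgt c (fun _ => True) + s / c e * treeSum src tgt c (fun T => e ∈ T) +
      t / c f * treeSum src tgt c (fun T => f ∈ T) +
      s / c e * (t / c f) * treeSum src tgt c (fun T => e ∈ T ∧ f ∈ T) := by
  classical
  have hprod : ∀ T : Finset E, ∏ g ∈ T, upd c e f s t g =
      (∏ g ∈ T, c g) * (if e ∈ T then 1 + s / c e else 1) * (if f ∈ T then 1 + t / c f else 1) := by
    intro T
    have hg : ∀ g, upd c e f s t g =
        c g * (if g = e then 1 + s / c e else 1) * (if g = f then 1 + t / c f else 1) := by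
      intro g
      by_cases h1 : g = e
      · subst h1
        simp [upd, hef]
        field_simp
      · by_cases h2 : g = f
        · subst h2
          simp [upd, h1]
          field_simp
        · simp [upd, h1, h2]
    simp only [hg, Finset.prod_mul_distrib, Finset.prod_ite_eq']
  simp only [treeSum_eq, hprod, Finset.mul_sum, ← Finset.sum_add_distrib]
  refine Finset.sum_congr rfl fun T _ => ?_
  by_cases h1 : e ∈ T <;> by_cases h2 : f ∈ T <;> simp [h1, h2] <;> ring

lemma treeSum_upd_one (src tgt : E → V) (c : E → ℝ) (e : E) (he : c e ≠ 0) (s : ℝ) :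
    treeSum src tgt (upd c e e s 0) (fun _ => True) =
      treeSum src tgt c (fun _ => True) + s / c e * treeSum src tgt c (fun T => e ∈ T) := by
  classical
  have hprod : ∀ T : Finset E, ∏ g ∈ T, upd c e e s 0 g =
      (∏ g ∈ T, c g) * (if e ∈ T then 1 + s / c e else 1) := by
    intro T
    have hg : ∀ g, upd c e e s 0 g = c g * (if g = e then 1 + s / c e else 1) := by
      intro g
      by_cases h1 : g = e
      · subst h1
        simp [upd]
        field_simp
      · simp [upd, h1]
    simp only [hg, Finset.prod_mul_distrib, Finset.prod_ite_eq']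
  simp only [treeSum_eq, hprod, Finset.mul_sum, ← Finset.sum_add_distrib]
  refine Finset.sum_congr rfl fun T _ => ?_
  by_cases h1 : e ∈ T <;> simp [h1]
  ring

lemma det_lap_eq (src tgt : E → V) (r : V) (c : E → ℝ) :
    (lap src tgt r c).det = treeSum src tgt c (fun _ => True) := matrix_tree src tgt r c

/-- Kirchhoff's formula: the weight of trees through `e` is `c_e α Z`. -/
lemma treeSum_mem_eq (src tgt : E → V) (r : V) (c : E → ℝ) (e : E) (he : c e ≠ 0)
    (u : {v // v ≠ r} → ℝ) (hu : lap src tgt r c *ᵥ u = fun i => inc src tgt r i e) :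
    treeSum src tgt c (fun T => e ∈ T) =
      c e * dd src tgt r u e * treeSum src tgt c (fun _ => True) := by
  have h1 := det_lap_eq src tgt r (upd c e e 1 0)
  rw [treeSum_upd_one src tgt c e he 1, lap_upd,
    det_rank_two (lap src tgt r c) _ _ u u hu hu 1 0, dot_col, det_lap_eq] at h1
  field_simp at h1
  have h2 : c e * treeSum src tgt c (fun _ => True) * dd src tgt r u e =
      treeSum src tgt c (fun T => e ∈ T) := by linarith
  rw [← h2]
  ring

/-- Representation of the difference along `e` through the Laplace solution. -/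
lemma dd_eq_sum (src tgt : E → V) (r : V) (c : E → ℝ) (e : E)
    (u : {v // v ≠ r} → ℝ) (hu : lap src tgt r c *ᵥ u = fun i => inc src tgt r i e)
    (x : {v // v ≠ r} → ℝ) :
    dd src tgt r x e = ∑ g, c g * dd src tgt r x g * dd src tgt r u g := by
  rw [← dot_lap, hu, dotProduct_comm, dot_col]

/-- The Rayleigh (negative correlation) inequality for weighted spanning trees. -/
theorem treeSum_negCorr (src tgt : E → V) (hconn : IsConn src tgt) (c : E → ℝ)
    (hc : ∀ e, 0 < c e) (e f : E) (hef : e ≠ f) :
    treeSum src tgt c (fun T => e ∈ T ∧ f ∈ T) * treeSum src tgt c (fun _ => True) ≤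
      treeSum src tgt c (fun T => e ∈ T) * treeSum src tgt c (fun T => f ∈ T) := by
  set r := src e with hr
  have hce := (hc e).ne'
  have hcf := (hc f).ne'
  obtain ⟨u, hu⟩ := exists_lap_sol src tgt hconn c hc r (fun i => inc src tgt r i e)
  obtain ⟨v, hv⟩ := exists_lap_sol src tgt hconn c hc r (fun i => inc src tgt r i f)
  have hZe := treeSum_mem_eq src tgt r c e hce u hu
  have hZf := treeSum_mem_eq src tgt r c f hcf v hv
  have hsym : dd src tgt r v e = dd src tgt r u f := by
    rw [dd_eq_sum src tgt r c e u hu v, dd_eq_sum src tgt r c f v hv u]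
    exact Finset.sum_congr rfl fun g _ => by ring
  have h1 := det_lap_eq src tgt r (upd c e f 1 1)
  rw [treeSum_upd src tgt c e f hef hce hcf 1 1, lap_upd,
    det_rank_two (lap src tgt r c) _ _ u v hu hv 1 1, dot_col, dot_col, dot_col, dot_col,
    det_lap_eq, hZe, hZf, hsym] at h1
  set Z := treeSum src tgt c (fun _ => True) with hZ
  set α := dd src tgt r u e
  set β := dd src tgt r v f
  set γ := dd src tgt r u f
  set W := treeSum src tgt c (fun T => e ∈ T ∧ f ∈ T) with hW
  have h2 : W = c e * c f * Z * (α * β - γ * γ) := by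
    field_simp at h1
    linarith
  rw [hZe, hZf, h2]
  have h3 : 0 ≤ c e * c f * Z ^ 2 * γ ^ 2 := by
    have := (hc e).le
    have := (hc f).le
    positivity
  nlinarith [h3]

/-- Dirichlet principle, lower bound. -/
theorem dirichlet_le (src tgt : E → V) (hconn : IsConn src tgt) (c : E → ℝ)
    (hc : ∀ e, 0 < c e) (e : E) (ψ : V → ℝ) :
    c e * (ψ (tgt e) - ψ (src e)) ^ 2 * treeSum src tgt c (fun _ => True) ≤
      treeSum src tgt c (fun T => e ∈ T) * ∑ g, c g * (ψ (tgt g) - ψ (src g)) ^ 2 := by
  set r := src e with hr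
  have hce := (hc e).ne'
  obtain ⟨u, hu⟩ := exists_lap_sol src tgt hconn c hc r (fun i => inc src tgt r i e)
  have hZe := treeSum_mem_eq src tgt r c e hce u hu
  set x : {v // v ≠ r} → ℝ := fun i => ψ i.1 - ψ r with hx
  have hext : ∀ v, ext0 r x v = ψ v - ψ r := by
    intro v
    by_cases h : v ≠ r
    · simp [ext0, h, hx]
    · have : v = r := by simpa using h
      subst this
      simp [ext0]
  have hdd : ∀ g, dd src tgt r x g = ψ (tgt g) - ψ (src g) := by
    intro g
    simp only [dd, hext]
    ring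
  have hα : dd src tgt r u e = ∑ g, c g * dd src tgt r u g ^ 2 := by
    rw [dd_eq_sum src tgt r c e u hu u]
    exact Finset.sum_congr rfl fun g _ => by ring
  have hcs : dd src tgt r x e ^ 2 ≤
      (∑ g, c g * dd src tgt r x g ^ 2) * ∑ g, c g * dd src tgt r u g ^ 2 := by
    rw [dd_eq_sum src tgt r c e u hu x]
    apply Finset.sum_sq_le_sum_mul_sum_of_sq_le_mul
    · intro g _
      have := (hc g).le
      positivity
    · intro g _
      have := (hc g).le
      positivity
    · intro g _
      exact le_of_eq (by ring)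
  rw [hZe, hα]
  simp only [hdd] at hcs
  have hZ : 0 ≤ treeSum src tgt c (fun _ => True) := treeSum_nonneg src tgt c hc _
  have := mul_le_mul_of_nonneg_left hcs (mul_nonneg (hc e).le hZ)
  nlinarith [this]

/-- Dirichlet principle, the minimiser. -/
theorem exists_dirichlet_eq (src tgt : E → V) (hconn : IsConn src tgt) (c : E → ℝ)
    (hc : ∀ e, 0 < c e) (hne : ∀ e, src e ≠ tgt e) (e : E) :
    ∃ ψ : V → ℝ, ψ (tgt e) - ψ (src e) = 1 ∧
      c e * treeSum src tgt c (fun _ => True) =
        treeSum src tgt c (fun T => e ∈ T) * ∑ g, c g * (ψ (tgt g) - ψ (src g)) ^ 2 := by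
  set r := src e with hr
  have hce := (hc e).ne'
  obtain ⟨u, hu⟩ := exists_lap_sol src tgt hconn c hc r (fun i => inc src tgt r i e)
  have hZe := treeSum_mem_eq src tgt r c e hce u hu
  have hα : dd src tgt r u e = ∑ g, c g * dd src tgt r u g ^ 2 := by
    rw [dd_eq_sum src tgt r c e u hu u]
    exact Finset.sum_congr rfl fun g _ => by ring
  -- the solution is nonzero, so the effective conductance is positive
  have hαne : dd src tgt r u e ≠ 0 := by
    intro h0
    have hall : ∀ g, dd src tgt r u g = 0 := by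
      intro g
      have h1 : ∑ g, c g * dd src tgt r u g ^ 2 = 0 := by rw [← hα, h0]
      have h2 : ∀ g ∈ (univ : Finset E), 0 ≤ c g * dd src tgt r u g ^ 2 := by
        intro g _
        have := (hc g).le
        positivity
      have h3 := (Finset.sum_eq_zero_iff_of_nonneg h2).mp h1 g (mem_univ g)
      have h4 : c g ≠ 0 := (hc g).ne'
      simpa [h4] using h3
    have hu0 : u = 0 := eq_zero_of_dd src tgt hconn r u hall
    have htr : tgt e ≠ r := fun h => hne e (by rw [h])
    have := congrFun hu ⟨tgt e, htr⟩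
    rw [hu0, Matrix.mulVec_zero] at this
    have hne' : src e ≠ tgt e := hne e
    simp [inc, hne'] at this
  set α := dd src tgt r u e with hαdef
  refine ⟨fun v => ext0 r u v / α, ?_, ?_⟩
  · have : ext0 r u (tgt e) / α - ext0 r u (src e) / α = α / α := by
      rw [← sub_div]
      rfl
    exact this.trans (div_self hαne)
  · have hterm : ∀ g, c g * (ext0 r u (tgt g) / α - ext0 r u (src g) / α) ^ 2 =
        c g * dd src tgt r u g ^ 2 / α ^ 2 := by
      intro g
      simp only [dd]
      field_simp
    simp only [hterm, ← Finset.sum_div, ← hα]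
    rw [hZe]
    field_simp

lemma treeSum_not_mem (src tgt : E → V) (c : E → ℝ) (e : E) :
    treeSum src tgt c (fun T => e ∉ T) =
      treeSum src tgt c (fun _ => True) - treeSum src tgt c (fun T => e ∈ T) := by
  classical
  simp only [treeSum_eq]
  rw [← Finset.sum_sub_distrib]
  refine Finset.sum_congr rfl fun T _ => ?_
  by_cases h : e ∈ T <;> simp [h]

/-- Divergence of an edge function at non-root vertices. -/
lemma div_eq_sum_inc (src tgt : E → V) (r : V) (θ : E → ℝ) (i : {v // v ≠ r}) :
    ∑ f, ((if tgt f = i.1 then θ f else 0) - (if src f = i.1 then θ f else 0)) =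
      ∑ f, inc src tgt r i f * θ f := by
  refine Finset.sum_congr rfl fun f _ => ?_
  simp only [inc]
  split_ifs <;> ring

/-- The divergence sums to zero over all vertices. -/
lemma sum_div_eq_zero (src tgt : E → V) (θ : E → ℝ) :
    ∑ v, ∑ f, ((if tgt f = v then θ f else 0) - (if src f = v then θ f else 0)) = 0 := by
  rw [Finset.sum_comm]
  refine Finset.sum_eq_zero fun f _ => ?_
  rw [Finset.sum_sub_distrib]
  simp

/-- Laplace equation as a divergence equation. -/
lemma lap_mulVec_apply (src tgt : E → V) (r : V) (c : E → ℝ) (u : {v // v ≠ r} → ℝ)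
    (i : {v // v ≠ r}) :
    (lap src tgt r c *ᵥ u) i = ∑ f, inc src tgt r i f * (c f * dd src tgt r u f) := by
  simp only [lap]
  rw [← Matrix.mulVec_mulVec, ← Matrix.mulVec_mulVec]
  have hw : (Matrix.diagonal c *ᵥ ((inc src tgt r)ᵀ *ᵥ u)) = fun f => c f * dd src tgt r u f := by
    ext f
    rw [Matrix.mulVec_diagonal, transpose_mulVec_inc]
  rw [hw]
  rfl

/-- The extremal flow `δ_e - c ∇u` where `L u = b_e`. -/
def exFlow (src tgt : E → V) (r : V) (c : E → ℝ) (e : E) (u : {v // v ≠ r} → ℝ) (f : E) : ℝ :=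
  (if f = e then 1 else 0) - c f * dd src tgt r u f

lemma exFlow_div (src tgt : E → V) (r : V) (c : E → ℝ) (e : E) (u : {v // v ≠ r} → ℝ)
    (hu : lap src tgt r c *ᵥ u = fun i => inc src tgt r i e) (v : V) :
    ∑ f, ((if tgt f = v then exFlow src tgt r c e u f else 0) -
      (if src f = v then exFlow src tgt r c e u f else 0)) = 0 := by
  classical
  have hnon : ∀ i : {v // v ≠ r}, ∑ f, ((if tgt f = i.1 then exFlow src tgt r c e u f else 0) -
      (if src f = i.1 then exFlow src tgt r c e u f else 0)) = 0 := by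
    intro i
    rw [div_eq_sum_inc]
    simp only [exFlow, mul_sub, Finset.sum_sub_distrib, mul_ite, mul_one, mul_zero,
      Finset.sum_ite_eq', mem_univ, if_true]
    rw [← lap_mulVec_apply, hu]
    simp
  by_cases hv : v = r
  · subst hv
    have h0 := sum_div_eq_zero src tgt (exFlow src tgt v c e u)
    rw [← Finset.add_sum_erase _ _ (mem_univ v)] at h0
    have h1 : ∑ w ∈ univ.erase v, ∑ f, ((if tgt f = w then exFlow src tgt v c e u f else 0) -
        (if src f = w then exFlow src tgt v c e u f else 0)) = 0 := by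
      refine Finset.sum_eq_zero fun w hw => ?_
      exact hnon ⟨w, (mem_erase.mp hw).1⟩
    rw [h1, add_zero] at h0
    exact h0
  · exact hnon ⟨v, hv⟩

/-- Divergence free edge functions are orthogonal to gradients. -/
lemma flow_orth (src tgt : E → V) (r : V) (θ : E → ℝ)
    (hθ : ∀ v, ∑ f, ((if tgt f = v then θ f else 0) - (if src f = v then θ f else 0)) = 0)
    (x : {v // v ≠ r} → ℝ) :
    ∑ f, θ f * dd src tgt r x f = 0 := by
  have h1 : ∀ f, θ f * dd src tgt r x f = ∑ i, x i * (inc src tgt r i f * θ f) := by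
    intro f
    simp only [dd]
    rw [← sum_mul_inc src tgt r x f, Finset.mul_sum]
    exact Finset.sum_congr rfl fun i _ => by ring
  simp only [h1]
  rw [Finset.sum_comm]
  refine Finset.sum_eq_zero fun i _ => ?_
  rw [← Finset.mul_sum, ← div_eq_sum_inc, hθ i.1, mul_zero]

/-- Inner product of a divergence free function with the extremal flow. -/
lemma inner_exFlow (src tgt : E → V) (r : V) (c : E → ℝ) (hc : ∀ e, 0 < c e) (e : E)
    (u : {v // v ≠ r} → ℝ) (θ : E → ℝ)
    (hθ : ∀ v, ∑ f, ((if tgt f = v then θ f else 0) - (if src f = v then θ f else 0)) = 0) :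
    ∑ f, θ f * exFlow src tgt r c e u f / c f = θ e / c e := by
  classical
  have h1 : ∀ f, θ f * exFlow src tgt r c e u f / c f =
      (if f = e then θ f / c f else 0) - θ f * dd src tgt r u f := by
    intro f
    have := (hc f).ne'
    simp only [exFlow]
    split_ifs <;> field_simp
    ring
  simp only [h1, Finset.sum_sub_distrib, Finset.sum_ite_eq', mem_univ, if_true]
  rw [flow_orth src tgt r θ hθ u, sub_zero]

/-- The flow form of Kirchhoff's formula, upper bound (Thomson's principle). -/
theorem flow_le (src tgt : E → V) (hconn : IsConn src tgt) (c : E → ℝ)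
    (hc : ∀ e, 0 < c e) (e : E) (θ : E → ℝ)
    (hθ : ∀ v, ∑ f, ((if tgt f = v then θ f else 0) - (if src f = v then θ f else 0)) = 0) :
    (θ e) ^ 2 / c e * treeSum src tgt c (fun _ => True) ≤
      treeSum src tgt c (fun T => e ∉ T) * ∑ f, (θ f) ^ 2 / c f := by
  classical
  set r := src e with hr
  have hce := (hc e)
  obtain ⟨u, hu⟩ := exists_lap_sol src tgt hconn c hc r (fun i => inc src tgt r i e)
  have hZe := treeSum_mem_eq src tgt r c e hce.ne' u hu
  rw [treeSum_not_mem, hZe]
  set Z := treeSum src tgt c (fun _ => True) with hZ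
  have hZnn : 0 ≤ Z := treeSum_nonneg src tgt c hc _
  set η := exFlow src tgt r c e u with hη
  have hηdiv := exFlow_div src tgt r c e u hu
  have h1 : ∑ f, θ f * η f / c f = θ e / c e := inner_exFlow src tgt r c hc e u θ hθ
  have h2 : ∑ f, η f * η f / c f = η e / c e := inner_exFlow src tgt r c hc e u η hηdiv
  have hηe : η e = 1 - c e * dd src tgt r u e := by simp [hη, exFlow]
  -- Cauchy-Schwarz
  have hcs : (∑ f, θ f * η f / c f) ^ 2 ≤ (∑ f, θ f ^ 2 / c f) * ∑ f, η f * η f / c f := by
    apply Finset.sum_sq_le_sum_mul_sum_of_sq_le_mul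
    · intro f _
      have := (hc f).le
      positivity
    · intro f _
      have := (hc f).le
      have h3 : η f * η f / c f = (η f) ^ 2 / c f := by ring
      rw [h3]
      positivity
    · intro f _
      refine le_of_eq ?_
      have := (hc f).ne'
      field_simp
  rw [h1, h2, hηe] at hcs
  have hce' := hce.ne'
  have h4 : θ e ^ 2 / c e = c e * (θ e / c e) ^ 2 := by
    field_simp
  have h5 : Z - c e * dd src tgt r u e * Z =
      c e * ((1 - c e * dd src tgt r u e) / c e) * Z := by
    field_simp
  rw [h4, h5]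
  have h6 := mul_le_mul_of_nonneg_left hcs (mul_nonneg hce.le hZnn)
  nlinarith [h6]

/-- The flow form of Kirchhoff's formula, the extremal flow. -/
theorem exists_flow_eq (src tgt : E → V) (hconn : IsConn src tgt) (c : E → ℝ)
    (hc : ∀ e, 0 < c e) (e : E) :
    ∃ θ : E → ℝ,
      (∀ v, ∑ f, ((if tgt f = v then θ f else 0) - (if src f = v then θ f else 0)) = 0) ∧
      θ e * treeSum src tgt c (fun _ => True) = treeSum src tgt c (fun T => e ∉ T) ∧
      (θ e) ^ 2 / c e * treeSum src tgt c (fun _ => True) =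
        treeSum src tgt c (fun T => e ∉ T) * ∑ f, (θ f) ^ 2 / c f := by
  classical
  set r := src e with hr
  have hce := (hc e)
  obtain ⟨u, hu⟩ := exists_lap_sol src tgt hconn c hc r (fun i => inc src tgt r i e)
  have hZe := treeSum_mem_eq src tgt r c e hce.ne' u hu
  have hηdiv := exFlow_div src tgt r c e u hu
  have h2 := inner_exFlow src tgt r c hc e u _ hηdiv
  have hηe : exFlow src tgt r c e u e = 1 - c e * dd src tgt r u e := by simp [exFlow]
  refine ⟨exFlow src tgt r c e u, hηdiv, ?_, ?_⟩
  · rw [treeSum_not_mem, hZe, hηe]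
    ring
  · rw [treeSum_not_mem, hZe, hηe]
    have h3 : ∑ f, exFlow src tgt r c e u f ^ 2 / c f = (1 - c e * dd src tgt r u e) / c e := by
      rw [← hηe, ← h2]
      exact Finset.sum_congr rfl fun f _ => by ring
    rw [h3]
    have := hce.ne'
    field_simp

end Rayleigh

end Vale.Agent.Lib.P143
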