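import Vale.Agent.Lib.P143.Defs
import Vale.Agent.Lib.P143.MatrixTree

/-! Spanning trees of a finite subgraph of a simple graph, as edge sets and as multigraph trees. -/

open SimpleGraph

namespace Vale.Agent.Lib.P143

variable {V : Type*} {G : SimpleGraph V}

/-- First endpoint of an edge of a subgraph. -/
noncomputable def hFst (H : G.Subgraph) (e : H.edgeSet) : H.verts :=
  ⟨(Quot.out e.1).1, H.mem_verts_of_mem_edge e.2 (Sym2.out_fst_mem e.1)⟩

/-- Second endpoint of an edge of a subgraph. -/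
noncomputable def hSnd (H : G.Subgraph) (e : H.edgeSet) : H.verts :=
  ⟨(Quot.out e.1).2, H.mem_verts_of_mem_edge e.2 (Sym2.out_snd_mem e.1)⟩

theorem mk_hFst_hSnd (H : G.Subgraph) (e : H.edgeSet) :
    s((hFst H e : V), (hSnd H e : V)) = e.1 :=
  Quot.out_eq e.1

theorem hFst_ne_hSnd (H : G.Subgraph) (e : H.edgeSet) : hFst H e ≠ hSnd H e := by
  intro h
  have h1 := e.2
  rw [← mk_hFst_hSnd H e, SimpleGraph.Subgraph.mem_edgeSet, h] at h1
  exact h1.ne rfl

/-- The graph on `H.verts` with edge set `T`. -/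
abbrev treeGraph (H : G.Subgraph) (T : Set (Sym2 V)) : SimpleGraph H.verts :=
  (SimpleGraph.fromEdgeSet T).comap (Subtype.val : H.verts → V)

theorem treeGraph_adj (H : G.Subgraph) (T : Finset H.edgeSet) (u v : H.verts) :
    (treeGraph H (Subtype.val '' (T : Set H.edgeSet))).Adj u v ↔
      ∃ e ∈ T, (hFst H e = u ∧ hSnd H e = v) ∨ (hFst H e = v ∧ hSnd H e = u) := by
  rw [SimpleGraph.comap_adj, SimpleGraph.fromEdgeSet_adj]
  constructor
  · rintro ⟨⟨e, he, heq⟩, -⟩
    refine ⟨e, he, ?_⟩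
    rw [← mk_hFst_hSnd H e, Sym2.eq_iff] at heq
    rcases heq with ⟨h1, h2⟩ | ⟨h1, h2⟩
    · exact Or.inl ⟨Subtype.ext h1, Subtype.ext h2⟩
    · exact Or.inr ⟨Subtype.ext h1, Subtype.ext h2⟩
  · rintro ⟨e, he, ⟨rfl, rfl⟩ | ⟨rfl, rfl⟩⟩
    · refine ⟨⟨e, he, (mk_hFst_hSnd H e).symm⟩, ?_⟩
      exact fun h => hFst_ne_hSnd H e (Subtype.ext h)
    · refine ⟨⟨e, he, ?_⟩, ?_⟩
      · rw [Sym2.eq_swap]; exact (mk_hFst_hSnd H e).symm
      · exact fun h => hFst_ne_hSnd H e (Subtype.ext h.symm)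

theorem natCard_treeGraph_edgeSet (H : G.Subgraph) (T : Finset H.edgeSet) :
    Nat.card (treeGraph H (Subtype.val '' (T : Set H.edgeSet))).edgeSet = T.card := by
  classical
  set K := treeGraph H (Subtype.val '' (T : Set H.edgeSet)) with hK
  have hbij : Set.BijOn (Sym2.map (Subtype.val : H.verts → V)) K.edgeSet
      (Subtype.val '' (T : Set H.edgeSet)) := by
    refine ⟨?_, (Sym2.map.injective Subtype.val_injective).injOn, ?_⟩
    · intro e he
      induction e using Sym2.ind with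
      | _ u v =>
        have h1 : K.Adj u v := he
        have h2 := (SimpleGraph.comap_adj.1 h1)
        exact ((SimpleGraph.fromEdgeSet_adj _).1 h2).1
    · rintro _ ⟨e, he, rfl⟩
      refine ⟨s(hFst H e, hSnd H e), ?_, mk_hFst_hSnd H e⟩
      show K.Adj _ _
      rw [hK, treeGraph_adj]
      exact ⟨e, he, Or.inl ⟨rfl, rfl⟩⟩
  rw [Nat.card_congr hbij.equiv]
  rw [Nat.card_coe_set_eq, Set.ncard_image_of_injective _ Subtype.val_injective,
    Set.ncard_coe_finset]

section Cut

set_option linter.unusedSectionVars false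

variable (H : G.Subgraph) [Fintype H.verts] [Fintype H.edgeSet] [DecidableEq H.verts]
  [DecidableEq H.edgeSet]

theorem mem_cut_iff (S : Finset H.verts) (e : H.edgeSet) :
    e ∈ cut (hFst H) (hSnd H) S ↔
      (hFst H e ∈ S ∧ hSnd H e ∉ S) ∨ (hFst H e ∉ S ∧ hSnd H e ∈ S) := by
  simp [cut]

theorem connected_treeGraph_iff (T : Finset H.edgeSet) [Nonempty H.verts] :
    (treeGraph H (Subtype.val '' (T : Set H.edgeSet))).Connected ↔
      ∀ S : Finset H.verts, S.Nonempty → S ≠ Finset.univ →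
        ∃ e ∈ T, e ∈ cut (hFst H) (hSnd H) S := by
  set K := treeGraph H (Subtype.val '' (T : Set H.edgeSet)) with hK
  constructor
  · intro hc S hS hS'
    obtain ⟨u, hu⟩ := hS
    obtain ⟨v, hv⟩ : ∃ v, v ∉ S := by
      by_contra hcon
      push Not at hcon
      exact hS' (Finset.eq_univ_iff_forall.2 hcon)
    obtain ⟨p⟩ := hc.preconnected u v
    obtain ⟨d, -, hd1, hd2⟩ := p.exists_boundary_dart (S : Set H.verts) hu hv
    obtain ⟨e, he, h⟩ := (treeGraph_adj H T _ _).1 d.adj
    refine ⟨e, he, (mem_cut_iff H S e).2 ?_⟩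
    rcases h with ⟨h1, h2⟩ | ⟨h1, h2⟩
    · left; rw [h1, h2]; exact ⟨hd1, hd2⟩
    · right; rw [h1, h2]; exact ⟨hd2, hd1⟩
  · intro h
    rw [SimpleGraph.connected_iff]
    refine ⟨fun u v => ?_, ‹Nonempty H.verts›⟩
    classical
    by_contra hnr
    have hS := h (Finset.univ.filter fun w => K.Reachable u w) ⟨u, by simp⟩
      (fun heq => hnr (by
        have : v ∈ Finset.univ.filter fun w => K.Reachable u w := by rw [heq]; simp
        simpa using this))
    obtain ⟨e, he, hcut⟩ := hS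
    have hadj : K.Adj (hFst H e) (hSnd H e) :=
      (treeGraph_adj H T _ _).2 ⟨e, he, Or.inl ⟨rfl, rfl⟩⟩
    rw [mem_cut_iff] at hcut
    simp only [Finset.mem_filter, Finset.mem_univ, true_and] at hcut
    rcases hcut with ⟨h1, h2⟩ | ⟨h1, h2⟩
    · exact h2 (h1.trans hadj.reachable)
    · exact h1 (h2.trans hadj.symm.reachable)

/-- A finset of edges of `H` is a spanning tree of the multigraph exactly when its image is a
spanning tree of the subgraph. -/
theorem isST_iff (T : Finset H.edgeSet) :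
    IsST (hFst H) (hSnd H) T ↔ IsSpanningTree H (Subtype.val '' (T : Set H.edgeSet)) := by
  have hsub : (Subtype.val '' (T : Set H.edgeSet)) ⊆ H.edgeSet := by
    rintro _ ⟨e, -, rfl⟩; exact e.2
  unfold IsST IsSpanningTree
  rw [SimpleGraph.isTree_iff_connected_and_card]
  change _ ↔ _ ∧ (treeGraph H (Subtype.val '' (T : Set H.edgeSet))).Connected ∧
    Nat.card (treeGraph H (Subtype.val '' (T : Set H.edgeSet))).edgeSet + 1 = Nat.card H.verts
  rw [natCard_treeGraph_edgeSet, Nat.card_eq_fintype_card]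
  constructor
  · rintro ⟨h1, h2⟩
    have : Nonempty H.verts := by
      rw [← Fintype.card_pos_iff]; omega
    exact ⟨hsub, (connected_treeGraph_iff H T).2 h2, h1⟩
  · rintro ⟨-, h1, h2⟩
    have := h1.nonempty
    exact ⟨h2, (connected_treeGraph_iff H T).1 h1⟩

end Cut

end Vale.Agent.Lib.P143
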