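import Vale.Agent.Lib.P143.Gauss

/-! One step of the Euler scheme for a tilted exponential family.

`x T` (`T : τ`) are the vectors of the family; `Zf` the partition function; `mu` the tilted measure;
test functions are ratios `Af / Zf`. The exact step `y ↦ y + h x_T + s g` with `T ∼ mu y` acts on
the test function by a scalar, and the Euler step with the mean differs from it by a factor
`1 + O(h²)`. -/

open MeasureTheory ProbabilityTheory
open scoped ENNReal

noncomputable section

namespace Vale.Agent.Lib.P143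

variable {E τ ι : Type*} [Fintype τ] [Fintype ι]

/-- The dot product over a finite set of coordinates. -/
def dot (X : Finset E) (a y : E → ℝ) : ℝ := ∑ f ∈ X, a f * y f

/-- The partition function. -/
def Zf (X : Finset E) (x : τ → E → ℝ) (y : E → ℝ) : ℝ := ∑ T, Real.exp (dot X (x T) y)

/-- The tilted probability of `T`. -/
def mu (X : Finset E) (x : τ → E → ℝ) (y : E → ℝ) (T : τ) : ℝ :=
  Real.exp (dot X (x T) y) / Zf X x y

/-- The mean vector. -/
def meanV (X : Finset E) (x : τ → E → ℝ) (y : E → ℝ) (f : E) : ℝ := ∑ T, mu X x y T * x T f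

/-- Numerator of a test function. -/
def Af (X : Finset E) (α : ι → ℝ) (b : ι → E → ℝ) (y : E → ℝ) : ℝ :=
  ∑ i, α i * Real.exp (dot X (b i) y)

/-- A test function. -/
def testF (X : Finset E) (x : τ → E → ℝ) (α : ι → ℝ) (b : ι → E → ℝ) (y : E → ℝ) : ℝ :=
  Af X α b y / Zf X x y

variable {X : Finset E} {x : τ → E → ℝ} {α : ι → ℝ} {b : ι → E → ℝ}

theorem dot_add (X : Finset E) (a y y' : E → ℝ) : dot X a (y + y') = dot X a y + dot X a y' := by
  simp only [dot, Pi.add_apply, mul_add, Finset.sum_add_distrib]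

theorem dot_smul (X : Finset E) (a y : E → ℝ) (c : ℝ) : dot X a (c • y) = c * dot X a y := by
  simp only [dot, Pi.smul_apply, smul_eq_mul, Finset.mul_sum]
  exact Finset.sum_congr rfl fun f _ => by ring

theorem dot_congr (X : Finset E) (a : E → ℝ) {y y' : E → ℝ} (h : ∀ f ∈ X, y f = y' f) :
    dot X a y = dot X a y' :=
  Finset.sum_congr rfl fun f hf => by rw [h f hf]

theorem measurable_dot (X : Finset E) (a : E → ℝ) : Measurable fun y : E → ℝ => dot X a y :=
  Finset.measurable_sum _ fun f _ => (measurable_pi_apply f).const_mul _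

theorem continuous_dot (X : Finset E) (a : E → ℝ) : Continuous fun y : E → ℝ => dot X a y :=
  continuous_finsetSum _ fun f _ => (continuous_apply f).const_mul _

theorem measurable_Zf (X : Finset E) (x : τ → E → ℝ) : Measurable fun y : E → ℝ => Zf X x y :=
  Finset.measurable_sum _ fun T _ => (measurable_dot X (x T)).exp

theorem continuous_Zf (X : Finset E) (x : τ → E → ℝ) : Continuous fun y : E → ℝ => Zf X x y :=
  continuous_finsetSum _ fun T _ => (continuous_dot X (x T)).rexp

theorem measurable_Af (X : Finset E) (α : ι → ℝ) (b : ι → E → ℝ) :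
    Measurable fun y : E → ℝ => Af X α b y :=
  Finset.measurable_sum _ fun i _ => (measurable_dot X (b i)).exp.const_mul _

theorem continuous_Af (X : Finset E) (α : ι → ℝ) (b : ι → E → ℝ) :
    Continuous fun y : E → ℝ => Af X α b y :=
  continuous_finsetSum _ fun i _ => (continuous_dot X (b i)).rexp.const_mul _

theorem measurable_testF (X : Finset E) (x : τ → E → ℝ) (α : ι → ℝ) (b : ι → E → ℝ) :
    Measurable fun y : E → ℝ => testF X x α b y :=
  (measurable_Af X α b).div (measurable_Zf X x)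

theorem testF_congr {y y' : E → ℝ} (h : ∀ f ∈ X, y f = y' f) :
    testF X x α b y = testF X x α b y' := by
  unfold testF Af Zf
  simp only [dot_congr X _ h]

section Nonempty

variable [Nonempty τ]

theorem Zf_pos (X : Finset E) (x : τ → E → ℝ) (y : E → ℝ) : 0 < Zf X x y :=
  Finset.sum_pos (fun _ _ => Real.exp_pos _) Finset.univ_nonempty

theorem continuous_testF (X : Finset E) (x : τ → E → ℝ) (α : ι → ℝ) (b : ι → E → ℝ) :
    Continuous fun y : E → ℝ => testF X x α b y :=
  (continuous_Af X α b).div (continuous_Zf X x) fun y => (Zf_pos X x y).ne'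

theorem mu_nonneg (X : Finset E) (x : τ → E → ℝ) (y : E → ℝ) (T : τ) : 0 ≤ mu X x y T :=
  div_nonneg (Real.exp_pos _).le (Zf_pos X x y).le

theorem sum_mu (X : Finset E) (x : τ → E → ℝ) (y : E → ℝ) : ∑ T, mu X x y T = 1 := by
  unfold mu
  rw [← Finset.sum_div]
  exact div_self (Zf_pos X x y).ne'

theorem Af_nonneg (hα : ∀ i, 0 ≤ α i) (y : E → ℝ) : 0 ≤ Af X α b y :=
  Finset.sum_nonneg fun i _ => mul_nonneg (hα i) (Real.exp_pos _).le

theorem testF_nonneg (hα : ∀ i, 0 ≤ α i) (y : E → ℝ) : 0 ≤ testF X x α b y :=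
  div_nonneg (Af_nonneg hα y) (Zf_pos X x y).le

theorem exponent_eq {a : E → ℝ} {κ s : ℝ} (ha : ∑ f ∈ X, a f ^ 2 = κ) (g : E → ℝ) :
    ∑ f ∈ X, ((s • a) f * g f - (s • a) f ^ 2 / 2) = s * dot X a g - s ^ 2 * κ / 2 := by
  rw [← ha, Finset.sum_sub_distrib]
  congr 1
  · simp only [dot, Finset.mul_sum, Pi.smul_apply, smul_eq_mul]
    exact Finset.sum_congr rfl fun f _ => by ring
  · rw [Finset.mul_sum, Finset.sum_div]
    exact Finset.sum_congr rfl fun f _ => by simp [mul_pow]

/-- Gaussian moment generating function. -/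
theorem lintegral_exp_dot {a : E → ℝ} {κ s : ℝ} (haX : ∀ f, f ∉ X → a f = 0)
    (ha : ∑ f ∈ X, a f ^ 2 = κ) :
    ∫⁻ g, ENNReal.ofReal (Real.exp (s * dot X a g - s ^ 2 * κ / 2)) ∂gam E = 1 := by
  have h := cameron_martin X (s • a) (fun f hf => by simp [haX f hf]) (fun _ => 1) measurable_const
  simp only [one_mul, exponent_eq ha] at h
  rw [← h]
  simp

theorem lintegral_exp_shift {a y : E → ℝ} {κ s : ℝ} (haX : ∀ f, f ∉ X → a f = 0)
    (ha : ∑ f ∈ X, a f ^ 2 = κ) :
    ∫⁻ g, ENNReal.ofReal (Real.exp (dot X a (y + s • g))) ∂gam E =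
      ENNReal.ofReal (Real.exp (dot X a y + s ^ 2 * κ / 2)) := by
  have hpt : ∀ g : E → ℝ, ENNReal.ofReal (Real.exp (dot X a (y + s • g))) =
      ENNReal.ofReal (Real.exp (dot X a y + s ^ 2 * κ / 2)) *
        ENNReal.ofReal (Real.exp (s * dot X a g - s ^ 2 * κ / 2)) := by
    intro g
    rw [← ENNReal.ofReal_mul (Real.exp_pos _).le, ← Real.exp_add, dot_add, dot_smul]
    congr 2
    ring
  simp_rw [hpt]
  rw [lintegral_const_mul']
  · rw [lintegral_exp_dot haX ha, mul_one]
  · exact ENNReal.ofReal_ne_top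

theorem measurable_shift (y : E → ℝ) (s : ℝ) : Measurable fun g : E → ℝ => y + s • g := by
  refine measurable_pi_lambda _ fun f => ?_
  simp only [Pi.add_apply, Pi.smul_apply, smul_eq_mul]
  exact (measurable_const.mul (measurable_pi_apply f)).const_add _

/-- The exact step acts on a test function by a scalar. -/
theorem bayes_identity (hxX : ∀ T f, f ∉ X → x T f = 0) {k β : ℝ}
    (hk : ∀ T, ∑ f ∈ X, x T f ^ 2 = k) (hbX : ∀ i f, f ∉ X → b i f = 0)
    (hβ : ∀ i, ∑ f ∈ X, b i f ^ 2 = β) (hα : ∀ i, 0 ≤ α i) {s : ℝ} (y : E → ℝ) :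
    ∑ T, ENNReal.ofReal (mu X x y T) *
        ∫⁻ g, ENNReal.ofReal (testF X x α b (y + (s ^ 2) • x T + s • g)) ∂gam E =
      ENNReal.ofReal (Real.exp (s ^ 2 * (β - k) / 2) * testF X x α b y) := by
  have hFm : Measurable fun g : E → ℝ => ENNReal.ofReal (testF X x α b (y + s • g)) :=
    ((measurable_testF X x α b).comp (measurable_shift y s)).ennreal_ofReal
  -- Cameron-Martin for each `T`
  have hCM : ∀ T, ∫⁻ g, ENNReal.ofReal (testF X x α b (y + (s ^ 2) • x T + s • g)) ∂gam E =
      ∫⁻ g, ENNReal.ofReal (testF X x α b (y + s • g)) *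
        ENNReal.ofReal (Real.exp (s * dot X (x T) g - s ^ 2 * k / 2)) ∂gam E := by
    intro T
    have h := cameron_martin X (s • x T) (fun f hf => by simp [hxX T f hf])
      (fun g => ENNReal.ofReal (testF X x α b (y + s • g))) hFm
    simp only [exponent_eq (hk T)] at h
    rw [← h]
    refine lintegral_congr fun g => ?_
    congr 2
    rw [smul_add, smul_smul, ← sq, add_assoc]
  simp_rw [hCM]
  -- sum under the integral
  have hm : ∀ T, Measurable fun g : E → ℝ => ENNReal.ofReal (testF X x α b (y + s • g)) *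
      ENNReal.ofReal (Real.exp (s * dot X (x T) g - s ^ 2 * k / 2)) := fun T =>
    hFm.mul (((measurable_const.mul (measurable_dot X (x T))).sub_const _).exp.ennreal_ofReal)
  simp_rw [← lintegral_const_mul _ (hm _)]
  rw [← lintegral_finsetSum _ (fun T _ => (hm T).const_mul _)]
  have hZy := Zf_pos X x y
  set c : ℝ := Real.exp (-(s ^ 2 * k / 2)) / Zf X x y with hc
  have hc0 : 0 ≤ c := by rw [hc]; positivity
  have hpt : ∀ g : E → ℝ, ∑ T, ENNReal.ofReal (mu X x y T) *
      (ENNReal.ofReal (testF X x α b (y + s • g)) *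
        ENNReal.ofReal (Real.exp (s * dot X (x T) g - s ^ 2 * k / 2))) =
      ENNReal.ofReal c * ∑ i, ENNReal.ofReal (α i) *
        ENNReal.ofReal (Real.exp (dot X (b i) (y + s • g))) := by
    intro g
    have hZ := Zf_pos X x (y + s • g)
    have hreal : ∑ T, mu X x y T * (testF X x α b (y + s • g) *
        Real.exp (s * dot X (x T) g - s ^ 2 * k / 2)) = c * Af X α b (y + s • g) := by
      have h1 : ∀ T, mu X x y T * (testF X x α b (y + s • g) *
          Real.exp (s * dot X (x T) g - s ^ 2 * k / 2)) =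
          (testF X x α b (y + s • g) * c) * Real.exp (dot X (x T) (y + s • g)) := by
        intro T
        unfold mu
        rw [dot_add, dot_smul, Real.exp_add, sub_eq_add_neg, Real.exp_add, hc]
        field_simp
      simp_rw [h1]
      rw [← Finset.mul_sum]
      change testF X x α b (y + s • g) * c * Zf X x (y + s • g) = _
      unfold testF
      field_simp
    calc _ = ∑ T, ENNReal.ofReal (mu X x y T * (testF X x α b (y + s • g) *
            Real.exp (s * dot X (x T) g - s ^ 2 * k / 2))) := by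
          refine Finset.sum_congr rfl fun T _ => ?_
          rw [ENNReal.ofReal_mul (mu_nonneg X x y T), ENNReal.ofReal_mul (testF_nonneg hα _)]
      _ = ENNReal.ofReal (∑ T, mu X x y T * (testF X x α b (y + s • g) *
            Real.exp (s * dot X (x T) g - s ^ 2 * k / 2))) := by
          rw [ENNReal.ofReal_sum_of_nonneg]
          intro T _
          exact mul_nonneg (mu_nonneg X x y T)
            (mul_nonneg (testF_nonneg hα _) (Real.exp_pos _).le)
      _ = ENNReal.ofReal (c * Af X α b (y + s • g)) := by rw [hreal]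
      _ = _ := by
          rw [ENNReal.ofReal_mul hc0]
          congr 1
          unfold Af
          rw [ENNReal.ofReal_sum_of_nonneg]
          · refine Finset.sum_congr rfl fun i _ => ?_
            rw [ENNReal.ofReal_mul (hα i)]
          · intro i _
            exact mul_nonneg (hα i) (Real.exp_pos _).le
  simp_rw [hpt]
  have hm2 : ∀ i, Measurable fun g : E → ℝ =>
      ENNReal.ofReal (Real.exp (dot X (b i) (y + s • g))) := fun i =>
    ((measurable_dot X (b i)).comp (measurable_shift y s)).exp.ennreal_ofReal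
  rw [lintegral_const_mul _ (Finset.measurable_sum _ fun i _ => (hm2 i).const_mul _),
    lintegral_finsetSum _ (fun i _ => (hm2 i).const_mul _)]
  simp_rw [lintegral_const_mul _ (hm2 _), lintegral_exp_shift (hbX _) (hβ _)]
  have hr : ∑ i, ENNReal.ofReal (α i) * ENNReal.ofReal (Real.exp (dot X (b i) y + s ^ 2 * β / 2)) =
      ENNReal.ofReal (Af X α b y * Real.exp (s ^ 2 * β / 2)) := by
    unfold Af
    rw [Finset.sum_mul, ENNReal.ofReal_sum_of_nonneg]
    · refine Finset.sum_congr rfl fun i _ => ?_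
      rw [Real.exp_add, mul_assoc, ENNReal.ofReal_mul (hα i)]
    · intro i _
      exact mul_nonneg (mul_nonneg (hα i) (Real.exp_pos _).le) (Real.exp_pos _).le
  rw [hr, ← ENNReal.ofReal_mul hc0]
  congr 1
  have h3 : Real.exp (s ^ 2 * (β - k) / 2) = Real.exp (-(s ^ 2 * k / 2)) * Real.exp (s ^ 2 * β / 2) := by
    rw [← Real.exp_add]; congr 1; ring
  rw [h3, hc]
  unfold testF
  field_simp

theorem abs_dot_le {c a : E → ℝ} {C h : ℝ} (hC : ∑ f ∈ X, |c f| ≤ C) (hh : 0 ≤ h)
    (ha : ∀ f ∈ X, |a f| ≤ h) : |dot X c a| ≤ h * C := by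
  unfold dot
  calc |∑ f ∈ X, c f * a f| ≤ ∑ f ∈ X, |c f * a f| := Finset.abs_sum_le_sum_abs _ _
    _ ≤ ∑ f ∈ X, |c f| * h := Finset.sum_le_sum fun f hf => by
        rw [abs_mul]; exact mul_le_mul_of_nonneg_left (ha f hf) (abs_nonneg _)
    _ = (∑ f ∈ X, |c f|) * h := by rw [Finset.sum_mul]
    _ ≤ C * h := mul_le_mul_of_nonneg_right hC hh
    _ = h * C := mul_comm _ _

/-- The multiplicative estimate between the Euler point and the points of the exact step. -/
theorem onestep_lower (hα : ∀ i, 0 ≤ α i) {C h : ℝ} (hh : 0 ≤ h)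
    (hC1 : ∀ i, ∑ f ∈ X, |b i f| ≤ C) (hC2 : ∀ S, ∑ f ∈ X, |x S f| ≤ C) (hB : h * C ≤ 1 / 2)
    {y z m' : E → ℝ} (hm : ∀ f ∈ X, m' f = meanV X x y f)
    (h01 : ∀ T, ∀ f ∈ X, |x T f - m' f| ≤ 1) :
    testF X x α b z * (1 - 3 * (h * C) ^ 2) ≤
      ∑ T, mu X x y T * testF X x α b (z + h • (x T - m')) := by
  obtain ⟨T0⟩ := ‹Nonempty τ›
  have hC0 : 0 ≤ C := le_trans (Finset.sum_nonneg fun _ _ => abs_nonneg _) (hC2 T0)
  set B := h * C with hBdef
  have hB0 : 0 ≤ B := mul_nonneg hh hC0
  set a : τ → E → ℝ := fun T => h • (x T - m') with ha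
  have hab : ∀ T, ∀ f ∈ X, |a T f| ≤ h := by
    intro T f hf
    simp only [ha, Pi.smul_apply, Pi.sub_apply, smul_eq_mul, abs_mul, abs_of_nonneg hh]
    calc h * |x T f - m' f| ≤ h * 1 := mul_le_mul_of_nonneg_left (h01 T f hf) hh
      _ = h := mul_one h
  have hd1 : ∀ i T, |dot X (b i) (a T)| ≤ B := fun i T => abs_dot_le (hC1 i) hh (hab T)
  have hd2 : ∀ S T, |dot X (x S) (a T)| ≤ B := fun S T => abs_dot_le (hC2 S) hh (hab T)
  have hsum : ∀ c : E → ℝ, ∑ T, mu X x y T * dot X c (a T) = 0 := by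
    intro c
    simp only [dot, Finset.mul_sum]
    rw [Finset.sum_comm]
    refine Finset.sum_eq_zero fun f hf => ?_
    have h1 : ∀ T, mu X x y T * (c f * a T f) =
        (c f * h) * (mu X x y T * x T f - mu X x y T * m' f) := by
      intro T
      simp only [ha, Pi.smul_apply, Pi.sub_apply, smul_eq_mul]
      ring
    simp_rw [h1]
    rw [← Finset.mul_sum, Finset.sum_sub_distrib, ← Finset.sum_mul, sum_mu, one_mul]
    have : ∑ T, mu X x y T * x T f = m' f := by rw [hm f hf]; rfl
    rw [this]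
    simp
  set Az := Af X α b z with hAz
  set Zz := Zf X x z with hZz
  have hZpos : 0 < Zz := Zf_pos X x z
  have hA0 : 0 ≤ Az := Af_nonneg hα z
  set LA : τ → ℝ := fun T => ∑ i, α i * Real.exp (dot X (b i) z) * dot X (b i) (a T) with hLA
  set LZ : τ → ℝ := fun T => ∑ S, Real.exp (dot X (x S) z) * dot X (x S) (a T) with hLZ
  have hLAb : ∀ T, |LA T| ≤ B * Az := by
    intro T
    calc |LA T| ≤ ∑ i, |α i * Real.exp (dot X (b i) z) * dot X (b i) (a T)| :=
          Finset.abs_sum_le_sum_abs _ _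
      _ ≤ ∑ i, B * (α i * Real.exp (dot X (b i) z)) := Finset.sum_le_sum fun i _ => by
          rw [abs_mul, abs_of_nonneg (mul_nonneg (hα i) (Real.exp_pos _).le), mul_comm]
          exact mul_le_mul_of_nonneg_right (hd1 i T)
            (mul_nonneg (hα i) (Real.exp_pos _).le)
      _ = B * Az := by rw [← Finset.mul_sum]; rfl
  have hLZb : ∀ T, |LZ T| ≤ B * Zz := by
    intro T
    calc |LZ T| ≤ ∑ S, |Real.exp (dot X (x S) z) * dot X (x S) (a T)| :=
          Finset.abs_sum_le_sum_abs _ _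
      _ ≤ ∑ S, B * Real.exp (dot X (x S) z) := Finset.sum_le_sum fun S _ => by
          rw [abs_mul, abs_of_nonneg (Real.exp_pos _).le, mul_comm]
          exact mul_le_mul_of_nonneg_right (hd2 S T) (Real.exp_pos _).le
      _ = B * Zz := by rw [← Finset.mul_sum]; rfl
  have hA1 : ∀ T, Az + LA T ≤ Af X α b (z + a T) := by
    intro T
    rw [hAz, hLA]
    unfold Af
    rw [← Finset.sum_add_distrib]
    refine Finset.sum_le_sum fun i _ => ?_
    rw [dot_add, Real.exp_add]
    have h1 := Real.add_one_le_exp (dot X (b i) (a T))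
    have h2 : 0 ≤ α i * Real.exp (dot X (b i) z) := mul_nonneg (hα i) (Real.exp_pos _).le
    nlinarith
  have hZ1 : ∀ T, Zf X x (z + a T) ≤ Zz + LZ T + B ^ 2 * Zz := by
    intro T
    rw [hZz, hLZ]
    unfold Zf
    rw [← Finset.sum_add_distrib, Finset.mul_sum, ← Finset.sum_add_distrib]
    refine Finset.sum_le_sum fun S _ => ?_
    rw [dot_add, Real.exp_add]
    have hs := hd2 S T
    have hs1 : |dot X (x S) (a T)| ≤ 1 := by linarith
    have h1 := (abs_le.1 (Real.abs_exp_sub_one_sub_id_le hs1)).2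
    have h2 : dot X (x S) (a T) ^ 2 ≤ B ^ 2 := by
      rw [← sq_abs]
      exact pow_le_pow_left₀ (abs_nonneg _) hs 2
    have h3 := Real.exp_pos (dot X (x S) z)
    have h4 : Real.exp (dot X (x S) (a T)) ≤ 1 + dot X (x S) (a T) + B ^ 2 := by linarith
    nlinarith
  -- estimate for each `T`
  have hkey : ∀ T, Az + LA T - Az * (LZ T / Zz) - 3 * B ^ 2 * Az ≤
      testF X x α b (z + a T) * Zz := by
    intro T
    set v := LZ T / Zz with hv
    have hvb : |v| ≤ B := by
      rw [hv, abs_div, abs_of_pos hZpos, div_le_iff₀ hZpos]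
      exact hLZb T
    have hLb := hLAb T
    obtain ⟨hv1, hv2⟩ := abs_le.1 hvb
    obtain ⟨hL1, hL2⟩ := abs_le.1 hLb
    have hLZv : LZ T = v * Zz := by rw [hv]; field_simp
    have hDpos : 0 < Zf X x (z + a T) := Zf_pos X x _
    have hD : Zf X x (z + a T) ≤ Zz * (1 + v + B ^ 2) := by
      have := hZ1 T
      rw [hLZv] at this
      nlinarith
    set N0 := Az + LA T with hN0
    have hN0nn : 0 ≤ N0 := by nlinarith
    have hN := hA1 T
    have hw : 0 < 1 + v + B ^ 2 := by nlinarith [sq_nonneg B]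
    unfold testF
    -- goal: N0 - Az v - 3 B² Az ≤ Af / Zf * Zz
    have hstep : N0 * (1 - v - B ^ 2) ≤ Af X α b (z + a T) / Zf X x (z + a T) * Zz := by
      rw [div_mul_eq_mul_div, le_div_iff₀ hDpos]
      have h1 : N0 * (1 - v - B ^ 2) * Zf X x (z + a T) ≤ N0 * Zz := by
        have h2 : (1 - v - B ^ 2) * Zf X x (z + a T) ≤ Zz := by
          by_cases hsgn : 0 ≤ 1 - v - B ^ 2
          · calc (1 - v - B ^ 2) * Zf X x (z + a T)
                ≤ (1 - v - B ^ 2) * (Zz * (1 + v + B ^ 2)) :=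
                  mul_le_mul_of_nonneg_left hD hsgn
              _ = Zz * (1 - (v + B ^ 2) ^ 2) := by ring
              _ ≤ Zz := by nlinarith [sq_nonneg (v + B ^ 2)]
          · rw [not_le] at hsgn
            nlinarith
        calc N0 * (1 - v - B ^ 2) * Zf X x (z + a T)
            = N0 * ((1 - v - B ^ 2) * Zf X x (z + a T)) := by ring
          _ ≤ N0 * Zz := mul_le_mul_of_nonneg_left h2 hN0nn
      calc N0 * (1 - v - B ^ 2) * Zf X x (z + a T) ≤ N0 * Zz := h1
        _ ≤ Af X α b (z + a T) * Zz := mul_le_mul_of_nonneg_right hN hZpos.le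
    refine le_trans ?_ hstep
    -- algebra
    have hL : LA T = N0 - Az := by rw [hN0]; ring
    have hLabs : |LA T| ≤ B * Az := hLb
    have hB1 : B ≤ 1 / 2 := hB
    have e1 : -(LA T * v) ≤ B ^ 2 * Az := by
      have := abs_mul (LA T) v
      have h5 : |LA T * v| ≤ (B * Az) * B := by
        rw [this]
        exact mul_le_mul hLabs hvb (abs_nonneg _) (mul_nonneg hB0 hA0)
      have h6 := (abs_le.1 h5).1
      nlinarith
    have e2 : -(LA T * B ^ 2) ≤ B ^ 2 * Az := by
      have h7 : -(LA T) ≤ Az := by nlinarith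
      nlinarith [sq_nonneg B]
    rw [hN0]
    nlinarith
  -- averaging
  have hsumLA : ∑ T, mu X x y T * LA T = 0 := by
    simp only [hLA, Finset.mul_sum]
    rw [Finset.sum_comm]
    refine Finset.sum_eq_zero fun i _ => ?_
    have : ∀ T, mu X x y T * (α i * Real.exp (dot X (b i) z) * dot X (b i) (a T)) =
        (α i * Real.exp (dot X (b i) z)) * (mu X x y T * dot X (b i) (a T)) := fun T => by ring
    simp_rw [this]
    rw [← Finset.mul_sum, hsum, mul_zero]
  have hsumLZ : ∑ T, mu X x y T * LZ T = 0 := by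
    simp only [hLZ, Finset.mul_sum]
    rw [Finset.sum_comm]
    refine Finset.sum_eq_zero fun S _ => ?_
    have : ∀ T, mu X x y T * (Real.exp (dot X (x S) z) * dot X (x S) (a T)) =
        (Real.exp (dot X (x S) z)) * (mu X x y T * dot X (x S) (a T)) := fun T => by ring
    simp_rw [this]
    rw [← Finset.mul_sum, hsum, mul_zero]
  have hfinal : Az * (1 - 3 * B ^ 2) ≤ (∑ T, mu X x y T * testF X x α b (z + a T)) * Zz := by
    rw [Finset.sum_mul]
    calc Az * (1 - 3 * B ^ 2)
        = ∑ T, mu X x y T * (Az + LA T - Az * (LZ T / Zz) - 3 * B ^ 2 * Az) := by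
          have h1 : ∀ T, mu X x y T * (Az + LA T - Az * (LZ T / Zz) - 3 * B ^ 2 * Az) =
              mu X x y T * (Az - 3 * B ^ 2 * Az) + mu X x y T * LA T -
                (Az / Zz) * (mu X x y T * LZ T) := fun T => by
            field_simp
            ring
          simp_rw [h1]
          rw [Finset.sum_sub_distrib, Finset.sum_add_distrib, ← Finset.sum_mul, sum_mu, hsumLA,
            ← Finset.mul_sum, hsumLZ]
          ring
      _ ≤ ∑ T, mu X x y T * testF X x α b (z + a T) * Zz := by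
          refine Finset.sum_le_sum fun T _ => ?_
          refine le_trans (mul_le_mul_of_nonneg_left (hkey T) (mu_nonneg X x y T)) (le_of_eq ?_)
          ring
  unfold testF at hfinal ⊢
  rw [← hAz, ← hZz]
  rw [div_mul_eq_mul_div, div_le_iff₀ hZpos]
  exact hfinal

/-- One step of the Euler scheme on a test function. -/
theorem euler_step_lintegral (hxX : ∀ T f, f ∉ X → x T f = 0) {k β : ℝ}
    (hk : ∀ T, ∑ f ∈ X, x T f ^ 2 = k) (hbX : ∀ i f, f ∉ X → b i f = 0)
    (hβ : ∀ i, ∑ f ∈ X, b i f ^ 2 = β) (hα : ∀ i, 0 ≤ α i) {C s : ℝ}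
    (hC1 : ∀ i, ∑ f ∈ X, |b i f| ≤ C) (hC2 : ∀ S, ∑ f ∈ X, |x S f| ≤ C)
    (hB : s ^ 2 * C ≤ 1 / 2) {y m' : E → ℝ} (hm : ∀ f ∈ X, m' f = meanV X x y f)
    (h01 : ∀ T, ∀ f ∈ X, |x T f - m' f| ≤ 1) :
    ENNReal.ofReal (1 - 3 * (s ^ 2 * C) ^ 2) *
        ∫⁻ g, ENNReal.ofReal (testF X x α b (y + (s ^ 2) • m' + s • g)) ∂gam E ≤
      ENNReal.ofReal (Real.exp (s ^ 2 * (β - k) / 2) * testF X x α b y) := by
  have hC0 : 0 ≤ C := by
    obtain ⟨T0⟩ := ‹Nonempty τ›
    exact le_trans (Finset.sum_nonneg fun _ _ => abs_nonneg _) (hC2 T0)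
  have hκ : 0 ≤ 1 - 3 * (s ^ 2 * C) ^ 2 := by
    have h1 : 0 ≤ s ^ 2 * C := by positivity
    nlinarith
  have hm1 : Measurable fun g : E → ℝ =>
      ENNReal.ofReal (testF X x α b (y + (s ^ 2) • m' + s • g)) :=
    ((measurable_testF X x α b).comp (measurable_shift _ s)).ennreal_ofReal
  rw [← lintegral_const_mul _ hm1, ← bayes_identity hxX hk hbX hβ hα y]
  have hm2 : ∀ T, Measurable fun g : E → ℝ =>
      ENNReal.ofReal (testF X x α b (y + (s ^ 2) • x T + s • g)) := fun T =>
    ((measurable_testF X x α b).comp (measurable_shift _ s)).ennreal_ofReal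
  simp_rw [← lintegral_const_mul _ (hm2 _)]
  rw [← lintegral_finsetSum _ (fun T _ => (hm2 T).const_mul _)]
  refine lintegral_mono fun g => ?_
  have h1 := onestep_lower (X := X) (x := x) (α := α) (b := b) hα (sq_nonneg s) hC1 hC2 hB
    (z := y + (s ^ 2) • m' + s • g) hm h01
  have h2 : ∀ T, y + (s ^ 2) • m' + s • g + (s ^ 2) • (x T - m') = y + (s ^ 2) • x T + s • g := by
    intro T
    funext f
    simp only [Pi.add_apply, Pi.smul_apply, Pi.sub_apply, smul_eq_mul]
    ring
  simp_rw [h2] at h1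
  rw [← ENNReal.ofReal_mul hκ, mul_comm (1 - 3 * (s ^ 2 * C) ^ 2)]
  refine (ENNReal.ofReal_le_ofReal h1).trans (le_of_eq ?_)
  rw [ENNReal.ofReal_sum_of_nonneg]
  · refine Finset.sum_congr rfl fun T _ => ?_
    rw [ENNReal.ofReal_mul (mu_nonneg X x y T)]
  · intro T _
    exact mul_nonneg (mu_nonneg X x y T) (testF_nonneg hα _)

end Nonempty

end Vale.Agent.Lib.P143
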