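import Vale.Agent.Lib.P143.Defs
import Vale.Agent.Lib.P143.Step
import Vale.Agent.Lib.P143.GraphFlow
import Vale.Agent.Lib.P143.BridgeTree

/-! From a finite connected subgraph to the tilted family of its spanning trees. -/

open Classical

noncomputable section

namespace Vale.Agent.Lib.P143

variable {V : Type*} {G : SimpleGraph V}

theorem edgeSet_finite (H : G.Subgraph) (hf : H.verts.Finite) : H.edgeSet.Finite := by
  refine ((hf.prod hf).image (fun p => s(p.1, p.2))).subset ?_
  intro e he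
  induction e using Sym2.ind with
  | _ a b =>
    have hab : H.Adj a b := he
    exact ⟨(a, b), ⟨hab.fst_mem, hab.snd_mem⟩, rfl⟩

/-- The finite edge set of a subgraph with finitely many vertices. -/
def edgesOf (H : G.Subgraph) (hf : H.verts.Finite) : Finset (Sym2 V) :=
  (edgeSet_finite H hf).toFinset

theorem mem_edgesOf (H : G.Subgraph) (hf : H.verts.Finite) (e : Sym2 V) :
    e ∈ edgesOf H hf ↔ e ∈ H.edgeSet := by
  simp [edgesOf]

/-- The spanning trees of `H`, as finite edge sets. -/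
def TreeOf (H : G.Subgraph) : Type _ := {T : Finset (Sym2 V) // IsSpanningTree H (T : Set (Sym2 V))}

theorem treeOf_subset (H : G.Subgraph) (hf : H.verts.Finite) (T : TreeOf H) :
    T.1 ⊆ edgesOf H hf := fun _ he => (mem_edgesOf H hf _).2 (T.2.1 he)

theorem treeOf_finite (H : G.Subgraph) (hf : H.verts.Finite) : Finite (TreeOf H) :=
  Finite.of_injective
    (fun T : TreeOf H => (⟨T.1, Finset.mem_powerset.2 (treeOf_subset H hf T)⟩ :
      {S // S ∈ (edgesOf H hf).powerset}))
    (fun _ _ h => Subtype.ext (congrArg (fun S => S.1) h))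

/-- Finitely many spanning trees. -/
instance treeOf_fintype (H : G.Subgraph) [Fact H.verts.Finite] : Fintype (TreeOf H) :=
  haveI := treeOf_finite H Fact.out
  Fintype.ofFinite _

/-- A connected subgraph with finitely many vertices has a spanning tree. -/
theorem treeOf_nonempty (H : G.Subgraph) (hf : H.verts.Finite) (hc : H.Connected) :
    Nonempty (TreeOf H) := by
  obtain ⟨T0, hle, htree⟩ := hc.coe.exists_isTree_le
  set S : Set (Sym2 V) := Sym2.map (Subtype.val : H.verts → V) '' T0.edgeSet with hS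
  have hsub : S ⊆ H.edgeSet := by
    rintro _ ⟨e, he, rfl⟩
    induction e using Sym2.ind with
    | _ u v =>
      have h1 : T0.Adj u v := he
      have h2 : H.coe.Adj u v := hle h1
      exact h2
  have hfin : S.Finite := (edgeSet_finite H hf).subset hsub
  have hK : (SimpleGraph.fromEdgeSet S).comap (Subtype.val : H.verts → V) = T0 := by
    ext u v
    rw [SimpleGraph.comap_adj, SimpleGraph.fromEdgeSet_adj]
    constructor
    · rintro ⟨⟨e, he, heq⟩, -⟩
      have : e = s(u, v) := Sym2.map.injective Subtype.val_injective (by rw [heq]; rfl)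
      rw [this] at he
      exact he
    · intro h
      exact ⟨⟨s(u, v), h, rfl⟩, fun h' => h.ne (Subtype.ext h')⟩
  refine ⟨⟨hfin.toFinset, ?_⟩⟩
  rw [Set.Finite.coe_toFinset]
  refine ⟨hsub, ?_⟩
  rw [hK]
  exact htree

/-- The indicator vector of a spanning tree. -/
def treeVec (H : G.Subgraph) (T : TreeOf H) (f : Sym2 V) : ℝ := if f ∈ T.1 then 1 else 0

/-- The edges of a finite edge set contained in `H`, as elements of the subtype. -/
def toE (H : G.Subgraph) (T : Finset (Sym2 V)) : Finset H.edgeSet := T.subtype (· ∈ H.edgeSet)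

theorem map_toE (H : G.Subgraph) {T : Finset (Sym2 V)} (hT : (T : Set (Sym2 V)) ⊆ H.edgeSet) :
    (toE H T).map (Function.Embedding.subtype _) = T :=
  Finset.subtype_map_of_mem (fun _ hx => hT hx)

theorem coe_map_eq (H : G.Subgraph) (T : Finset H.edgeSet) :
    ((T.map (Function.Embedding.subtype _) : Finset (Sym2 V)) : Set (Sym2 V)) =
      Subtype.val '' (T : Set H.edgeSet) := by
  simp

section Generic

variable (H : G.Subgraph) [Fintype H.verts] [Fintype H.edgeSet] [DecidableEq H.verts]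
  [DecidableEq H.edgeSet]

set_option linter.unusedSectionVars false

theorem isST_toE (T : TreeOf H) : IsST (hFst H) (hSnd H) (toE H T.1) := by
  rw [isST_iff, ← coe_map_eq, map_toE H T.2.1]
  exact T.2

theorem isST_map (T : Finset H.edgeSet) (hT : IsST (hFst H) (hSnd H) T) :
    IsSpanningTree H ((T.map (Function.Embedding.subtype _) : Finset (Sym2 V)) : Set (Sym2 V)) := by
  rw [coe_map_eq]
  exact (isST_iff H T).1 hT

theorem isConn_of_connected (hc : H.Connected) : IsConn (hFst H) (hSnd H) := by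
  intro S hS hS'
  obtain ⟨u, hu⟩ := hS
  obtain ⟨v, hv⟩ : ∃ v, v ∉ S := by
    by_contra hcon
    push Not at hcon
    exact hS' (Finset.eq_univ_iff_forall.2 hcon)
  obtain ⟨p⟩ := hc.coe.preconnected u v
  obtain ⟨d, -, hd1, hd2⟩ := p.exists_boundary_dart (S : Set H.verts) hu hv
  have hadj : H.Adj (d.fst : V) (d.snd : V) := d.adj
  let e : H.edgeSet := ⟨s((d.fst : V), (d.snd : V)), hadj⟩
  refine ⟨e, (mem_cut_iff H S e).2 ?_⟩
  have h := mk_hFst_hSnd H e
  have h' : s((hFst H e : V), (hSnd H e : V)) = s((d.fst : V), (d.snd : V)) := h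
  rw [Sym2.eq_iff] at h'
  rcases h' with ⟨h1, h2⟩ | ⟨h1, h2⟩
  · left
    rw [Subtype.ext h1, Subtype.ext h2]
    exact ⟨hd1, hd2⟩
  · right
    rw [Subtype.ext h1, Subtype.ext h2]
    exact ⟨hd2, hd1⟩

/-- All spanning trees have the same number of edges. -/
theorem treeOf_card' (T : TreeOf H) : T.1.card + 1 = Fintype.card H.verts := by
  have h := (isST_toE H T).1
  rw [← h]
  congr 1
  conv_lhs => rw [← map_toE H T.2.1]
  exact Finset.card_map _

end Generic

/-- All spanning trees have the same number of edges. -/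
theorem treeOf_card (H : G.Subgraph) (T T' : TreeOf H) (hf : H.verts.Finite) (_hc : H.Connected) :
    T.1.card = T'.1.card := by
  let _ : Fintype H.verts := hf.fintype
  let _ : Fintype H.edgeSet := (edgeSet_finite H hf).fintype
  have h1 := treeOf_card' H T
  have h2 := treeOf_card' H T'
  omega

/-- The conductances attached to a field. -/
def cOf (H : G.Subgraph) (y : Sym2 V → ℝ) (f : H.edgeSet) : ℝ := Real.exp (y f.1)

theorem cOf_pos (H : G.Subgraph) (y : Sym2 V → ℝ) (f : H.edgeSet) : 0 < cOf H y f := Real.exp_pos _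

section Sum

variable (H : G.Subgraph) [Fintype H.verts] [Fintype H.edgeSet] [DecidableEq H.verts]
  [DecidableEq H.edgeSet] [Fintype (TreeOf H)]

set_option linter.unusedSectionVars false

theorem dot_treeVec {X : Finset (Sym2 V)} (hX : ∀ f, f ∈ X ↔ f ∈ H.edgeSet) (T : TreeOf H)
    (y : Sym2 V → ℝ) : dot X (treeVec H T) y = ∑ f ∈ T.1, y f := by
  unfold dot treeVec
  have hsub : T.1 ⊆ X := fun f hf => (hX f).2 (T.2.1 hf)
  simp only [ite_mul, one_mul, zero_mul]
  rw [Finset.sum_ite_mem, Finset.inter_eq_right.2 hsub]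

theorem prod_cOf (y : Sym2 V → ℝ) (T : Finset H.edgeSet) :
    ∏ e ∈ T, cOf H y e = Real.exp (∑ f ∈ T.map (Function.Embedding.subtype _), y f) := by
  rw [Finset.sum_map, Real.exp_sum]
  rfl

theorem treeSum_eq_sum {X : Finset (Sym2 V)} (hX : ∀ f, f ∈ X ↔ f ∈ H.edgeSet) (y : Sym2 V → ℝ)
    (P : Finset H.edgeSet → Prop) (Q : Finset (Sym2 V) → Prop)
    (hPQ : ∀ T : Finset H.edgeSet, P T ↔ Q (T.map (Function.Embedding.subtype _))) :
    treeSum (hFst H) (hSnd H) (cOf H y) P =
      ∑ T : TreeOf H, if Q T.1 then Real.exp (dot X (treeVec H T) y) else 0 := by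
  unfold treeSum
  rw [← Finset.sum_filter]
  refine Finset.sum_bij
    (fun T hT => (⟨T.map (Function.Embedding.subtype _), isST_map H T (Finset.mem_filter.1 hT).2.1⟩ :
      TreeOf H)) ?_ ?_ ?_ ?_
  · intro T hT
    exact Finset.mem_filter.2 ⟨Finset.mem_univ _, (hPQ T).1 (Finset.mem_filter.1 hT).2.2⟩
  · intro T _ T' _ h
    exact Finset.map_injective _ (congrArg (fun S : TreeOf H => S.1) h)
  · intro T hT
    have hT' := (Finset.mem_filter.1 hT).2
    refine ⟨toE H T.1, Finset.mem_filter.2 ⟨Finset.mem_univ _, isST_toE H T, ?_⟩, ?_⟩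
    · rw [hPQ, map_toE H T.2.1]
      exact hT'
    · exact Subtype.ext (map_toE H T.2.1)
  · intro T hT
    rw [prod_cOf]
    exact congrArg Real.exp (dot_treeVec H hX
      (⟨T.map (Function.Embedding.subtype _), isST_map H T (Finset.mem_filter.1 hT).2.1⟩ : TreeOf H)
      y).symm

theorem treeSum_true {X : Finset (Sym2 V)} (hX : ∀ f, f ∈ X ↔ f ∈ H.edgeSet) (y : Sym2 V → ℝ) :
    treeSum (hFst H) (hSnd H) (cOf H y) (fun _ => True) = Zf X (treeVec H) y := by
  rw [treeSum_eq_sum H hX y (fun _ => True) (fun _ => True) (fun _ => Iff.rfl)]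
  simp [Zf]

theorem treeSum_notMem_eq_sum {X : Finset (Sym2 V)} (hX : ∀ f, f ∈ X ↔ f ∈ H.edgeSet) (y : Sym2 V → ℝ)
    (e : H.edgeSet) :
    treeSum (hFst H) (hSnd H) (cOf H y) (fun T => e ∉ T) =
      ∑ T : TreeOf H, if e.1 ∉ T.1 then Real.exp (dot X (treeVec H T) y) else 0 := by
  rw [treeSum_eq_sum H hX y (fun T => e ∉ T) (fun S => e.1 ∉ S) fun T => by simp]
  refine Finset.sum_congr rfl fun T _ => ?_
  by_cases h : e.1 ∈ T.1 <;> simp [h]

theorem one_sub_meanV {X : Finset (Sym2 V)} (hX : ∀ f, f ∈ X ↔ f ∈ H.edgeSet) [Nonempty (TreeOf H)]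
    (y : Sym2 V → ℝ) (e : H.edgeSet) :
    1 - meanV X (treeVec H) y e.1 =
      treeSum (hFst H) (hSnd H) (cOf H y) (fun T => e ∉ T) /
        treeSum (hFst H) (hSnd H) (cOf H y) (fun _ => True) := by
  rw [treeSum_true H hX, treeSum_notMem_eq_sum H hX]
  have hZ := Zf_pos (τ := TreeOf H) X (treeVec H) y
  rw [eq_div_iff hZ.ne', sub_mul, one_mul]
  have h1 : meanV X (treeVec H) y e.1 * Zf X (treeVec H) y =
      ∑ T : TreeOf H, if e.1 ∈ T.1 then Real.exp (dot X (treeVec H T) y) else 0 := by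
    unfold meanV mu
    rw [Finset.sum_mul]
    refine Finset.sum_congr rfl fun T _ => ?_
    have hv : treeVec H T e.1 = if e.1 ∈ T.1 then 1 else 0 := rfl
    rw [hv]
    by_cases h : e.1 ∈ T.1
    · rw [if_pos h, if_pos h, mul_one, div_mul_cancel₀ _ hZ.ne']
    · simp [h]
  rw [h1]
  unfold Zf
  rw [sub_eq_iff_eq_add, ← Finset.sum_add_distrib]
  refine Finset.sum_congr rfl fun T _ => ?_
  by_cases h : e.1 ∈ T.1 <;> simp [h]

end Sum

/-! ### Flows -/

section Flow

variable (H : G.Subgraph) [Fintype H.edgeSet]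

set_option linter.unusedSectionVars false

theorem sum_support_eq {X : Finset (Sym2 V)} (hX : ∀ f, f ∈ X ↔ f ∈ H.edgeSet) (θ : Sym2 V →₀ ℝ)
    (hθ : ∀ f, θ f ≠ 0 → f ∈ H.edgeSet) (g : Sym2 V → ℝ → ℝ) (hg : ∀ f, g f 0 = 0) :
    θ.sum g = ∑ f : H.edgeSet, g f.1 (θ f.1) := by
  have hsub : θ.support ⊆ X := fun f hf => (hX f).2 (hθ f (by simpa using hf))
  rw [Finsupp.sum_of_support_subset θ hsub g (fun f _ => hg f),
    Finset.sum_subtype X hX (fun f => g f (θ f))]

/-- Extension by zero. -/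
def extFlow {X : Finset (Sym2 V)} (hX : ∀ f, f ∈ X ↔ f ∈ H.edgeSet) (θ : H.edgeSet → ℝ) :
    Sym2 V →₀ ℝ :=
  Finsupp.onFinset X (fun f => if h : f ∈ H.edgeSet then θ ⟨f, h⟩ else 0) (by
    intro f hf
    by_contra hcon
    exact hf (by simp [(hX f).not.1 hcon]))

theorem extFlow_apply {X : Finset (Sym2 V)} (hX : ∀ f, f ∈ X ↔ f ∈ H.edgeSet) (θ : H.edgeSet → ℝ)
    (f : H.edgeSet) : extFlow H hX θ f.1 = θ f := by
  simp [extFlow]

theorem extFlow_ne {X : Finset (Sym2 V)} (hX : ∀ f, f ∈ X ↔ f ∈ H.edgeSet) (θ : H.edgeSet → ℝ)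
    (f : Sym2 V) (hf : extFlow H hX θ f ≠ 0) : f ∈ H.edgeSet := by
  by_contra hcon
  exact hf (by simp [extFlow, hcon])

theorem sgnInc_eq [DecidableEq H.verts] (v : H.verts) (f : H.edgeSet) (t : ℝ) :
    sgnInc (v : V) f.1 * t =
      (if hFst H f = v then t else 0) - (if hSnd H f = v then t else 0) := by
  unfold sgnInc
  have h1 : ((f.1).out.1 = (v : V)) ↔ hFst H f = v := by
    rw [← Subtype.val_inj]; rfl
  have h2 : ((f.1).out.2 = (v : V)) ↔ hSnd H f = v := by
    rw [← Subtype.val_inj]; rfl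
  simp only [h1, h2]
  split_ifs <;> ring

theorem sgnInc_eq_zero (v : V) (hv : v ∉ H.verts) (f : H.edgeSet) : sgnInc v f.1 = 0 := by
  unfold sgnInc
  have h1 : (f.1).out.1 ≠ v := fun h => hv (h ▸ (hFst H f).2)
  have h2 : (f.1).out.2 ≠ v := fun h => hv (h ▸ (hSnd H f).2)
  simp [h1, h2]

/-- The energy as a sum over the edges of `H`. -/
theorem energy_eq_sum {X : Finset (Sym2 V)} (hX : ∀ f, f ∈ X ↔ f ∈ H.edgeSet) (y : Sym2 V → ℝ)
    (θ : Sym2 V →₀ ℝ) (hθ : ∀ f, θ f ≠ 0 → f ∈ H.edgeSet) :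
    energy y θ = ∑ f : H.edgeSet, (θ f.1) ^ 2 / cOf H y f := by
  unfold energy
  rw [sum_support_eq H hX θ hθ (fun f t => Real.exp (-y f) * t ^ 2) (fun f => by simp)]
  refine Finset.sum_congr rfl fun f _ => ?_
  rw [Real.exp_neg]
  unfold cOf
  field_simp

end Flow

section Main

variable (H : G.Subgraph) [Fintype H.verts] [Fintype H.edgeSet] [DecidableEq H.verts]
  [DecidableEq H.edgeSet]

set_option linter.unusedSectionVars false

theorem flow_of_mem {X : Finset (Sym2 V)} (hX : ∀ f, f ∈ X ↔ f ∈ H.edgeSet) {θ : Sym2 V →₀ ℝ}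
    (hθ : θ ∈ flowSpace H.edgeSet) (v : H.verts) :
    ∑ f : H.edgeSet, ((if hSnd H f = v then θ f.1 else 0) - (if hFst H f = v then θ f.1 else 0)) =
      0 := by
  have h := hθ.2 (v : V)
  unfold divAt at h
  rw [sum_support_eq H hX θ hθ.1 (fun e t => sgnInc (v : V) e * t) (fun f => by simp)] at h
  simp only [sgnInc_eq H v] at h
  have h2 : ∑ f : H.edgeSet, ((if hSnd H f = v then θ f.1 else 0) -
      (if hFst H f = v then θ f.1 else 0)) =
      - ∑ f : H.edgeSet, ((if hFst H f = v then θ f.1 else 0) -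
        (if hSnd H f = v then θ f.1 else 0)) := by
    rw [← Finset.sum_neg_distrib]
    refine Finset.sum_congr rfl fun f _ => ?_
    ring
  rw [h2, h, neg_zero]

theorem extFlow_mem {X : Finset (Sym2 V)} (hX : ∀ f, f ∈ X ↔ f ∈ H.edgeSet) (θ : H.edgeSet → ℝ)
    (hθ : ∀ v, ∑ f, ((if hSnd H f = v then θ f else 0) - (if hFst H f = v then θ f else 0)) = 0) :
    extFlow H hX θ ∈ flowSpace H.edgeSet := by
  refine ⟨extFlow_ne H hX θ, fun v => ?_⟩
  unfold divAt
  rw [sum_support_eq H hX _ (extFlow_ne H hX θ) (fun e t => sgnInc v e * t) (fun f => by simp)]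
  by_cases hv : v ∈ H.verts
  · have h1 := hθ ⟨v, hv⟩
    have h2 : ∀ f : H.edgeSet, sgnInc v f.1 * extFlow H hX θ f.1 =
        (if hFst H f = ⟨v, hv⟩ then θ f else 0) - (if hSnd H f = ⟨v, hv⟩ then θ f else 0) := by
      intro f
      rw [extFlow_apply]
      exact sgnInc_eq H ⟨v, hv⟩ f (θ f)
    simp only [h2]
    have h3 : ∑ f : H.edgeSet, ((if hFst H f = ⟨v, hv⟩ then θ f else 0) -
        (if hSnd H f = ⟨v, hv⟩ then θ f else 0)) =
        - ∑ f : H.edgeSet, ((if hSnd H f = ⟨v, hv⟩ then θ f else 0) -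
          (if hFst H f = ⟨v, hv⟩ then θ f else 0)) := by
      rw [← Finset.sum_neg_distrib]
      refine Finset.sum_congr rfl fun f _ => ?_
      ring
    rw [h3, h1, neg_zero]
  · simp [sgnInc_eq_zero H v hv]

/-- Kirchhoff in variational form, for the generic instances. -/
theorem aval_eq_ratio {X : Finset (Sym2 V)} (hX : ∀ f, f ∈ X ↔ f ∈ H.edgeSet) (hc : H.Connected)
    (y : Sym2 V → ℝ) (e : H.edgeSet) :
    aval (flowSpace H.edgeSet) y e.1 =
      treeSum (hFst H) (hSnd H) (cOf H y) (fun T => e ∉ T) /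
        treeSum (hFst H) (hSnd H) (cOf H y) (fun _ => True) := by
  have hconn := isConn_of_connected H hc
  have hne : Nonempty H.verts := hc.coe.nonempty
  have hcpos := cOf_pos H y
  set Z := treeSum (hFst H) (hSnd H) (cOf H y) (fun _ => True) with hZdef
  set Z' := treeSum (hFst H) (hSnd H) (cOf H y) (fun T => e ∉ T) with hZ'def
  have hZ : 0 < Z := treeSum_pos _ _ hconn _ hcpos
  have hZ' : 0 ≤ Z' := treeSum_nonneg _ _ _ hcpos _
  apply le_antisymm
  · refine aval_le_of fun θ hθ => ?_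
    have h1 := flow_le (hFst H) (hSnd H) hconn (cOf H y) hcpos e (fun f => θ f.1)
      (flow_of_mem H hX hθ)
    rw [← energy_eq_sum H hX y θ hθ.1] at h1
    have h2 : (θ e.1) ^ 2 / cOf H y e = Real.exp (-y e.1) * θ e.1 ^ 2 := by
      rw [Real.exp_neg]
      unfold cOf
      field_simp
    rw [h2] at h1
    unfold ratio
    by_cases h0 : energy y θ = 0
    · rw [h0]
      simp only [div_zero]
      positivity
    · have hpos : 0 < energy y θ := lt_of_le_of_ne (energy_nonneg y θ) (Ne.symm h0)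
      rw [div_le_div_iff₀ hpos hZ]
      exact h1
  · by_cases h0 : Z' = 0
    · rw [h0, zero_div]
      exact aval_nonneg _ _ _
    have hZ'pos : 0 < Z' := lt_of_le_of_ne hZ' (Ne.symm h0)
    obtain ⟨θ, hθ, h1, h2⟩ := exists_flow_eq (hFst H) (hSnd H) hconn (cOf H y) hcpos e
    have hmem := extFlow_mem H hX θ hθ
    refine le_trans (le_of_eq ?_) (ratio_le_aval y e.1 hmem)
    have hen := energy_eq_sum H hX y (extFlow H hX θ) (extFlow_ne H hX θ)
    simp only [extFlow_apply] at hen
    have hθe : θ e ≠ 0 := by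
      intro h
      rw [h, zero_mul] at h1
      exact h0 h1.symm
    have h3 : Real.exp (-y e.1) * θ e ^ 2 = (θ e) ^ 2 / cOf H y e := by
      rw [Real.exp_neg]
      unfold cOf
      field_simp
    have hEpos : 0 < energy y (extFlow H hX θ) :=
      energy_pos_of_ne y _ (e := e.1) (by rw [extFlow_apply]; exact hθe)
    unfold ratio
    rw [extFlow_apply, h3, hen]
    rw [hen] at hEpos
    rw [div_eq_div_iff hZ.ne' hEpos.ne']
    linarith

end Main

/-- **Kirchhoff in variational form.** For a finite connected subgraph, the tilted probability that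
the spanning tree contains `e` is one minus the supremum over flows. (Matrix tree theorem, through
`flow_le`, `exists_flow_eq` of `MatrixTree.lean`, applied with vertices `H.verts`, edges `H.edgeSet`
oriented by `e.out`, conductances `exp (y f)`.) -/
theorem drift_eq_mean (H : G.Subgraph) [Fact H.verts.Finite] (hc : H.Connected) (y : Sym2 V → ℝ)
    {e : Sym2 V} (he : e ∈ H.edgeSet) :
    1 - aval (flowSpace H.edgeSet) y e =
      meanV (edgesOf H Fact.out) (treeVec H) y e := by
  have hf : H.verts.Finite := Fact.out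
  let _ : Fintype H.verts := hf.fintype
  let _ : Fintype H.edgeSet := (edgeSet_finite H hf).fintype
  have hne : Nonempty (TreeOf H) := treeOf_nonempty H hf hc
  have h1 := aval_eq_ratio H (mem_edgesOf H hf) hc y ⟨e, he⟩
  have h2 := one_sub_meanV H (mem_edgesOf H hf) y ⟨e, he⟩
  simp only at h1 h2
  rw [h1, ← h2]
  ring

/-- At the zero field the tilted law is the uniform spanning tree. -/
theorem ustCyl_eq (H : G.Subgraph) [Fact H.verts.Finite] (hc : H.Connected) (A B : Finset (Sym2 V)) :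
    ustCyl H A B =
      ∑ T : TreeOf H, mu (edgesOf H Fact.out) (treeVec H) 0 T *
        (if A ⊆ T.1 ∧ Disjoint T.1 B then 1 else 0) := by
  have hf : H.verts.Finite := Fact.out
  have hne : Nonempty (TreeOf H) := treeOf_nonempty H hf hc
  have hval : Function.Injective (fun T : TreeOf H => ((T.1 : Finset (Sym2 V)) : Set (Sym2 V))) :=
    fun T T' h => Subtype.ext (Finset.coe_injective h)
  have hset : ∀ R : Set (Sym2 V) → Prop, {T | IsSpanningTree H T ∧ R T} =
      (fun T : TreeOf H => ((T.1 : Finset (Sym2 V)) : Set (Sym2 V))) '' {T | R (T.1 : Set (Sym2 V))} := by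
    intro R
    ext S
    constructor
    · rintro ⟨h1, h2⟩
      have hfin : S.Finite := (edgeSet_finite H hf).subset h1.1
      refine ⟨⟨hfin.toFinset, by simpa using h1⟩, ?_, by simp⟩
      show R ((hfin.toFinset : Finset (Sym2 V)) : Set (Sym2 V))
      rw [Set.Finite.coe_toFinset]
      exact h2
    · rintro ⟨T, hT, rfl⟩
      exact ⟨T.2, hT⟩
  have hcard : ∀ R : Set (Sym2 V) → Prop, Set.ncard {T | IsSpanningTree H T ∧ R T} =
      (Finset.univ.filter (fun T : TreeOf H => R (T.1 : Set (Sym2 V)))).card := by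
    intro R
    rw [hset, Set.ncard_image_of_injective _ hval, Set.ncard_eq_toFinset_card']
    congr 1
    ext T
    simp
  have hn : Set.ncard {T | IsSpanningTree H T} = Fintype.card (TreeOf H) := by
    have h := hcard (fun _ => True)
    simp only [and_true, Finset.filter_true] at h
    rw [h]
    rfl
  unfold ustCyl
  have hn2 := hcard (fun T => (A : Set (Sym2 V)) ⊆ T ∧ Disjoint T (B : Set (Sym2 V)))
  rw [hn, hn2]
  have hmu : ∀ T : TreeOf H, mu (edgesOf H Fact.out) (treeVec H) 0 T =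
      1 / (Fintype.card (TreeOf H) : ℝ) := by
    intro T
    unfold mu Zf
    have h0 : ∀ T : TreeOf H, dot (edgesOf H Fact.out) (treeVec H T) 0 = 0 := fun T => by
      simp [dot]
    simp [h0]
  simp_rw [hmu]
  rw [← Finset.mul_sum, Finset.sum_boole, Finset.card_filter, div_eq_mul_inv, one_div, mul_comm]
  congr 1
  simp only [Finset.card_filter, Nat.cast_sum]
  refine Finset.sum_congr rfl fun T _ => ?_
  simp only [Finset.coe_subset, Finset.disjoint_coe]

end Vale.Agent.Lib.P143
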