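import Mathlib

/-! Basic facts on Cayley graphs. -/

namespace Vale.Agent.Lib.P143

variable {Γ : Type*} [Group Γ]

theorem cayley_connected (S : Set Γ) (hS : Subgroup.closure S = ⊤) :
    (SimpleGraph.mulCayley S).Connected := by
  have key : ∀ x : Γ, ∀ u : Γ, (SimpleGraph.mulCayley S).Reachable u (u * x) := by
    intro x
    have hx : x ∈ Subgroup.closure S := by rw [hS]; trivial
    induction hx using Subgroup.closure_induction with
    | mem x hx =>
      intro u
      by_cases h : u = u * x
      · rw [← h]
      · exact SimpleGraph.Adj.reachable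
          ((SimpleGraph.mulCayley_adj' S u (u * x)).2 ⟨h, x, hx, Or.inl rfl⟩)
    | one => intro u; simp
    | mul x y _ _ hx hy =>
      intro u
      have := (hx u).trans (hy (u * x))
      rwa [mul_assoc] at this
    | inv x _ hx =>
      intro u
      have := hx (u * x⁻¹)
      simp only [inv_mul_cancel_right] at this
      exact this.symm
  rw [SimpleGraph.connected_iff]
  refine ⟨fun u v => ?_, ⟨1⟩⟩
  have := key (u⁻¹ * v) u
  simpa using this

theorem cayley_countable (S : Set Γ) (hfin : S.Finite) (hS : Subgroup.closure S = ⊤) :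
    Countable Γ := by
  let T : Set Γ := S ∪ S⁻¹
  have hT : T.Finite := hfin.union hfin.inv
  have : Countable T := hT.countable.to_subtype
  have hsurj : Function.Surjective (fun l : List T => (l.map Subtype.val).prod) := by
    intro x
    have hx : x ∈ Subgroup.closure S := by rw [hS]; trivial
    have hx' : x ∈ Submonoid.closure T := by
      rw [← Subgroup.closure_toSubmonoid]
      exact hx
    obtain ⟨l, hl', rfl⟩ := Submonoid.exists_list_of_mem_closure hx'
    refine ⟨l.attach.map fun y => (⟨y.1, hl' y.1 y.2⟩ : T), ?_⟩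
    simp [List.map_map, Function.comp_def]
  exact hsurj.countable

theorem cayley_adj_mul (S : Set Γ) (γ a b : Γ) :
    (SimpleGraph.mulCayley S).Adj (γ * a) (γ * b) ↔ (SimpleGraph.mulCayley S).Adj a b := by
  simp only [SimpleGraph.mulCayley_adj', mul_right_inj, mul_assoc, ne_eq]

theorem cayley_locallyFinite (S : Set Γ) (hfin : S.Finite) (v : Γ) :
    ((SimpleGraph.mulCayley S).neighborSet v).Finite := by
  refine ((hfin.image fun g => v * g).union (hfin.image fun g => v * g⁻¹)).subset ?_
  intro w hw
  have h : (SimpleGraph.mulCayley S).Adj v w := hw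
  obtain ⟨-, g, hg, h1 | h1⟩ := (SimpleGraph.mulCayley_adj' S v w).1 h
  · exact Or.inl ⟨g, hg, h1⟩
  · exact Or.inr ⟨g, hg, by simp [h1]⟩

end Vale.Agent.Lib.P143
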