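import Vale.Agent.Lib.P143.Step

/-! The Euler chain on the sequence space of Gaussian fields. -/

open MeasureTheory ProbabilityTheory
open scoped ENNReal

noncomputable section

namespace Vale.Agent.Lib.P143

variable {E τ ι : Type*}

/-- iid Gaussian fields in discrete time. -/
def gamSeq (E : Type*) : Measure (ℕ → E → ℝ) := Measure.infinitePi fun _ : ℕ => gam E

instance : IsProbabilityMeasure (gamSeq E) := by unfold gamSeq; infer_instance

/-- The Euler chain with drift `M`, step `s ^ 2` and noise `s • g j`. -/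
def eu (M : (E → ℝ) → E → ℝ) (s : ℝ) (g : ℕ → E → ℝ) : ℕ → E → ℝ
  | 0 => 0
  | j + 1 => eu M s g j + (s ^ 2) • M (eu M s g j) + s • g j

theorem measurable_stepMap {M : (E → ℝ) → E → ℝ} (hM : ∀ e, Measurable fun y => M y e) (s : ℝ) :
    Measurable fun p : (E → ℝ) × (E → ℝ) => p.1 + (s ^ 2) • M p.1 + s • p.2 := by
  refine measurable_pi_lambda _ fun f => ?_
  simp only [Pi.add_apply, Pi.smul_apply, smul_eq_mul]
  exact (((measurable_pi_apply f).comp measurable_fst).add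
    (((hM f).comp measurable_fst).const_mul _)).add
    (((measurable_pi_apply f).comp measurable_snd).const_mul _)

theorem measurable_eu {M : (E → ℝ) → E → ℝ} (hM : ∀ e, Measurable fun y => M y e) (s : ℝ) (j : ℕ) :
    Measurable fun g : ℕ → E → ℝ => eu M s g j := by
  induction j with
  | zero => exact measurable_const
  | succ j ih =>
    exact (measurable_stepMap hM s).comp (ih.prodMk (measurable_pi_apply j))

theorem eu_congr (M : (E → ℝ) → E → ℝ) (s : ℝ) {g g' : ℕ → E → ℝ} (j : ℕ)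
    (h : ∀ i < j, g i = g' i) : eu M s g j = eu M s g' j := by
  induction j with
  | zero => rfl
  | succ j ih =>
    simp only [eu]
    rw [ih (fun i hi => h i (by omega)), h j (by omega)]

/-- Integration of the next coordinate against a functional of the previous ones. -/
theorem lintegral_next {S W : Type*} [MeasurableSpace S] [Inhabited S] [MeasurableSpace W]
    (ν : Measure S) [IsProbabilityMeasure ν] (j : ℕ) {Q : (ℕ → S) → W} (hQ : Measurable Q)
    (hdep : ∀ g g' : ℕ → S, (∀ i < j, g i = g' i) → Q g = Q g')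
    {F : W × S → ℝ≥0∞} (hF : Measurable F) :
    ∫⁻ g, F (Q g, g j) ∂(Measure.infinitePi fun _ : ℕ => ν) =
      ∫⁻ g, ∫⁻ ξ, F (Q g, ξ) ∂ν ∂(Measure.infinitePi fun _ : ℕ => ν) := by
  set Pq := Measure.infinitePi fun _ : ℕ => ν with hPq
  have hI : iIndepFun (fun (i : ℕ) (ω : ℕ → S) => ω i) Pq :=
    iIndepFun_infinitePi (P := fun _ : ℕ => ν) (X := fun _ x => x) (fun _ => measurable_id)
  have hS := hI.indepFun_finset (Finset.range j) {j} (by simp) (fun i => measurable_pi_apply i)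
  let ext : (Finset.range j → S) → ℕ → S := fun r i =>
    if h : i ∈ Finset.range j then r ⟨i, h⟩ else default
  have hext : Measurable ext := by
    refine measurable_pi_iff.2 fun i => ?_
    by_cases h : i ∈ Finset.range j
    · simp only [ext, h, dif_pos]
      exact measurable_pi_apply _
    · simp only [ext, h, dif_neg, not_false_eq_true]
      exact measurable_const
  let i0 : (({j} : Finset ℕ) : Set ℕ) := ⟨j, by simp⟩
  have hψ : Measurable (fun r : (({j} : Finset ℕ) : Set ℕ) → S => r i0) :=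
    measurable_pi_apply i0
  have hcomp := hS.comp (φ := fun r => Q (ext r)) (ψ := fun r => r i0) (hQ.comp hext) hψ
  have e1 : Q = (fun r => Q (ext r)) ∘
      (fun (a : ℕ → S) (i : ((Finset.range j : Finset ℕ) : Set ℕ)) => a i) := by
    funext ω
    refine hdep _ _ fun i hi => ?_
    have hmem : i ∈ Finset.range j := Finset.mem_range.2 hi
    simp only [ext, dif_pos hmem]
  have e2 : (fun ω : ℕ → S => ω j) = (fun r => r i0) ∘
      (fun (a : ℕ → S) (i : (({j} : Finset ℕ) : Set ℕ)) => a i) := rfl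
  have hind : IndepFun Q (fun ω : ℕ → S => ω j) Pq := by
    rw [e1, e2]
    exact hcomp
  have h := hind.map_prod_eq_prod_map_map hQ.aemeasurable (measurable_pi_apply j).aemeasurable
  have hj : Pq.map (fun ω : ℕ → S => ω j) = ν := Measure.infinitePi_map_eval (fun _ : ℕ => ν) j
  rw [hj] at h
  have hpair : Measurable fun ω : ℕ → S => (Q ω, ω j) := hQ.prodMk (measurable_pi_apply j)
  calc ∫⁻ g, F (Q g, g j) ∂Pq = ∫⁻ p, F p ∂(Pq.map fun ω => (Q ω, ω j)) :=
        (lintegral_map hF hpair).symm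
    _ = ∫⁻ p, F p ∂((Pq.map Q).prod ν) := by rw [h]
    _ = ∫⁻ w, ∫⁻ ξ, F (w, ξ) ∂ν ∂(Pq.map Q) := lintegral_prod _ hF.aemeasurable
    _ = _ := lintegral_map hF.lintegral_prod_right' hQ

section Chain

variable [Fintype τ] [Fintype ι] [Nonempty τ]
variable {X : Finset E} {x : τ → E → ℝ} {α : ι → ℝ} {b : ι → E → ℝ} {M : (E → ℝ) → E → ℝ}

theorem chain_step (hM : ∀ e, Measurable fun y => M y e)
    (hmean : ∀ y, ∀ f ∈ X, M y f = meanV X x y f)
    (h01 : ∀ y T, ∀ f ∈ X, |x T f - M y f| ≤ 1)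
    (hxX : ∀ T f, f ∉ X → x T f = 0) {k β : ℝ}
    (hk : ∀ T, ∑ f ∈ X, x T f ^ 2 = k) (hbX : ∀ i f, f ∉ X → b i f = 0)
    (hβ : ∀ i, ∑ f ∈ X, b i f ^ 2 = β) (hα : ∀ i, 0 ≤ α i) {C s : ℝ}
    (hC1 : ∀ i, ∑ f ∈ X, |b i f| ≤ C) (hC2 : ∀ S, ∑ f ∈ X, |x S f| ≤ C)
    (hB : s ^ 2 * C ≤ 1 / 2) (j : ℕ) {Ψ : (ℕ → E → ℝ) → ℝ≥0∞} (hΨ : Measurable Ψ)
    (hdep : ∀ g g' : ℕ → E → ℝ, (∀ i < j, g i = g' i) → Ψ g = Ψ g') :
    ENNReal.ofReal (1 - 3 * (s ^ 2 * C) ^ 2) *
        ∫⁻ g, ENNReal.ofReal (testF X x α b (eu M s g (j + 1))) * Ψ g ∂gamSeq E ≤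
      ENNReal.ofReal (Real.exp (s ^ 2 * (β - k) / 2)) *
        ∫⁻ g, ENNReal.ofReal (testF X x α b (eu M s g j)) * Ψ g ∂gamSeq E := by
  set Q : (ℕ → E → ℝ) → (E → ℝ) × ℝ≥0∞ := fun g => (eu M s g j, Ψ g) with hQ
  have hQm : Measurable Q := (measurable_eu hM s j).prodMk hΨ
  have hQdep : ∀ g g' : ℕ → E → ℝ, (∀ i < j, g i = g' i) → Q g = Q g' := fun g g' h => by
    simp only [hQ, eu_congr M s j h, hdep g g' h]
  set F : ((E → ℝ) × ℝ≥0∞) × (E → ℝ) → ℝ≥0∞ := fun p =>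
    ENNReal.ofReal (testF X x α b (p.1.1 + (s ^ 2) • M p.1.1 + s • p.2)) * p.1.2 with hF
  have hmap : Measurable fun p : ((E → ℝ) × ℝ≥0∞) × (E → ℝ) =>
      p.1.1 + (s ^ 2) • M p.1.1 + s • p.2 :=
    (measurable_stepMap hM s).comp ((measurable_fst.comp measurable_fst).prodMk measurable_snd)
  have hFm : Measurable F :=
    (((measurable_testF X x α b).comp hmap).ennreal_ofReal).mul
      (measurable_snd.comp measurable_fst)
  have h1 := lintegral_next (gam E) j hQm hQdep hFm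
  have h2 : ∫⁻ g, ENNReal.ofReal (testF X x α b (eu M s g (j + 1))) * Ψ g ∂gamSeq E =
      ∫⁻ g, F (Q g, g j) ∂gamSeq E := rfl
  rw [h2]
  unfold gamSeq
  rw [h1]
  rw [← lintegral_const_mul _ ?_, ← lintegral_const_mul _ ?_]
  · refine lintegral_mono fun g => ?_
    have hinner : ∫⁻ ξ, F (Q g, ξ) ∂gam E =
        (∫⁻ ξ, ENNReal.ofReal (testF X x α b (eu M s g j + (s ^ 2) • M (eu M s g j) + s • ξ)) ∂gam E)
          * Ψ g := by
      simp only [hF, hQ]
      rw [lintegral_mul_const]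
      exact ((measurable_testF X x α b).comp (measurable_shift _ s)).ennreal_ofReal
    rw [hinner, ← mul_assoc, ← mul_assoc]
    refine mul_le_mul_left ?_ _
    have h3 := euler_step_lintegral (y := eu M s g j) (m' := M (eu M s g j)) hxX hk hbX hβ hα hC1 hC2
      hB (hmean _) (h01 _)
    rw [ENNReal.ofReal_mul (Real.exp_pos _).le] at h3
    exact h3
  · exact (((measurable_testF X x α b).comp (measurable_eu hM s j)).ennreal_ofReal).mul hΨ
  · exact hFm.lintegral_prod_right'.comp hQm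

/-- Iteration of the step. -/
theorem chain_bound (hM : ∀ e, Measurable fun y => M y e)
    (hmean : ∀ y, ∀ f ∈ X, M y f = meanV X x y f)
    (h01 : ∀ y T, ∀ f ∈ X, |x T f - M y f| ≤ 1)
    (hxX : ∀ T f, f ∉ X → x T f = 0) {k β : ℝ}
    (hk : ∀ T, ∑ f ∈ X, x T f ^ 2 = k) (hbX : ∀ i f, f ∉ X → b i f = 0)
    (hβ : ∀ i, ∑ f ∈ X, b i f ^ 2 = β) (hα : ∀ i, 0 ≤ α i) {C s : ℝ}
    (hC1 : ∀ i, ∑ f ∈ X, |b i f| ≤ C) (hC2 : ∀ S, ∑ f ∈ X, |x S f| ≤ C)
    (hB : s ^ 2 * C ≤ 1 / 2) (n₀ d : ℕ) {ψ : (E → ℝ) → ℝ≥0∞} (hψ : Measurable ψ) :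
    ENNReal.ofReal (1 - 3 * (s ^ 2 * C) ^ 2) ^ d *
        ∫⁻ g, ENNReal.ofReal (testF X x α b (eu M s g (n₀ + d))) * ψ (eu M s g n₀) ∂gamSeq E ≤
      ENNReal.ofReal (Real.exp (s ^ 2 * (β - k) / 2)) ^ d *
        ∫⁻ g, ENNReal.ofReal (testF X x α b (eu M s g n₀)) * ψ (eu M s g n₀) ∂gamSeq E := by
  induction d with
  | zero => simp
  | succ d ih =>
    have h := chain_step (Ψ := fun g => ψ (eu M s g n₀)) (j := n₀ + d) hM hmean h01 hxX hk hbX hβ hα
      hC1 hC2 hB (hψ.comp (measurable_eu hM s n₀))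
      (fun g g' hgg => by
        rw [eu_congr M s n₀ (fun i hi => hgg i (by omega))])
    calc ENNReal.ofReal (1 - 3 * (s ^ 2 * C) ^ 2) ^ (d + 1) *
          ∫⁻ g, ENNReal.ofReal (testF X x α b (eu M s g (n₀ + (d + 1)))) * ψ (eu M s g n₀) ∂gamSeq E
        = ENNReal.ofReal (1 - 3 * (s ^ 2 * C) ^ 2) ^ d *
          (ENNReal.ofReal (1 - 3 * (s ^ 2 * C) ^ 2) *
            ∫⁻ g, ENNReal.ofReal (testF X x α b (eu M s g (n₀ + d + 1))) * ψ (eu M s g n₀)
              ∂gamSeq E) := by rw [pow_succ, mul_assoc]; rfl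
      _ ≤ ENNReal.ofReal (1 - 3 * (s ^ 2 * C) ^ 2) ^ d *
          (ENNReal.ofReal (Real.exp (s ^ 2 * (β - k) / 2)) *
            ∫⁻ g, ENNReal.ofReal (testF X x α b (eu M s g (n₀ + d))) * ψ (eu M s g n₀) ∂gamSeq E) :=
          mul_le_mul_right h _
      _ = ENNReal.ofReal (Real.exp (s ^ 2 * (β - k) / 2)) *
          (ENNReal.ofReal (1 - 3 * (s ^ 2 * C) ^ 2) ^ d *
            ∫⁻ g, ENNReal.ofReal (testF X x α b (eu M s g (n₀ + d))) * ψ (eu M s g n₀) ∂gamSeq E) := by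
          ring
      _ ≤ ENNReal.ofReal (Real.exp (s ^ 2 * (β - k) / 2)) *
          (ENNReal.ofReal (Real.exp (s ^ 2 * (β - k) / 2)) ^ d *
            ∫⁻ g, ENNReal.ofReal (testF X x α b (eu M s g n₀)) * ψ (eu M s g n₀) ∂gamSeq E) :=
          mul_le_mul_right ih _
      _ = _ := by rw [pow_succ]; ring

end Chain

end Vale.Agent.Lib.P143
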