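import Mathlib

/-! Statement level definitions for the free uniform spanning forest. -/

open Filter Topology

namespace Vale.Agent.Lib.P143

variable {V : Type*} {G : SimpleGraph V}

/-- `T` is the edge set of a spanning tree of the subgraph `H`: its edges are edges of `H`, and the
graph with vertex set `H.verts` and edge set `T` is a tree. -/
def IsSpanningTree (H : G.Subgraph) (T : Set (Sym2 V)) : Prop :=
  T ⊆ H.edgeSet ∧ ((SimpleGraph.fromEdgeSet T).comap (Subtype.val : H.verts → V)).IsTree

/-- The probability, under the uniform spanning tree of the finite subgraph `H`, that the tree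
contains all edges of `A` and no edge of `B`. -/
noncomputable def ustCyl (H : G.Subgraph) (A B : Finset (Sym2 V)) : ℝ :=
  (Set.ncard {T | IsSpanningTree H T ∧ (A : Set (Sym2 V)) ⊆ T ∧ Disjoint T (B : Set (Sym2 V))} : ℝ) /
    (Set.ncard {T | IsSpanningTree H T} : ℝ)

/-- An exhaustion of `G`: finite connected subgraphs `G₁ ⊆ G₂ ⊆ ⋯` with union `G`. -/
structure IsExhaustion (G : SimpleGraph V) (Gn : ℕ → G.Subgraph) : Prop where
  finite : ∀ n, (Gn n).verts.Finite
  connected : ∀ n, (Gn n).Connected
  mono : ∀ n, Gn n ≤ Gn (n + 1)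
  verts : ∀ v, ∃ n, v ∈ (Gn n).verts
  edges : ∀ e ∈ G.edgeSet, ∃ n, e ∈ (Gn n).edgeSet

/-- `μ` is the free uniform spanning forest of `G`, as a law on `{0,1}^{E(G)}`: a probability law whose
cylinder probabilities are the limits of the uniform spanning tree probabilities along every
exhaustion of `G`. -/
def IsFUSF (G : SimpleGraph V) (μ : MeasureTheory.Measure (G.edgeSet → Bool)) : Prop :=
  MeasureTheory.IsProbabilityMeasure μ ∧
    ∀ Gn, IsExhaustion G Gn → ∀ A B : Finset G.edgeSet,
      Tendsto (fun n => ustCyl (Gn n) (A.map (Function.Embedding.subtype _))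
          (B.map (Function.Embedding.subtype _))) atTop
        (𝓝 (μ {x | (∀ e ∈ A, x e = true) ∧ ∀ e ∈ B, x e = false}).toReal)

/-- The Borel structure on the space of graphs on `V`: the sigma-algebra generated by the events that
`a` and `b` are adjacent. -/
def adjSigma (V : Type*) : MeasurableSpace (SimpleGraph V) :=
  ⨆ (a : V) (b : V), MeasurableSpace.comap (fun G : SimpleGraph V => G.Adj a b) ⊤

end Vale.Agent.Lib.P143
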