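import Vale.Agent.Lib.P143.Levels

/-! Independent raw Gaussian arrays on the edges from iid uniform labels on the vertices, in a way
natural for graph isomorphisms: the owner of an edge is its end with the smaller auxiliary label, and
the edge uses the array of its owner whose index is the rank of the other end among the neighbours of
the owner. -/

open MeasureTheory ProbabilityTheory

noncomputable section

namespace Vale.Agent.Lib.P143

variable {V : Type*}

/-- The iid uniform law on `V → [0,1]`. -/
abbrev iidU (V : Type*) : Measure (V → unitInterval) :=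
  Measure.infinitePi fun _ => (volume : Measure unitInterval)

/-- One uniform label gives an auxiliary uniform label and a sequence of independent raw arrays
(`Measure.exists_measurable_map_eq` for the product law). -/
theorem exists_label_noise : ∃ (A : unitInterval → unitInterval)
    (R : ℕ → unitInterval → ℕ → ℕ → ℝ), Measurable A ∧ (∀ p, Measurable (R p)) ∧
      (volume : Measure unitInterval).map (fun u => (A u, fun p => R p u)) =
        (volume : Measure unitInterval).prod (Measure.infinitePi fun _ : ℕ => arrN) := by
  have h1 : StandardBorelSpace (ℕ → ℝ) := inferInstance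
  have h2 : StandardBorelSpace (ℕ → ℕ → ℝ) := inferInstance
  have h3 : StandardBorelSpace (ℕ → ℕ → ℕ → ℝ) := inferInstance
  obtain ⟨φ, hφ, hlaw⟩ := Measure.exists_measurable_map_eq
    ((volume : Measure unitInterval).prod (Measure.infinitePi fun _ : ℕ => arrN))
  refine ⟨fun u => (φ u).1, fun p u => (φ u).2 p, measurable_fst.comp hφ,
    fun p => (measurable_pi_apply p).comp (measurable_snd.comp hφ), ?_⟩
  exact hlaw

open Classical in
/-- The rank of `b` among the neighbours of `a`, for the auxiliary labels `A`. -/
def rk (G : SimpleGraph V) (A : V → unitInterval) (a b : V) : ℕ :=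
  Set.ncard {w | G.Adj a w ∧ A w < A b}

open Classical in
/-- The raw array of the pair `{a, b}`, as an ordered expression. -/
def rawPair (G : SimpleGraph V) (A : unitInterval → unitInterval)
    (R : ℕ → unitInterval → ℕ → ℕ → ℝ) (U : V → unitInterval) (a b : V) : ℕ → ℕ → ℝ :=
  if G.Adj a b then
    if A (U a) < A (U b) then R (rk G (A ∘ U) a b) (U a)
    else if A (U b) < A (U a) then R (rk G (A ∘ U) b a) (U b)
    else 0
  else 0

theorem rawPair_comm (G : SimpleGraph V) (A : unitInterval → unitInterval)
    (R : ℕ → unitInterval → ℕ → ℕ → ℝ) (U : V → unitInterval) (a b : V) :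
    rawPair G A R U a b = rawPair G A R U b a := by
  unfold rawPair
  by_cases h : G.Adj a b
  · have h' : G.Adj b a := h.symm
    simp only [h, h', if_true]
    rcases lt_trichotomy (A (U a)) (A (U b)) with hl | hl | hl
    · simp [hl, not_lt_of_gt hl]
    · simp [hl]
    · simp [hl, not_lt_of_gt hl]
  · have h' : ¬ G.Adj b a := fun h'' => h h''.symm
    simp [h, h']

/-- The raw array of an unordered pair; zero off the edges. -/
def rawEdge (G : SimpleGraph V) (A : unitInterval → unitInterval)
    (R : ℕ → unitInterval → ℕ → ℕ → ℝ) (U : V → unitInterval) : Sym2 V → ℕ → ℕ → ℝ :=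
  Sym2.lift ⟨rawPair G A R U, rawPair_comm G A R U⟩

lemma rk_map {V' : Type*} (G : SimpleGraph V) (G' : SimpleGraph V') (π : V ≃ V')
    (hπ : ∀ a b, G'.Adj (π a) (π b) ↔ G.Adj a b) (L : V → unitInterval) (a b : V) :
    rk G' (fun v' => L (π.symm v')) (π a) (π b) = rk G L a b := by
  unfold rk
  have : {w | G'.Adj (π a) w ∧ (fun v' => L (π.symm v')) w < (fun v' => L (π.symm v')) (π b)} =
      π '' {w | G.Adj a w ∧ L w < L b} := by
    ext w
    simp only [Set.mem_ofPred_eq, Set.mem_image]
    constructor
    · rintro ⟨h1, h2⟩
      refine ⟨π.symm w, ⟨?_, ?_⟩, by simp⟩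
      · rw [← hπ]
        simpa using h1
      · simpa using h2
    · rintro ⟨v, ⟨h1, h2⟩, rfl⟩
      refine ⟨(hπ _ _).2 h1, ?_⟩
      simpa using h2
  rw [this, Set.ncard_image_of_injective _ π.injective]

/-- Naturality under isomorphisms. -/
theorem rawEdge_natural {V' : Type*} (G : SimpleGraph V) (G' : SimpleGraph V') (π : V ≃ V')
    (hπ : ∀ a b, G'.Adj (π a) (π b) ↔ G.Adj a b) (A : unitInterval → unitInterval)
    (R : ℕ → unitInterval → ℕ → ℕ → ℝ) (U : V → unitInterval) (e : Sym2 V) :
    rawEdge G' A R (fun v' => U (π.symm v')) (Sym2.map π e) = rawEdge G A R U e := by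
  induction e using Sym2.ind with
  | _ a b =>
    have hr : ∀ a b, rk G' (A ∘ fun v' => U (π.symm v')) (π a) (π b) = rk G (A ∘ U) a b := by
      intro a b
      exact rk_map G G' π hπ (A ∘ U) a b
    simp only [Sym2.map_mk, rawEdge, Sym2.lift_mk, rawPair, hr]
    by_cases h : G.Adj a b
    · have h' := (hπ a b).2 h
      simp [h, h']
    · have h' : ¬ G'.Adj (π a) (π b) := fun h'' => h ((hπ a b).1 h'')
      simp [h, h']

/-! ### A form in terms of the labels and the arrays -/

open Classical in
/-- The raw array of a pair in terms of the labels and the arrays at the vertices. -/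
def pairOf (G : SimpleGraph V) (L : V → unitInterval) (N : V → ℕ → ℕ → ℕ → ℝ) (a b : V) :
    ℕ → ℕ → ℝ :=
  if G.Adj a b then
    if L a < L b then N a (rk G L a b)
    else if L b < L a then N b (rk G L b a)
    else 0
  else 0

lemma pairOf_comm (G : SimpleGraph V) (L : V → unitInterval) (N : V → ℕ → ℕ → ℕ → ℝ) (a b : V) :
    pairOf G L N a b = pairOf G L N b a := by
  unfold pairOf
  by_cases h : G.Adj a b
  · have h' : G.Adj b a := h.symm
    simp only [h, h', if_true]
    rcases lt_trichotomy (L a) (L b) with hl | hl | hl
    · simp [hl, not_lt_of_gt hl]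
    · simp [hl]
    · simp [hl, not_lt_of_gt hl]
  · have h' : ¬ G.Adj b a := fun h'' => h h''.symm
    simp [h, h']

/-- The raw array of an unordered pair in terms of the labels and the arrays at the vertices. -/
def edgeOf (G : SimpleGraph V) (L : V → unitInterval) (N : V → ℕ → ℕ → ℕ → ℝ) :
    Sym2 V → ℕ → ℕ → ℝ :=
  Sym2.lift ⟨pairOf G L N, pairOf_comm G L N⟩

lemma rawEdge_eq_edgeOf (G : SimpleGraph V) (A : unitInterval → unitInterval)
    (R : ℕ → unitInterval → ℕ → ℕ → ℝ) (U : V → unitInterval) (e : Sym2 V) :
    rawEdge G A R U e = edgeOf G (fun v => A (U v)) (fun v p => R p (U v)) e := by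
  induction e using Sym2.ind with
  | _ a b =>
    rfl

/-! ### Measurability -/

lemma measurable_rk [Countable V] (G : SimpleGraph V) (hG : ∀ v, (G.neighborSet v).Finite)
    (a b : V) : Measurable fun L : V → unitInterval => rk G L a b := by
  classical
  have h : ∀ L : V → unitInterval, rk G L a b =
      ∑ w ∈ (hG a).toFinset, if L w < L b then 1 else 0 := by
    intro L
    have hset : {w | G.Adj a w ∧ L w < L b} =
        (((hG a).toFinset.filter fun w => L w < L b : Finset V) : Set V) := by
      ext w
      simp
    unfold rk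
    rw [hset, Set.ncard_coe_finset, Finset.card_filter]
  simp only [h]
  refine Finset.measurable_sum _ fun w _ => ?_
  refine Measurable.ite ?_ measurable_const measurable_const
  exact measurableSet_lt (measurable_pi_apply w) (measurable_pi_apply b)

lemma measurable_app_rk {Y : Type*} [MeasurableSpace Y] [Countable V] (G : SimpleGraph V)
    (hG : ∀ v, (G.neighborSet v).Finite) (a a' b : V) :
    Measurable fun p : (V → unitInterval) × (V → ℕ → Y) => p.2 a' (rk G p.1 a b) := by
  have h1 : Measurable fun q : (V → ℕ → Y) × ℕ => q.1 a' q.2 :=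
    measurable_from_prod_countable_left fun n =>
      (measurable_pi_apply n).comp (measurable_pi_apply a')
  have h2 : Measurable fun p : (V → unitInterval) × (V → ℕ → Y) => (p.2, rk G p.1 a b) :=
    measurable_snd.prodMk ((measurable_rk G hG a b).comp measurable_fst)
  exact h1.comp h2

lemma measurable_edgeOf [Countable V] (G : SimpleGraph V) (hG : ∀ v, (G.neighborSet v).Finite)
    (e : Sym2 V) :
    Measurable fun p : (V → unitInterval) × (V → ℕ → ℕ → ℕ → ℝ) => edgeOf G p.1 p.2 e := by
  classical
  induction e using Sym2.ind with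
  | _ a b =>
    simp only [edgeOf, Sym2.lift_mk, pairOf]
    by_cases h : G.Adj a b
    · simp only [h, if_true]
      have hlab : Measurable fun p : (V → unitInterval) × (V → ℕ → ℕ → ℕ → ℝ) => p.1 a :=
        (measurable_pi_apply a).comp measurable_fst
      have hlbb : Measurable fun p : (V → unitInterval) × (V → ℕ → ℕ → ℕ → ℝ) => p.1 b :=
        (measurable_pi_apply b).comp measurable_fst
      exact Measurable.ite (measurableSet_lt hlab hlbb) (measurable_app_rk G hG a a b)
        (Measurable.ite (measurableSet_lt hlbb hlab) (measurable_app_rk G hG b b a)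
          measurable_const)
    · simp only [h, if_false]
      exact measurable_const

/-- Measurability for a locally finite graph on a countable vertex set. -/
theorem measurable_rawEdge [Countable V] (G : SimpleGraph V) (hG : ∀ v, (G.neighborSet v).Finite)
    {A : unitInterval → unitInterval} {R : ℕ → unitInterval → ℕ → ℕ → ℝ} (hA : Measurable A)
    (hR : ∀ p, Measurable (R p)) (e : Sym2 V) :
    Measurable fun U => rawEdge G A R U e := by
  simp only [rawEdge_eq_edgeOf]
  have h1 : Measurable fun U : V → unitInterval =>
      (((fun v => A (U v)), (fun v p => R p (U v))) :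
        (V → unitInterval) × (V → ℕ → ℕ → ℕ → ℝ)) := by
    refine Measurable.prodMk ?_ ?_
    · exact measurable_pi_lambda _ fun v => hA.comp (measurable_pi_apply v)
    · exact measurable_pi_lambda _ fun v => measurable_pi_lambda _ fun p =>
        (hR p).comp (measurable_pi_apply v)
  exact (measurable_edgeOf G hG e).comp h1

/-! ### The joint law of the two parts of the labels -/

section PairLaw

variable {Ω X Y : Type*} [MeasurableSpace Ω] [MeasurableSpace X] [MeasurableSpace Y]

lemma univ_mem_squareCylinders {Z : Type*} [MeasurableSpace Z] :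
    (Set.univ : Set (V → Z)) ∈
      squareCylinders (fun _ : V => {s : Set Z | MeasurableSet s}) := by
  refine ⟨∅, fun _ => Set.univ, ?_, by simp⟩
  intro i _
  exact MeasurableSet.univ

/-- The finite spanning family of a probability measure made of the whole space. -/
def spanCyl {Z : Type*} [MeasurableSpace Z] (ν : Measure (V → Z)) [IsProbabilityMeasure ν] :
    ν.FiniteSpanningSetsIn (squareCylinders (fun _ : V => {s : Set Z | MeasurableSet s})) where
  set := fun _ => Set.univ
  set_mem := fun _ => univ_mem_squareCylinders
  finite := fun _ => measure_lt_top _ _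
  spanning := Set.iUnion_const _

theorem map_pair_infinitePi (μ : Measure Ω) [IsProbabilityMeasure μ] (μX : Measure X)
    (μY : Measure Y) [IsProbabilityMeasure μX] [IsProbabilityMeasure μY]
    {f : Ω → X} {g : Ω → Y} (hf : Measurable f) (hg : Measurable g)
    (hlaw : μ.map (fun u => (f u, g u)) = μX.prod μY) :
    (Measure.infinitePi fun _ : V => μ).map
        (fun U => ((fun v => f (U v)), (fun v => g (U v)))) =
      (Measure.infinitePi fun _ : V => μX).prod (Measure.infinitePi fun _ : V => μY) := by
  classical
  symm
  refine Measure.prod_eq_generateFrom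
    (C := squareCylinders (fun _ : V => {s : Set X | MeasurableSet s}))
    (D := squareCylinders (fun _ : V => {s : Set Y | MeasurableSet s}))
    generateFrom_squareCylinders generateFrom_squareCylinders
    (isPiSystem_squareCylinders (fun _ => MeasurableSpace.isPiSystem_measurableSet)
      (fun _ => MeasurableSet.univ))
    (isPiSystem_squareCylinders (fun _ => MeasurableSpace.isPiSystem_measurableSet)
      (fun _ => MeasurableSet.univ))
    (spanCyl _) (spanCyl _) ?_
  rintro _ ⟨s, t, ht, rfl⟩ _ ⟨s', t', ht', rfl⟩
  have ht1 : ∀ v, MeasurableSet (t v) := fun v => ht v (Set.mem_univ v)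
  have ht2 : ∀ v, MeasurableSet (t' v) := fun v => ht' v (Set.mem_univ v)
  set u : Finset V := s ∪ s' with hu
  set T : V → Set X := fun v => if v ∈ s then t v else Set.univ with hT
  set T' : V → Set Y := fun v => if v ∈ s' then t' v else Set.univ with hT'
  have hTm : ∀ v, MeasurableSet (T v) := fun v => by
    simp only [hT]
    split_ifs
    · exact ht1 v
    · exact MeasurableSet.univ
  have hTm' : ∀ v, MeasurableSet (T' v) := fun v => by
    simp only [hT']
    split_ifs
    · exact ht2 v
    · exact MeasurableSet.univ
  have hs1 : (s : Set V).pi t = (u : Set V).pi T := by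
    ext x
    simp only [Set.mem_pi, Finset.mem_coe, hT, hu, Finset.mem_union]
    constructor
    · intro h v hv
      split_ifs with hvs
      · exact h v hvs
      · exact Set.mem_univ _
    · intro h v hv
      have := h v (Or.inl hv)
      rwa [if_pos hv] at this
  have hs2 : (s' : Set V).pi t' = (u : Set V).pi T' := by
    ext x
    simp only [Set.mem_pi, Finset.mem_coe, hT', hu, Finset.mem_union]
    constructor
    · intro h v hv
      split_ifs with hvs
      · exact h v hvs
      · exact Set.mem_univ _
    · intro h v hv
      have := h v (Or.inr hv)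
      rwa [if_pos hv] at this
  have hmeas : Measurable
      (fun U : V → Ω => ((fun v => f (U v)), (fun v => g (U v)))) :=
    (measurable_pi_lambda _ fun v => hf.comp (measurable_pi_apply v)).prodMk
      (measurable_pi_lambda _ fun v => hg.comp (measurable_pi_apply v))
  have hbox : MeasurableSet ((u : Set V).pi T ×ˢ (u : Set V).pi T') :=
    (MeasurableSet.pi u.countable_toSet fun v _ => hTm v).prod
      (MeasurableSet.pi u.countable_toSet fun v _ => hTm' v)
  have hpre : (fun U : V → Ω => ((fun v => f (U v)), (fun v => g (U v)))) ⁻¹'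
      ((u : Set V).pi T ×ˢ (u : Set V).pi T') =
      (u : Set V).pi (fun v => f ⁻¹' T v ∩ g ⁻¹' T' v) := by
    ext U
    simp only [Set.mem_preimage, Set.mem_prod, Set.mem_pi, Set.mem_inter_iff]
    constructor
    · rintro ⟨h1, h2⟩ v hv
      exact ⟨h1 v hv, h2 v hv⟩
    · intro h
      exact ⟨fun v hv => (h v hv).1, fun v hv => (h v hv).2⟩
  have hone : ∀ v, μ (f ⁻¹' T v ∩ g ⁻¹' T' v) = μX (T v) * μY (T' v) := by
    intro v
    have h1 : (μ.map (fun u => (f u, g u))) (T v ×ˢ T' v) = (μX.prod μY) (T v ×ˢ T' v) := by
      rw [hlaw]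
    rw [Measure.map_apply (hf.prodMk hg) ((hTm v).prod (hTm' v)), Measure.prod_prod] at h1
    exact h1
  rw [hs1, hs2, Measure.map_apply hmeas hbox, hpre,
    Measure.infinitePi_pi _ (fun v _ => (hf (hTm v)).inter (hg (hTm' v))),
    Measure.infinitePi_pi _ (fun v _ => hTm v), Measure.infinitePi_pi _ (fun v _ => hTm' v),
    ← Finset.prod_mul_distrib]
  exact Finset.prod_congr rfl fun v _ => hone v

end PairLaw

/-! ### The law for fixed labels -/

/-- The index of the array used by the edge, for fixed labels. -/
def ownerRank (G : SimpleGraph V) (L : V → unitInterval) (e : G.edgeSet) : V × ℕ :=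
  open Classical in
  if L (e.1.out).1 < L (e.1.out).2 then ((e.1.out).1, rk G L (e.1.out).1 (e.1.out).2)
  else ((e.1.out).2, rk G L (e.1.out).2 (e.1.out).1)

lemma edgeOf_eq_ownerRank (G : SimpleGraph V) {L : V → unitInterval} (hL : Function.Injective L)
    (N : V → ℕ → ℕ → ℕ → ℝ) (e : G.edgeSet) :
    edgeOf G L N e.1 = N (ownerRank G L e).1 (ownerRank G L e).2 := by
  classical
  obtain ⟨e, he⟩ := e
  set a := (e.out).1 with ha
  set b := (e.out).2 with hb
  have hab : e = s(a, b) := (Quot.out_eq e).symm
  have hadj : G.Adj a b := by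
    rw [hab] at he
    exact he
  have hne : L a ≠ L b := fun h => hadj.ne (hL h)
  have hL1 : edgeOf G L N e = pairOf G L N a b := by
    rw [hab]
    rfl
  rw [hL1]
  simp only [ownerRank]
  rw [← ha, ← hb]
  simp only [pairOf, hadj, if_true]
  rcases lt_or_gt_of_ne hne with h | h
  · simp [h]
  · simp [h, not_lt_of_gt h]

lemma rk_lt_of_lt (G : SimpleGraph V) (hG : ∀ v, (G.neighborSet v).Finite) {L : V → unitInterval}
    {a b c : V} (hb : G.Adj a b) (h : L b < L c) : rk G L a b < rk G L a c := by
  unfold rk
  refine Set.ncard_lt_ncard ?_ ?_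
  · refine ⟨fun w hw => ⟨hw.1, lt_trans hw.2 h⟩, fun hsub => ?_⟩
    exact lt_irrefl _ (hsub ⟨hb, h⟩).2
  · refine (hG a).subset fun w hw => hw.1

lemma rk_inj (G : SimpleGraph V) (hG : ∀ v, (G.neighborSet v).Finite) {L : V → unitInterval}
    (hL : Function.Injective L) {a b c : V} (hb : G.Adj a b) (hc : G.Adj a c)
    (h : rk G L a b = rk G L a c) : b = c := by
  by_contra hne
  have hne' : L b ≠ L c := fun h' => hne (hL h')
  rcases lt_or_gt_of_ne hne' with h' | h'
  · exact absurd h (rk_lt_of_lt G hG hb h').ne
  · exact absurd h (rk_lt_of_lt G hG hc h').ne'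

lemma ownerRank_injective (G : SimpleGraph V) (hG : ∀ v, (G.neighborSet v).Finite)
    {L : V → unitInterval} (hL : Function.Injective L) :
    Function.Injective (ownerRank G L) := by
  classical
  have key : ∀ e : G.edgeSet, ∃ b, G.Adj (ownerRank G L e).1 b ∧
      e.1 = s((ownerRank G L e).1, b) ∧ (ownerRank G L e).2 = rk G L (ownerRank G L e).1 b := by
    rintro ⟨e, he⟩
    have hab : e = s((e.out).1, (e.out).2) := (Quot.out_eq e).symm
    have hadj : G.Adj (e.out).1 (e.out).2 := by
      rw [hab] at he
      exact he
    simp only [ownerRank]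
    split_ifs with h
    · exact ⟨(e.out).2, hadj, hab, rfl⟩
    · refine ⟨(e.out).1, hadj.symm, ?_, rfl⟩
      rw [Sym2.eq_swap]
      exact hab
  intro e e' h
  obtain ⟨b, hb1, hb2, hb3⟩ := key e
  obtain ⟨b', hb1', hb2', hb3'⟩ := key e'
  have h1 : (ownerRank G L e).1 = (ownerRank G L e').1 := congrArg Prod.fst h
  have h2 : (ownerRank G L e).2 = (ownerRank G L e').2 := congrArg Prod.snd h
  rw [← h1] at hb1' hb2' hb3'
  have hbb : b = b' := rk_inj G hG hL hb1 hb1' (by rw [← hb3, ← hb3', h2])
  apply Subtype.ext
  rw [hb2, hb2', hbb]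

lemma section_law (G : SimpleGraph V) (hG : ∀ v, (G.neighborSet v).Finite)
    {L : V → unitInterval} (hL : Function.Injective L) :
    (Measure.infinitePi fun _ : V => Measure.infinitePi fun _ : ℕ => arrN).map
        (fun (N : V → ℕ → ℕ → ℕ → ℝ) (e : G.edgeSet) => edgeOf G L N e.1) =
      Measure.infinitePi fun _ : G.edgeSet => arrN := by
  have hcurry := Measure.infinitePi_map_curry (ι := V) (κ := ℕ) (fun _ _ => arrN)
  have hinj := Measure.map_infinitePi_infinitePi_of_inj (P := fun _ : V × ℕ => arrN)
    (ownerRank_injective G hG hL)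
  have heq : (fun (N : V → ℕ → ℕ → ℕ → ℝ) (e : G.edgeSet) => edgeOf G L N e.1) =
      fun (N : V → ℕ → ℕ → ℕ → ℝ) (e : G.edgeSet) =>
        N (ownerRank G L e).1 (ownerRank G L e).2 := by
    funext N e
    exact edgeOf_eq_ownerRank G hL N e
  have hm : Measurable fun (N : V → ℕ → ℕ → ℕ → ℝ) (e : G.edgeSet) =>
      N (ownerRank G L e).1 (ownerRank G L e).2 :=
    measurable_pi_lambda _ fun e =>
      (measurable_pi_apply _).comp (measurable_pi_apply _)
  rw [heq, ← hcurry, Measure.map_map hm (MeasurableEquiv.measurable _)]
  exact hinj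

/-- The labels are almost surely distinct. -/
lemma ae_injective [Countable V] : ∀ᵐ L ∂(iidU V), Function.Injective L := by
  have hpair : ∀ v w : V, ∀ᵐ L ∂(iidU V), v ≠ w → L v ≠ L w := by
    intro v w
    by_cases hvw : v = w
    · exact Filter.Eventually.of_forall fun L h => absurd hvw h
    have hmap := Measure.infinitePi_map_eval_prod
      (P := fun _ : V => (volume : Measure unitInterval)) hvw
    have hd : MeasurableSet {p : unitInterval × unitInterval | p.1 = p.2} :=
      measurableSet_eq_fun measurable_fst measurable_snd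
    have hzero : ((volume : Measure unitInterval).prod (volume : Measure unitInterval))
        {p : unitInterval × unitInterval | p.1 = p.2} = 0 := by
      rw [Measure.measure_prod_null hd]
      refine Filter.Eventually.of_forall fun x => ?_
      have : Prod.mk x ⁻¹' {p : unitInterval × unitInterval | p.1 = p.2} = {x} := by
        ext y
        simp [eq_comm]
      simp only [this, Pi.zero_apply]
      exact measure_singleton x
    rw [← hmap, Measure.map_apply (by fun_prop) hd] at hzero
    rw [Filter.Eventually, mem_ae_iff]
    refine measure_mono_null ?_ hzero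
    intro L hL
    simp only [Set.mem_compl_iff, Set.mem_ofPred_eq, not_forall, not_not] at hL
    obtain ⟨_, h⟩ := hL
    exact h
  have hall : ∀ᵐ L ∂(iidU V), ∀ v w : V, v ≠ w → L v ≠ L w :=
    ae_all_iff.2 fun v => ae_all_iff.2 fun w => hpair v w
  filter_upwards [hall] with L hL v w h
  by_contra hne
  exact hL v w hne h

/-- The law: on the edges the raw arrays are iid. Proof: the law of `(A ∘ U, (R p ∘ U))` is
`(iid uniform on V) ⊗ (iid arrays on V × ℕ)`; for fixed labels with all values distinct
(almost sure, `V` countable, no atoms) `e ↦ (owner, rank)` is injective on edges, so by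
`Measure.map_infinitePi_infinitePi_of_inj` the arrays of edges are iid for each such fixed
labelling; integrate over the labels. -/
theorem rawEdge_law [Countable V] (G : SimpleGraph V) (hG : ∀ v, (G.neighborSet v).Finite)
    {A : unitInterval → unitInterval} {R : ℕ → unitInterval → ℕ → ℕ → ℝ} (hA : Measurable A)
    (hR : ∀ p, Measurable (R p))
    (hlaw : (volume : Measure unitInterval).map (fun u => (A u, fun p => R p u)) =
        (volume : Measure unitInterval).prod (Measure.infinitePi fun _ : ℕ => arrN)) :
    (iidU V).map (fun U (e : G.edgeSet) => rawEdge G A R U e) =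
      Measure.infinitePi fun _ : G.edgeSet => arrN := by
  have hRp : Measurable fun u => fun p => R p u := measurable_pi_lambda _ hR
  have hΦ := map_pair_infinitePi (V := V) (volume : Measure unitInterval)
    (volume : Measure unitInterval) (Measure.infinitePi fun _ : ℕ => arrN) hA hRp hlaw
  set Φ : (V → unitInterval) → (V → unitInterval) × (V → ℕ → ℕ → ℕ → ℝ) :=
    fun U => ((fun v => A (U v)), (fun v p => R p (U v))) with hΦdef
  have hΦm : Measurable Φ :=
    (measurable_pi_lambda _ fun v => hA.comp (measurable_pi_apply v)).prodMk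
      (measurable_pi_lambda _ fun v => hRp.comp (measurable_pi_apply v))
  set Ψ : (V → unitInterval) × (V → ℕ → ℕ → ℕ → ℝ) → G.edgeSet → ℕ → ℕ → ℝ :=
    fun p e => edgeOf G p.1 p.2 e.1 with hΨdef
  have hΨm : Measurable Ψ :=
    measurable_pi_lambda _ fun e => measurable_edgeOf G hG e.1
  have hF : (fun U (e : G.edgeSet) => rawEdge G A R U e) = Ψ ∘ Φ := by
    funext U e
    exact rawEdge_eq_edgeOf G A R U e.1
  rw [hF, ← Measure.map_map hΨm hΦm, hΦ]
  refine Measure.ext fun B hB => ?_
  rw [Measure.map_apply hΨm hB, Measure.prod_apply (hΨm hB)]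
  have hae : ∀ᵐ L ∂(Measure.infinitePi fun _ : V => (volume : Measure unitInterval)),
      (Measure.infinitePi fun _ : V => Measure.infinitePi fun _ : ℕ => arrN)
        (Prod.mk L ⁻¹' (Ψ ⁻¹' B)) =
      (Measure.infinitePi fun _ : G.edgeSet => arrN) B := by
    filter_upwards [ae_injective (V := V)] with L hL
    rw [← section_law G hG hL]
    rw [Measure.map_apply _ hB]
    · rfl
    · exact hΨm.comp measurable_prodMk_left
  rw [lintegral_congr_ae hae]
  simp

end Vale.Agent.Lib.P143
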