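import Vale.Agent.Lib.P143.FiniteLaw

/-! Consequences of the supermartingale inequality: the law at the time zero field, the martingale
property, and the localization estimate. -/

open MeasureTheory Filter Topology Set ProbabilityTheory
open scoped ENNReal
open Classical

noncomputable section

namespace Vale.Agent.Lib.P143

variable {E Ω : Type*} [MeasurableSpace Ω] {τ : Type*} [Fintype τ]

section

variable {X : Finset E} {x : τ → X → ℝ}

/-- The tilted probability of a set of vectors of the family. -/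
def pS (x : τ → X → ℝ) (p : τ → Prop) (y : X → ℝ) : ℝ :=
  ∑ T, if p T then mu Finset.univ x y T else 0

variable [Nonempty τ]

theorem pS_eq_testF (p : τ → Prop) (y : X → ℝ) :
    pS x p y = testF Finset.univ x (fun _ : {T // p T} => 1) (fun i => x i.1) y := by
  unfold pS testF Af mu
  simp only [one_mul]
  rw [Finset.sum_div, ← Finset.sum_filter, Finset.sum_subtype (Finset.filter p Finset.univ)
    (p := p) (by simp)]

theorem pS_nonneg (p : τ → Prop) (y : X → ℝ) : 0 ≤ pS x p y :=
  Finset.sum_nonneg fun T _ => by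
    split_ifs
    · exact mu_nonneg _ _ _ _
    · exact le_rfl

theorem pS_add_not (p : τ → Prop) (y : X → ℝ) : pS x p y + pS x (fun T => ¬ p T) y = 1 := by
  unfold pS
  rw [← Finset.sum_add_distrib, ← sum_mu Finset.univ x y]
  refine Finset.sum_congr rfl fun T _ => ?_
  by_cases h : p T <;> simp [h]

theorem pS_le_one (p : τ → Prop) (y : X → ℝ) : pS x p y ≤ 1 := by
  have := pS_nonneg (x := x) (fun T => ¬ p T) y
  have := pS_add_not (x := x) p y
  linarith

theorem continuous_pS (p : τ → Prop) : Continuous (pS x p) := by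
  have : pS x p = fun y => testF Finset.univ x (fun _ : {T // p T} => 1) (fun i => x i.1) y :=
    funext (pS_eq_testF p)
  rw [this]
  exact continuous_testF _ _ _ _

end

variable {D : Drift E} {A : E → Ω → ℕ → ℕ → ℝ} {P : Measure Ω} [IsProbabilityMeasure P]
  {X : Finset E} {x : τ → X → ℝ} {k : ℝ}

omit [Fintype τ] [IsProbabilityMeasure P] in
theorem measurable_Yt (hAm : ∀ e l k, Measurable fun ω => A e ω l k) (t : ℕ) :
    Measurable fun ω => Yt D A X ω t := by
  refine measurable_pi_lambda _ fun f => ?_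
  have h1 : Measurable fun p : Ω × ℝ => bA A p.1 p.2 f := measurable_bA hAm f
  have h2 : Measurable fun p : Ω × ℝ => sol D (bA A p.1) (max p.2 0) f :=
    measurable_sol_joint D (b := bA A) (fun g => measurable_bA hAm g) f
  have h3 := h1.comp (measurable_prodMk_right (y := (t : ℝ)))
  have h4 := h2.comp (measurable_prodMk_right (y := (t : ℝ)))
  simp only [Function.comp_def, max_eq_left (Nat.cast_nonneg t)] at h3 h4
  exact h3.add h4

omit [Fintype τ] [IsProbabilityMeasure P] in
theorem Yt_zero (hAm : ∀ e l k, Measurable fun ω => A e ω l k) (hAr : ∀ e ω, Refines (A e ω)) (ω : Ω) :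
    Yt D A X ω ((0 : ℕ) : ℝ) = 0 := by
  funext f
  have h1 := bPath_nat (hAr f ω) 0
  have h2 : sol D (bA A ω) 0 f = 0 := by
    rw [sol_eq D (fun g => bA_slice hAm ω g) f le_rfl]
    simp
  simp only [Yt, Nat.cast_zero, Pi.zero_apply]
  rw [h2, bA, show ((0 : ℕ) : ℝ) = 0 by simp] at *
  simpa [wSum_zero] using h1

variable [Nonempty τ]

theorem integrable_comp_Y (S : FinSetup D A P X x k) {f : (X → ℝ) → ℝ} {g : (X → ℝ) → ℝ}
    (hf : Continuous f) (hg : Continuous g) (hb : ∀ y y', |f y * g y'| ≤ 1) (t t' : ℕ) :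
    Integrable (fun ω => f (Yt D A X ω t') * g (Yt D A X ω t)) P := by
  refine Integrable.of_bound (C := 1) ?_ (Eventually.of_forall fun ω => ?_)
  · exact ((hf.measurable.comp (measurable_Yt S.hAm t')).mul
      (hg.measurable.comp (measurable_Yt S.hAm t))).aestronglyMeasurable
  · rw [Real.norm_eq_abs]
    exact hb _ _

/-- Supermartingale inequality for a set of vectors. -/
theorem pS_ineq (S : FinSetup D A P X x k) (p : τ → Prop) {Ψ : (X → ℝ) → ℝ} (hΨc : Continuous Ψ)
    (hΨ0 : ∀ y, 0 ≤ Ψ y) (hΨ1 : ∀ y, Ψ y ≤ 1) {t t' : ℕ} (ht : t ≤ t') :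
    ∫ ω, pS x p (Yt D A X ω t') * Ψ (Yt D A X ω t) ∂P ≤
      ∫ ω, pS x p (Yt D A X ω t) * Ψ (Yt D A X ω t) ∂P := by
  have hb : ∀ y y', |pS x p y * Ψ y'| ≤ 1 := fun y y' => by
    rw [abs_of_nonneg (mul_nonneg (pS_nonneg p y) (hΨ0 y'))]
    exact mul_le_one₀ (pS_le_one p y) (hΨ0 y') (hΨ1 y')
  have h := S.law_ineq (α := fun _ : {T // p T} => (1 : ℝ)) (b := fun i => x i.1) (β := k)
    (fun _ => zero_le_one) (fun i => S.hk i.1) hΨc hΨ0 ht
    (Or.inr ⟨1, fun y => by
      rw [← pS_eq_testF]
      exact (le_abs_self _).trans (hb y y)⟩)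
  simp only [← pS_eq_testF, sub_self, mul_zero, zero_div, Real.exp_zero, ENNReal.ofReal_one,
    one_mul] at h
  have hi1 := integrable_comp_Y S (continuous_pS p) hΨc hb t t'
  have hi2 := integrable_comp_Y S (continuous_pS p) hΨc hb t t
  rw [← ofReal_integral_eq_lintegral_ofReal hi1 (Eventually.of_forall fun ω =>
      mul_nonneg (pS_nonneg _ _) (hΨ0 _)),
    ← ofReal_integral_eq_lintegral_ofReal hi2 (Eventually.of_forall fun ω =>
      mul_nonneg (pS_nonneg _ _) (hΨ0 _))] at h
  exact (ENNReal.ofReal_le_ofReal_iff (integral_nonneg fun ω =>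
    mul_nonneg (pS_nonneg _ _) (hΨ0 _))).1 h

/-- Martingale property for a set of vectors: the inequalities for the set and its complement add
up to an equality. -/
theorem pS_mart (S : FinSetup D A P X x k) (p : τ → Prop) {Ψ : (X → ℝ) → ℝ} (hΨc : Continuous Ψ)
    (hΨ0 : ∀ y, 0 ≤ Ψ y) (hΨ1 : ∀ y, Ψ y ≤ 1) {t t' : ℕ} (ht : t ≤ t') :
    ∫ ω, pS x p (Yt D A X ω t') * Ψ (Yt D A X ω t) ∂P =
      ∫ ω, pS x p (Yt D A X ω t) * Ψ (Yt D A X ω t) ∂P := by
  have hb : ∀ (q : τ → Prop) y y', |pS x q y * Ψ y'| ≤ 1 := fun q y y' => by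
    rw [abs_of_nonneg (mul_nonneg (pS_nonneg q y) (hΨ0 y'))]
    exact mul_le_one₀ (pS_le_one q y) (hΨ0 y') (hΨ1 y')
  have h1 := pS_ineq S p hΨc hΨ0 hΨ1 ht
  have h2 := pS_ineq S (fun T => ¬ p T) hΨc hΨ0 hΨ1 ht
  have hsum : ∀ s : ℕ, ∫ ω, pS x p (Yt D A X ω s) * Ψ (Yt D A X ω t) ∂P +
      ∫ ω, pS x (fun T => ¬ p T) (Yt D A X ω s) * Ψ (Yt D A X ω t) ∂P =
      ∫ ω, Ψ (Yt D A X ω t) ∂P := by
    intro s
    rw [← integral_add (integrable_comp_Y S (continuous_pS p) hΨc (hb p) t s)
      (integrable_comp_Y S (continuous_pS _) hΨc (hb _) t s)]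
    refine integral_congr_ae (Eventually.of_forall fun ω => ?_)
    simp only
    rw [← add_mul, pS_add_not, one_mul]
  have e1 := hsum t
  have e2 := hsum t'
  linarith

/-- The mean of the tilted probability of a set of vectors at the solution is the value at the zero
field. -/
theorem pS_integral (S : FinSetup D A P X x k) (p : τ → Prop) (T : ℕ) :
    ∫ ω, pS x p (Yt D A X ω T) ∂P = pS x p 0 := by
  have h := pS_mart S p (Ψ := fun _ => 1) continuous_const (fun _ => zero_le_one) (fun _ => le_rfl)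
    (Nat.zero_le T)
  simp only [mul_one] at h
  rw [h]
  simp_rw [Yt_zero S.hAm S.hAr]
  simp

/-- The tree marginal at an edge as the tilted probability of a set of vectors. -/
theorem meanV_eq_pS (hx01 : ∀ T f, x T f = 0 ∨ x T f = 1) (e : X) (y : X → ℝ) :
    meanV Finset.univ x y e = pS x (fun T => x T e = 1) y := by
  unfold meanV pS
  refine Finset.sum_congr rfl fun T _ => ?_
  rcases hx01 T e with h | h <;> simp [h]

theorem continuous_meanV (hx01 : ∀ T f, x T f = 0 ∨ x T f = 1) (e : X) :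
    Continuous fun y : X → ℝ => meanV Finset.univ x y e := by
  simp_rw [meanV_eq_pS hx01]
  exact continuous_pS _

/-- The second moment of the increment of the martingale. -/
theorem mart_sq (S : FinSetup D A P X x k) (e : X) {t t' : ℕ} (ht : t ≤ t') :
    ∫ ω, (meanV Finset.univ x (Yt D A X ω t') e - meanV Finset.univ x (Yt D A X ω t) e) ^ 2 ∂P ≤
      ∫ ω, meanV Finset.univ x (Yt D A X ω t) e * (1 - meanV Finset.univ x (Yt D A X ω t) e) ∂P := by
  set m : (X → ℝ) → ℝ := fun y => meanV Finset.univ x y e with hm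
  have hmc : Continuous m := continuous_meanV S.hx01 e
  have hm0 : ∀ y, 0 ≤ m y := fun y => (meanV_mem S.hx01 y e).1
  have hm1 : ∀ y, m y ≤ 1 := fun y => (meanV_mem S.hx01 y e).2
  have hb : ∀ y y', |m y * m y'| ≤ 1 := fun y y' => by
    rw [abs_of_nonneg (mul_nonneg (hm0 y) (hm0 y'))]
    exact mul_le_one₀ (hm1 y) (hm0 y') (hm1 y')
  have hb1 : ∀ y y' : X → ℝ, |m y * (fun _ => (1 : ℝ)) y'| ≤ 1 := fun y _ => by
    show |m y * (1 : ℝ)| ≤ 1
    rw [mul_one, abs_of_nonneg (hm0 y)]; exact hm1 y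
  have hpS : ∀ y, pS x (fun T => x T e = 1) y = m y := fun y => (meanV_eq_pS S.hx01 e y).symm
  -- means
  have hmean : ∀ s : ℕ, ∫ ω, m (Yt D A X ω s) ∂P = pS x (fun T => x T e = 1) 0 := fun s => by
    simp_rw [← hpS]
    exact pS_integral S _ s
  -- the mixed term
  have hmix : ∫ ω, m (Yt D A X ω t') * m (Yt D A X ω t) ∂P =
      ∫ ω, m (Yt D A X ω t) * m (Yt D A X ω t) ∂P := by
    have := pS_mart S (fun T => x T e = 1) hmc hm0 hm1 ht
    simpa only [hpS] using this
  have hi1 : Integrable (fun ω => m (Yt D A X ω t')) P := by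
    have := integrable_comp_Y S hmc (g := fun _ => 1) continuous_const hb1 t t'
    simpa using this
  have hi2 : Integrable (fun ω => m (Yt D A X ω t)) P := by
    have := integrable_comp_Y S hmc (g := fun _ => 1) continuous_const hb1 t t
    simpa using this
  have hi3 := integrable_comp_Y S hmc hmc hb t t'
  have hi4 := integrable_comp_Y S hmc hmc hb t t
  have hi5 := integrable_comp_Y S hmc hmc hb t' t'
  have hsq : Integrable (fun ω => (m (Yt D A X ω t') - m (Yt D A X ω t)) ^ 2) P := by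
    have : (fun ω => (m (Yt D A X ω t') - m (Yt D A X ω t)) ^ 2) =
        fun ω => m (Yt D A X ω t') * m (Yt D A X ω t') - 2 * (m (Yt D A X ω t') * m (Yt D A X ω t)) +
          m (Yt D A X ω t) * m (Yt D A X ω t) := by
      funext ω; ring
    rw [this]
    exact (hi5.sub (hi3.const_mul 2)).add hi4
  have h12 : Integrable (fun ω => m (Yt D A X ω t') -
      2 * (m (Yt D A X ω t') * m (Yt D A X ω t))) P := hi1.sub (hi3.const_mul 2)
  calc ∫ ω, (m (Yt D A X ω t') - m (Yt D A X ω t)) ^ 2 ∂P
      ≤ ∫ ω, (m (Yt D A X ω t') - 2 * (m (Yt D A X ω t') * m (Yt D A X ω t)) +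
          m (Yt D A X ω t) * m (Yt D A X ω t)) ∂P := by
        refine integral_mono hsq (h12.add hi4) fun ω => ?_
        have h1 := hm0 (Yt D A X ω t')
        have h2 := hm1 (Yt D A X ω t')
        simp only
        nlinarith
    _ = ∫ ω, m (Yt D A X ω t) ∂P - ∫ ω, m (Yt D A X ω t) * m (Yt D A X ω t) ∂P := by
        rw [integral_add h12 hi4, integral_sub hi1 (hi3.const_mul 2),
          integral_const_mul, hmix, hmean t', ← hmean t]
        ring
    _ = _ := by
        rw [← integral_sub hi2 hi4]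
        refine integral_congr_ae (Eventually.of_forall fun ω => ?_)
        simp only
        ring

/-! ### Localization -/

theorem dot_shift (v : X → ℝ) (e : X) (a : ℝ) (y : X → ℝ) :
    dot Finset.univ (fun f => v f + if f = e then a else 0) y = dot Finset.univ v y + a * y e := by
  unfold dot
  have : ∀ f, (v f + if f = e then a else 0) * y f = v f * y f + (if f = e then a * y f else 0) := by
    intro f
    split_ifs <;> ring
  simp_rw [this]
  rw [Finset.sum_add_distrib]
  simp

theorem sq_shift (v : X → ℝ) (e : X) (a : ℝ) :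
    ∑ f, (v f + if f = e then a else 0) ^ 2 = ∑ f, v f ^ 2 + 2 * a * v e + a ^ 2 := by
  have : ∀ f, (v f + if f = e then a else 0) ^ 2 =
      v f ^ 2 + (if f = e then 2 * a * v f + a ^ 2 else 0) := by
    intro f
    split_ifs <;> ring
  simp_rw [this]
  rw [Finset.sum_add_distrib]
  simp
  ring

theorem testF_shift (q : τ → Prop) (e : X) (a : ℝ) (y : X → ℝ) :
    testF Finset.univ x (fun _ : {T // q T} => 1) (fun i f => x i.1 f + if f = e then a else 0) y =
      pS x q y * Real.exp (a * y e) := by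
  rw [pS_eq_testF]
  unfold testF Af
  simp_rw [dot_shift, Real.exp_add, one_mul]
  rw [← Finset.sum_mul, div_mul_eq_mul_div]

/-- The exponential moment bound at the solution from time zero. -/
theorem shift_bound (S : FinSetup D A P X x k) (q : τ → Prop) (e : X) (a c : ℝ)
    (hc : ∀ T, q T → x T e = c) (T : ℕ) :
    ∫⁻ ω, ENNReal.ofReal (pS x q (Yt D A X ω T) * Real.exp (a * Yt D A X ω T e)) ∂P ≤
      ENNReal.ofReal (Real.exp (T * (2 * a * c + a ^ 2) / 2)) * ENNReal.ofReal (pS x q 0) := by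
  have hβ : ∀ i : {T // q T}, ∑ f, (x i.1 f + if f = e then a else 0) ^ 2 =
      k + 2 * a * c + a ^ 2 := by
    intro i
    rw [sq_shift, S.hk, hc i.1 i.2]
  have h := S.law_ineq (α := fun _ : {T // q T} => (1 : ℝ))
    (b := fun i f => x i.1 f + if f = e then a else 0) (β := k + 2 * a * c + a ^ 2)
    (fun _ => zero_le_one) hβ (Ψ := fun _ => 1) continuous_const (fun _ => zero_le_one)
    (Nat.zero_le T) (Or.inl rfl)
  have hY0 : ∀ ω, Yt D A X ω 0 = 0 := fun ω => by
    simpa using Yt_zero (D := D) (X := X) S.hAm S.hAr ω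
  simp only [testF_shift, mul_one, Nat.cast_zero, sub_zero, hY0, Pi.zero_apply, mul_zero,
    Real.exp_zero, lintegral_const, measure_univ] at h
  have e1 : (T : ℝ) * (k + 2 * a * c + a ^ 2 - k) / 2 = T * (2 * a * c + a ^ 2) / 2 := by ring
  rw [e1] at h
  exact h

/-- The localization estimate. -/
theorem localization (S : FinSetup D A P X x k) (e : X) (T : ℕ) :
    ∫ ω, meanV Finset.univ x (Yt D A X ω T) e * (1 - meanV Finset.univ x (Yt D A X ω T) e) ∂P ≤
      Real.exp (-((T : ℝ) / 8)) := by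
  set q : τ → Prop := fun T => x T e = 1 with hq
  set m : (X → ℝ) → ℝ := fun y => meanV Finset.univ x y e with hm
  have hmc : Continuous m := continuous_meanV S.hx01 e
  have hm0 : ∀ y, 0 ≤ m y := fun y => (meanV_mem S.hx01 y e).1
  have hm1 : ∀ y, m y ≤ 1 := fun y => (meanV_mem S.hx01 y e).2
  have hp1 : ∀ y, pS x q y = m y := fun y => (meanV_eq_pS S.hx01 e y).symm
  have hp2 : ∀ y, pS x (fun T => ¬ q T) y = 1 - m y := fun y => by
    have := pS_add_not (x := x) q y
    rw [hp1] at this
    linarith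
  have hplus := shift_bound S q e (-(1 / 2)) 1 (fun _ h => h) T
  have hcminus : ∀ T', ¬ q T' → x T' e = 0 := fun T' h => by
    rcases S.hx01 T' e with h1 | h1
    · exact h1
    · exact absurd h1 h
  have hminus := shift_bound S (fun T => ¬ q T) e (1 / 2) 0 hcminus T
  simp only [hp1, hp2] at hplus hminus
  set u : Ω → X → ℝ := fun ω => Yt D A X ω T with hu
  have hum : Measurable u := measurable_Yt S.hAm T
  -- pointwise bound
  have hpt : ∀ ω, ENNReal.ofReal (m (u ω) * (1 - m (u ω))) ≤
      ENNReal.ofReal (Real.exp ((T : ℝ) / 4)) *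
          ENNReal.ofReal (m (u ω) * Real.exp (-(1 / 2) * u ω e)) +
        ENNReal.ofReal (Real.exp (-((T : ℝ) / 4))) *
          ENNReal.ofReal ((1 - m (u ω)) * Real.exp (1 / 2 * u ω e)) := by
    intro ω
    have h0 := hm0 (u ω)
    have h1 := hm1 (u ω)
    have h2 : 0 ≤ 1 - m (u ω) := by linarith
    rw [← ENNReal.ofReal_mul (Real.exp_pos _).le, ← ENNReal.ofReal_mul (Real.exp_pos _).le,
      ← ENNReal.ofReal_add (by positivity) (by positivity)]
    refine ENNReal.ofReal_le_ofReal ?_
    have t1 : 0 ≤ Real.exp ((T : ℝ) / 4) * (m (u ω) * Real.exp (-(1 / 2) * u ω e)) := by positivity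
    have t2 : 0 ≤ Real.exp (-((T : ℝ) / 4)) * ((1 - m (u ω)) * Real.exp (1 / 2 * u ω e)) := by
      positivity
    by_cases hcase : u ω e < (T : ℝ) / 2
    · have h3 : 1 ≤ Real.exp ((T : ℝ) / 4) * Real.exp (-(1 / 2) * u ω e) := by
        rw [← Real.exp_add]
        exact Real.one_le_exp (by linarith)
      have h4 : m (u ω) * (1 - m (u ω)) ≤ m (u ω) := by nlinarith
      have h5 : m (u ω) ≤ Real.exp ((T : ℝ) / 4) * (m (u ω) * Real.exp (-(1 / 2) * u ω e)) := by
        nlinarith
      linarith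
    · rw [not_lt] at hcase
      have h3 : 1 ≤ Real.exp (-((T : ℝ) / 4)) * Real.exp (1 / 2 * u ω e) := by
        rw [← Real.exp_add]
        exact Real.one_le_exp (by linarith)
      have h4 : m (u ω) * (1 - m (u ω)) ≤ 1 - m (u ω) := by nlinarith
      have h5 : 1 - m (u ω) ≤
          Real.exp (-((T : ℝ) / 4)) * ((1 - m (u ω)) * Real.exp (1 / 2 * u ω e)) := by
        nlinarith
      linarith
  have hmplus : Measurable fun ω => ENNReal.ofReal (m (u ω) * Real.exp (-(1 / 2) * u ω e)) :=
    ((hmc.measurable.comp hum).mul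
      (((measurable_pi_apply e).comp hum).const_mul _).exp).ennreal_ofReal
  have hmminus : Measurable fun ω => ENNReal.ofReal ((1 - m (u ω)) * Real.exp (1 / 2 * u ω e)) :=
    (((hmc.measurable.comp hum).const_sub _).mul
      (((measurable_pi_apply e).comp hum).const_mul _).exp).ennreal_ofReal
  have hb : ∀ y y', |m y * (1 - m y')| ≤ 1 := fun y y' => by
    have h0 := hm0 y
    have h1 := hm1 y
    have h2 := hm0 y'
    have h3 := hm1 y'
    rw [abs_of_nonneg (mul_nonneg h0 (by linarith))]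
    exact mul_le_one₀ h1 (by linarith) (by linarith)
  have hint := integrable_comp_Y S (g := fun y => 1 - m y) hmc (continuous_const.sub hmc) hb T T
  have hnn : ∀ ω, 0 ≤ m (Yt D A X ω T) * (1 - m (Yt D A X ω T)) := fun ω =>
    mul_nonneg (hm0 _) (by linarith [hm1 (Yt D A X ω T)])
  have hI : ENNReal.ofReal (∫ ω, m (Yt D A X ω T) * (1 - m (Yt D A X ω T)) ∂P) ≤
      ENNReal.ofReal (Real.exp (-((T : ℝ) / 8))) := by
    rw [ofReal_integral_eq_lintegral_ofReal hint (Eventually.of_forall hnn)]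
    calc _ ≤ ∫⁻ ω, (ENNReal.ofReal (Real.exp ((T : ℝ) / 4)) *
            ENNReal.ofReal (m (u ω) * Real.exp (-(1 / 2) * u ω e)) +
          ENNReal.ofReal (Real.exp (-((T : ℝ) / 4))) *
            ENNReal.ofReal ((1 - m (u ω)) * Real.exp (1 / 2 * u ω e))) ∂P :=
          lintegral_mono hpt
      _ = ENNReal.ofReal (Real.exp ((T : ℝ) / 4)) *
            ∫⁻ ω, ENNReal.ofReal (m (u ω) * Real.exp (-(1 / 2) * u ω e)) ∂P +
          ENNReal.ofReal (Real.exp (-((T : ℝ) / 4))) *
            ∫⁻ ω, ENNReal.ofReal ((1 - m (u ω)) * Real.exp (1 / 2 * u ω e)) ∂P := by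
          rw [lintegral_add_left (hmplus.const_mul _), lintegral_const_mul _ hmplus,
            lintegral_const_mul _ hmminus]
      _ ≤ ENNReal.ofReal (Real.exp ((T : ℝ) / 4)) *
            (ENNReal.ofReal (Real.exp (T * (2 * (-(1 / 2)) * 1 + (-(1 / 2)) ^ 2) / 2)) *
              ENNReal.ofReal (m 0)) +
          ENNReal.ofReal (Real.exp (-((T : ℝ) / 4))) *
            (ENNReal.ofReal (Real.exp (T * (2 * (1 / 2) * 0 + (1 / 2) ^ 2) / 2)) *
              ENNReal.ofReal (1 - m 0)) := by
          gcongr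
      _ = ENNReal.ofReal (Real.exp (-((T : ℝ) / 8))) := by
          have h0 := hm0 0
          have h1 := hm1 0
          have e1 : Real.exp ((T : ℝ) / 4) * Real.exp (T * (2 * (-(1 / 2)) * 1 + (-(1 / 2)) ^ 2) / 2) =
              Real.exp (-((T : ℝ) / 8)) := by
            rw [← Real.exp_add]; congr 1; ring
          have e2 : Real.exp (-((T : ℝ) / 4)) * Real.exp (T * (2 * (1 / 2) * 0 + (1 / 2) ^ 2) / 2) =
              Real.exp (-((T : ℝ) / 8)) := by
            rw [← Real.exp_add]; congr 1; ring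
          rw [← mul_assoc, ← mul_assoc, ← ENNReal.ofReal_mul (Real.exp_pos _).le,
            ← ENNReal.ofReal_mul (Real.exp_pos _).le, e1, e2,
            ← ENNReal.ofReal_mul (Real.exp_pos _).le, ← ENNReal.ofReal_mul (Real.exp_pos _).le,
            ← ENNReal.ofReal_add (by positivity) (mul_nonneg (Real.exp_pos _).le (by linarith))]
          congr 1
          ring
  exact (ENNReal.ofReal_le_ofReal_iff (Real.exp_pos _).le).1 hI

end Vale.Agent.Lib.P143
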