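import Vale.Agent.Lib.P143.EdgeNoise
import Vale.Agent.Lib.P143.BPath
import Vale.Agent.Lib.P143.Chain

/-! The dyadic noise arrays of the edges, as functions of the vertex labels. -/

open MeasureTheory ProbabilityTheory

noncomputable section

namespace Vale.Agent.Lib.P143

variable {V : Type*}

/-- The label noise: an auxiliary label and raw arrays. -/
structure LabNoise where
  /-- auxiliary label -/
  A : unitInterval → unitInterval
  /-- raw arrays -/
  R : ℕ → unitInterval → ℕ → ℕ → ℝ
  hA : Measurable A
  hR : ∀ p, Measurable (R p)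
  hlaw : (volume : Measure unitInterval).map (fun u => (A u, fun p => R p u)) =
    (volume : Measure unitInterval).prod (Measure.infinitePi fun _ : ℕ => arrN)

theorem exists_labNoise : Nonempty LabNoise := by
  obtain ⟨A, R, hA, hR, hlaw⟩ := exists_label_noise
  exact ⟨⟨A, R, hA, hR, hlaw⟩⟩

/-- The noise array of the pair `e`, level `l`, index `k`, for the labels `U`. -/
def arrOf (L : LabNoise) (G : SimpleGraph V) (e : Sym2 V) (U : V → unitInterval) (l k : ℕ) : ℝ :=
  level l (rawEdge G L.A L.R U e) k

theorem refines_arrOf (L : LabNoise) (G : SimpleGraph V) (e : Sym2 V) (U : V → unitInterval) :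
    Refines (arrOf L G e U) := by
  intro l k
  exact rotSeq_add _ _ k

theorem measurable_arrOf [Countable V] (L : LabNoise) (G : SimpleGraph V)
    (hG : ∀ v, (G.neighborSet v).Finite) (e : Sym2 V) (l k : ℕ) :
    Measurable fun U => arrOf L G e U l k :=
  (measurable_pi_apply k).comp ((measurable_level l).comp (measurable_rawEdge G hG L.hA L.hR e))

theorem arrOf_natural {V' : Type*} (L : LabNoise) (G : SimpleGraph V) (G' : SimpleGraph V')
    (π : V ≃ V') (hπ : ∀ a b, G'.Adj (π a) (π b) ↔ G.Adj a b) (e : Sym2 V) (U : V → unitInterval)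
    (l k : ℕ) :
    arrOf L G' (Sym2.map π e) (fun v' => U (π.symm v')) l k = arrOf L G e U l k := by
  unfold arrOf
  rw [rawEdge_natural G G' π hπ]

/-- The law of the noise at one level on a finite set of edges. Proof: `rawEdge_law`, restriction to
`X` by `Measure.map_infinitePi_infinitePi_of_inj`, `level_law` with `Measure.infinitePi_map_pi`,
`infinitePi_swap`. -/
theorem arrOf_law [Countable V] (L : LabNoise) (G : SimpleGraph V)
    (hG : ∀ v, (G.neighborSet v).Finite) {X : Finset (Sym2 V)} (hX : ∀ f ∈ X, f ∈ G.edgeSet) (l : ℕ) :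
    (iidU V).map (fun U k (f : X) => arrOf L G f U l k) = gamSeq X := by
  have h1 := rawEdge_law G hG L.hA L.hR L.hlaw
  let ι : X → G.edgeSet := fun f => ⟨f.1, hX f.1 f.2⟩
  have hι : Function.Injective ι := fun a b h => Subtype.ext (congrArg (fun f : G.edgeSet => f.1) h)
  have h2 : (Measure.infinitePi fun _ : G.edgeSet => arrN).map (fun ω (f : X) => ω (ι f)) =
      Measure.infinitePi fun _ : X => arrN :=
    Measure.map_infinitePi_infinitePi_of_inj (P := fun _ : G.edgeSet => arrN) hι
  have h3 : (Measure.infinitePi fun _ : X => arrN).map (fun ω (f : X) => level l (ω f)) =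
      Measure.infinitePi fun _ : X => seqN := by
    rw [Measure.infinitePi_map_pi _ (fun _ => measurable_level l), level_law]
  have h4 := infinitePi_swap (ι := X) (κ := ℕ) stdN
  have hm1 : Measurable fun (U : V → unitInterval) (e : G.edgeSet) => rawEdge G L.A L.R U e :=
    measurable_pi_lambda _ fun e => measurable_rawEdge G hG L.hA L.hR e
  have hm2 : Measurable fun (ω : G.edgeSet → ℕ → ℕ → ℝ) (f : X) => ω (ι f) := by fun_prop
  have hm3 : Measurable fun (ω : X → ℕ → ℕ → ℝ) (f : X) => level l (ω f) :=
    measurable_pi_lambda _ fun f => (measurable_level l).comp (measurable_pi_apply f)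
  have hm4 : Measurable fun (f : X → ℕ → ℝ) (j : ℕ) (i : X) => f i j := by fun_prop
  unfold gamSeq gam
  rw [← h4, ← h3, ← h2, ← h1, Measure.map_map hm2 hm1, Measure.map_map hm3 (hm2.comp hm1),
    Measure.map_map hm4 (hm3.comp (hm2.comp hm1))]
  rfl

end Vale.Agent.Lib.P143
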