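import Vale.Agent.Lib.P143.FlowDrift
import Vale.Agent.Lib.P143.NoiseArr
import Vale.Agent.Lib.P143.Bridge
import Vale.Agent.Lib.P143.Martingale

/-! The finite volume process for a finite connected subgraph. -/

open MeasureTheory Filter Topology
open scoped ENNReal
open Classical

noncomputable section

namespace Vale.Agent.Lib.P143

variable {V : Type*} [Countable V]

/-- The marginal process: the drift of the edge set `X` along the solution driven by the noise of
`G`. -/
def MM (L : LabNoise) (G : SimpleGraph V) (X : Set (Sym2 V)) (e : Sym2 V) (t : ℝ)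
    (U : V → unitInterval) : ℝ :=
  (flowDrift X).m (fun f => bA (arrOf L G) U t f + sol (flowDrift X) (bA (arrOf L G) U) t f) e

theorem MM_nonneg (L : LabNoise) (G : SimpleGraph V) (X : Set (Sym2 V)) (e : Sym2 V) (t : ℝ)
    (U : V → unitInterval) : 0 ≤ MM L G X e t U := (flowDrift X).nonneg _ _

theorem MM_le_one (L : LabNoise) (G : SimpleGraph V) (X : Set (Sym2 V)) (e : Sym2 V) (t : ℝ)
    (U : V → unitInterval) : MM L G X e t U ≤ 1 := (flowDrift X).le_one _ _

variable {G : SimpleGraph V}

theorem measurable_MM (L : LabNoise) (hG : ∀ v, (G.neighborSet v).Finite) (X : Set (Sym2 V))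
    (e : Sym2 V) (T : ℕ) : Measurable (MM L G X e T) := by
  have hAm : ∀ e l k, Measurable fun U => arrOf L G e U l k := measurable_arrOf L G hG
  refine ((flowDrift X).meas e).comp (measurable_pi_lambda _ fun f => ?_)
  have h1 : Measurable fun p : (V → unitInterval) × ℝ => bA (arrOf L G) p.1 p.2 f :=
    measurable_bA hAm f
  have h2 : Measurable fun p : (V → unitInterval) × ℝ =>
      sol (flowDrift X) (bA (arrOf L G) p.1) (max p.2 0) f :=
    measurable_sol_joint (flowDrift X) (b := bA (arrOf L G)) (fun g => measurable_bA hAm g) f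
  have h3 := h1.comp (measurable_prodMk_right (y := (T : ℝ)))
  have h4 := h2.comp (measurable_prodMk_right (y := (T : ℝ)))
  simp only [Function.comp_def, max_eq_left (Nat.cast_nonneg T)] at h3 h4
  exact h3.add h4

/-- The tree vectors on the coordinates of a finite subgraph. -/
def xVec (H : G.Subgraph) [Fact H.verts.Finite] (T : TreeOf H) (f : edgesOf H Fact.out) : ℝ :=
  treeVec H T f

/-- The common number of edges of the spanning trees. -/
def treeK (H : G.Subgraph) (T : TreeOf H) : ℝ := T.1.card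

theorem dot_xVec (H : G.Subgraph) [Fact H.verts.Finite] (T : TreeOf H) (y : Sym2 V → ℝ) :
    dot Finset.univ (xVec H T) (fun g : edgesOf H Fact.out => y g) =
      dot (edgesOf H Fact.out) (treeVec H T) y := by
  unfold dot xVec
  exact Finset.sum_coe_sort (edgesOf H Fact.out) fun f => treeVec H T f * y f

theorem meanV_xVec (H : G.Subgraph) [Fact H.verts.Finite] (y : Sym2 V → ℝ)
    (f : edgesOf H Fact.out) :
    meanV Finset.univ (xVec H) (fun g : edgesOf H Fact.out => y g) f =
      meanV (edgesOf H Fact.out) (treeVec H) y f := by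
  unfold meanV mu Zf
  simp only [dot_xVec]
  rfl

theorem sum_xVec_sq (H : G.Subgraph) [Fact H.verts.Finite] (T : TreeOf H) :
    ∑ f, xVec H T f ^ 2 = (T.1.card : ℝ) := by
  have h1 : ∑ f, xVec H T f ^ 2 = ∑ f ∈ edgesOf H Fact.out, treeVec H T f ^ 2 :=
    Finset.sum_coe_sort (edgesOf H Fact.out) fun f => treeVec H T f ^ 2
  rw [h1]
  unfold treeVec
  have h2 : ∀ f, (if f ∈ T.1 then (1 : ℝ) else 0) ^ 2 = if f ∈ T.1 then 1 else 0 := fun f => by
    split_ifs <;> norm_num
  simp_rw [h2]
  rw [Finset.sum_boole, Finset.filter_mem_eq_inter,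
    Finset.inter_eq_right.2 (treeOf_subset H Fact.out T)]

theorem finSetup (L : LabNoise) (hG : ∀ v, (G.neighborSet v).Finite) (H : G.Subgraph)
    [Fact H.verts.Finite] (hc : H.Connected) (T₀ : TreeOf H) :
    FinSetup (flowDrift H.edgeSet) (arrOf L G) (iidU V) (edgesOf H Fact.out) (xVec H)
      (treeK H T₀) where
  hAm := measurable_arrOf L G hG
  hAr := refines_arrOf L G
  hlaw l := arrOf_law L G hG (fun f hf =>
    SimpleGraph.Subgraph.edgeSet_subset _ ((mem_edgesOf H Fact.out f).1 hf)) l
  hDX y f := by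
    rw [meanV_xVec, flowDrift_m]
    exact drift_eq_mean H hc y ((mem_edgesOf H Fact.out f).1 f.2)
  hDlip hε h e := flowDrift_lip_on (fun f hf => (mem_edgesOf H Fact.out f).2 hf) hε h e
  hx01 T f := by
    unfold xVec treeVec
    split_ifs
    · exact Or.inr rfl
    · exact Or.inl rfl
  hk T := by
    rw [sum_xVec_sq]
    unfold treeK
    rw [treeOf_card H T T₀ Fact.out hc]

/-- The marginal process in finite volume as a mean of the tilted measure. -/
theorem MM_eq_meanV (L : LabNoise) (hG : ∀ v, (G.neighborSet v).Finite) (H : G.Subgraph)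
    [Fact H.verts.Finite] (hc : H.Connected) (T₀ : TreeOf H) (f : edgesOf H Fact.out) (t : ℝ)
    (U : V → unitInterval) :
    MM L G H.edgeSet f t U = meanV Finset.univ (xVec H)
      (Yt (flowDrift H.edgeSet) (arrOf L G) (edgesOf H Fact.out) U t) f :=
  (finSetup L hG H hc T₀).hDX _ f

/-- Localization in finite volume. -/
theorem fin_loc (L : LabNoise) (hG : ∀ v, (G.neighborSet v).Finite) (H : G.Subgraph)
    [Fact H.verts.Finite] (hc : H.Connected) {e : Sym2 V} (he : e ∈ H.edgeSet) (T : ℕ) :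
    ∫ U, MM L G H.edgeSet e T U * (1 - MM L G H.edgeSet e T U) ∂iidU V ≤
      Real.exp (-((T : ℝ) / 8)) := by
  obtain ⟨T₀⟩ := treeOf_nonempty H Fact.out hc
  have : Nonempty (TreeOf H) := ⟨T₀⟩
  let f : edgesOf H Fact.out := ⟨e, (mem_edgesOf H Fact.out e).2 he⟩
  have h := localization (finSetup L hG H hc T₀) f T
  simp_rw [← MM_eq_meanV L hG H hc T₀ f] at h
  exact h

/-- Second moment of the increments in finite volume. -/
theorem fin_mart (L : LabNoise) (hG : ∀ v, (G.neighborSet v).Finite) (H : G.Subgraph)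
    [Fact H.verts.Finite] (hc : H.Connected) {e : Sym2 V} (he : e ∈ H.edgeSet) {t t' : ℕ}
    (ht : t ≤ t') :
    ∫ U, (MM L G H.edgeSet e t' U - MM L G H.edgeSet e t U) ^ 2 ∂iidU V ≤
      ∫ U, MM L G H.edgeSet e t U * (1 - MM L G H.edgeSet e t U) ∂iidU V := by
  obtain ⟨T₀⟩ := treeOf_nonempty H Fact.out hc
  have : Nonempty (TreeOf H) := ⟨T₀⟩
  let f : edgesOf H Fact.out := ⟨e, (mem_edgesOf H Fact.out e).2 he⟩
  have h := mart_sq (finSetup L hG H hc T₀) f ht
  simp_rw [← MM_eq_meanV L hG H hc T₀ f] at h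
  exact h

/-- The pattern estimate: for a probability vector `w` and a family of `0`/`1` valued functions, the
mean of the product is close to the product of the means, with error twice the sum of the
variances. -/
theorem pattern_estimate {τ ι : Type*} [Fintype τ] (w : τ → ℝ) (hw0 : ∀ T, 0 ≤ w T)
    (hw1 : ∑ T, w T = 1) (y : ι → τ → ℝ) (hy : ∀ i T, y i T = 0 ∨ y i T = 1) (s : Finset ι) :
    |∑ T, w T * ∏ i ∈ s, y i T - ∏ i ∈ s, ∑ T, w T * y i T| ≤
      2 * ∑ i ∈ s, (∑ T, w T * y i T) * (1 - ∑ T, w T * y i T) := by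
  induction s using Finset.induction_on with
  | empty => simp [hw1]
  | insert i s hi ih =>
    set m := ∑ T, w T * y i T with hm
    have hy0 : ∀ j T, 0 ≤ y j T := fun j T => by rcases hy j T with h | h <;> simp [h]
    have hy1 : ∀ j T, y j T ≤ 1 := fun j T => by rcases hy j T with h | h <;> simp [h]
    have hm0 : 0 ≤ m := Finset.sum_nonneg fun T _ => mul_nonneg (hw0 T) (hy0 i T)
    have hm1 : m ≤ 1 := by
      rw [← hw1]
      exact Finset.sum_le_sum fun T _ => mul_le_of_le_one_right (hw0 T) (hy1 i T)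
    have hZ0 : ∀ T, 0 ≤ ∏ j ∈ s, y j T := fun T => Finset.prod_nonneg fun j _ => hy0 j T
    have hZ1 : ∀ T, ∏ j ∈ s, y j T ≤ 1 := fun T =>
      Finset.prod_le_one (fun j _ => hy0 j T) (fun j _ => hy1 j T)
    rw [Finset.sum_insert hi, Finset.prod_insert hi, ← hm]
    simp only [Finset.prod_insert hi]
    have habs : ∀ T, |y i T - m| = y i T * (1 - m) + (1 - y i T) * m := fun T => by
      rcases hy i T with h | h
      · rw [h, zero_sub, abs_neg, abs_of_nonneg hm0]; ring
      · rw [h, abs_of_nonneg (by linarith)]; ring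
    have hcov : |∑ T, w T * ((∏ j ∈ s, y j T) * (y i T - m))| ≤ 2 * (m * (1 - m)) := by
      calc |∑ T, w T * ((∏ j ∈ s, y j T) * (y i T - m))|
          ≤ ∑ T, |w T * ((∏ j ∈ s, y j T) * (y i T - m))| := Finset.abs_sum_le_sum_abs _ _
        _ ≤ ∑ T, w T * (y i T * (1 - m) + (1 - y i T) * m) := by
            refine Finset.sum_le_sum fun T _ => ?_
            rw [abs_mul, abs_mul, abs_of_nonneg (hw0 T), abs_of_nonneg (hZ0 T), habs]
            refine mul_le_mul_of_nonneg_left ?_ (hw0 T)
            have h2 : 0 ≤ y i T * (1 - m) + (1 - y i T) * m :=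
              add_nonneg (mul_nonneg (hy0 i T) (by linarith))
                (mul_nonneg (by linarith [hy1 i T]) hm0)
            exact mul_le_of_le_one_left h2 (hZ1 T)
        _ = 2 * (m * (1 - m)) := by
            have e : ∀ T, w T * (y i T * (1 - m) + (1 - y i T) * m) =
                (w T * y i T) * (1 - 2 * m) + w T * m := fun T => by ring
            simp_rw [e]
            rw [Finset.sum_add_distrib, ← Finset.sum_mul, ← Finset.sum_mul, ← hm, hw1]
            ring
    have e : ∑ T, w T * (y i T * ∏ j ∈ s, y j T) - m * ∏ j ∈ s, ∑ T, w T * y j T =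
        ∑ T, w T * ((∏ j ∈ s, y j T) * (y i T - m)) +
          m * (∑ T, w T * ∏ j ∈ s, y j T - ∏ j ∈ s, ∑ T, w T * y j T) := by
      have e1 : ∀ T, w T * ((∏ j ∈ s, y j T) * (y i T - m)) =
          w T * (y i T * ∏ j ∈ s, y j T) - m * (w T * ∏ j ∈ s, y j T) := fun T => by ring
      simp_rw [e1]
      rw [Finset.sum_sub_distrib, ← Finset.mul_sum]
      ring
    rw [e, mul_add]
    refine (abs_add_le _ _).trans (add_le_add hcov ?_)
    rw [abs_mul, abs_of_nonneg hm0]
    exact (mul_le_of_le_one_left (abs_nonneg _) hm1).trans ih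

/-- The law of the spanning tree in finite volume, up to an error: the cylinder probability of the
uniform spanning tree is close to the mean product of the marginals at a large time. -/
theorem fin_ust (L : LabNoise) (hG : ∀ v, (G.neighborSet v).Finite) (H : G.Subgraph)
    [Fact H.verts.Finite] (hc : H.Connected) (A B : Finset (Sym2 V))
    (hA : ∀ e ∈ A, e ∈ H.edgeSet) (hB : ∀ e ∈ B, e ∈ H.edgeSet) (T : ℕ) :
    |ustCyl H A B - ∫ U, (∏ e ∈ A, MM L G H.edgeSet e T U) *
        ∏ e ∈ B, (1 - MM L G H.edgeSet e T U) ∂iidU V| ≤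
      2 * ((A.card + B.card : ℕ) : ℝ) * Real.exp (-((T : ℝ) / 8)) := by
  obtain ⟨T₀⟩ := treeOf_nonempty H Fact.out hc
  have hne : Nonempty (TreeOf H) := ⟨T₀⟩
  have S := finSetup L hG H hc T₀
  set X := edgesOf H Fact.out with hX
  let p : TreeOf H → Prop := fun τ => A ⊆ τ.1 ∧ Disjoint τ.1 B
  let Y : (V → unitInterval) → X → ℝ := fun U =>
    Yt (flowDrift H.edgeSet) (arrOf L G) X U (T : ℝ)
  let M : Sym2 V → (V → unitInterval) → ℝ := fun e U => MM L G H.edgeSet e T U
  have hM0 : ∀ e U, 0 ≤ M e U := fun e U => MM_nonneg _ _ _ _ _ _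
  have hM1 : ∀ e U, M e U ≤ 1 := fun e U => MM_le_one _ _ _ _ _ _
  have hMm : ∀ e, Measurable (M e) := fun e => measurable_MM L hG _ e T
  -- the value at the zero field
  have hust : ustCyl H A B = pS (xVec H) p 0 := by
    rw [ustCyl_eq H hc A B]
    unfold pS
    refine Finset.sum_congr rfl fun τ _ => ?_
    have hmu : mu Finset.univ (xVec H) (0 : X → ℝ) τ = mu X (treeVec H) 0 τ := by
      have e : ∀ τ' : TreeOf H, dot Finset.univ (xVec H τ') (0 : X → ℝ) = dot X (treeVec H τ') 0 :=
        fun τ' => dot_xVec H τ' 0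
      unfold mu Zf
      simp_rw [e]
    rw [hmu]
    by_cases hp : p τ
    · rw [if_pos hp, if_pos hp, mul_one]
    · rw [if_neg hp, if_neg hp, mul_zero]
  have hmean : ∫ U, pS (xVec H) p (Y U) ∂iidU V = pS (xVec H) p 0 := pS_integral S p T
  -- the pointwise estimate
  let Φ : (V → unitInterval) → ℝ := fun U => (∏ e ∈ A, M e U) * ∏ e ∈ B, (1 - M e U)
  let v : Sym2 V → (V → unitInterval) → ℝ := fun e U => M e U * (1 - M e U)
  have hpt : ∀ U, |pS (xVec H) p (Y U) - Φ U| ≤ 2 * (∑ e ∈ A, v e U + ∑ e ∈ B, v e U) := by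
    intro U
    let w : TreeOf H → ℝ := fun τ => mu Finset.univ (xVec H) (Y U) τ
    let y : Sym2 V ⊕ Sym2 V → TreeOf H → ℝ := fun i τ =>
      Sum.elim (fun e => treeVec H τ e) (fun e => 1 - treeVec H τ e) i
    have hy : ∀ i τ, y i τ = 0 ∨ y i τ = 1 := by
      intro i τ
      cases i with
      | inl e =>
        simp only [y, Sum.elim_inl, treeVec]
        split_ifs <;> simp
      | inr e =>
        simp only [y, Sum.elim_inr, treeVec]
        split_ifs <;> simp
    have hw0 : ∀ τ, 0 ≤ w τ := fun τ => mu_nonneg _ _ _ _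
    have hw1 : ∑ τ, w τ = 1 := sum_mu _ _ _
    have h := pattern_estimate w hw0 hw1 y hy (A.disjSum B)
    have hmA : ∀ e ∈ A, ∑ τ, w τ * treeVec H τ e = M e U := by
      intro e he
      have := MM_eq_meanV L hG H hc T₀ ⟨e, (mem_edgesOf H Fact.out e).2 (hA e he)⟩ T U
      exact this.symm
    have hmB : ∀ e ∈ B, ∑ τ, w τ * treeVec H τ e = M e U := by
      intro e he
      have := MM_eq_meanV L hG H hc T₀ ⟨e, (mem_edgesOf H Fact.out e).2 (hB e he)⟩ T U
      exact this.symm
    have hmB' : ∀ e ∈ B, ∑ τ, w τ * (1 - treeVec H τ e) = 1 - M e U := by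
      intro e he
      have e1 : ∀ τ, w τ * (1 - treeVec H τ e) = w τ - w τ * treeVec H τ e := fun τ => by ring
      simp_rw [e1]
      rw [Finset.sum_sub_distrib, hw1, hmB e he]
    have hind : ∀ τ, (∏ e ∈ A, treeVec H τ e) * ∏ e ∈ B, (1 - treeVec H τ e) =
        if p τ then 1 else 0 := by
      intro τ
      by_cases hp : p τ
      · rw [if_pos hp, Finset.prod_eq_one, Finset.prod_eq_one, one_mul]
        · intro e he
          have : e ∉ τ.1 := Finset.disjoint_right.1 hp.2 he
          simp [treeVec, this]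
        · intro e he
          have : e ∈ τ.1 := hp.1 he
          simp [treeVec, this]
      · rw [if_neg hp]
        simp only [p, not_and_or] at hp
        rcases hp with hp | hp
        · obtain ⟨e, he, hne⟩ := Finset.not_subset.1 hp
          rw [Finset.prod_eq_zero he (by simp [treeVec, hne]), zero_mul]
        · obtain ⟨e, he1, he2⟩ := Finset.not_disjoint_iff.1 hp
          rw [Finset.prod_eq_zero he2 (by simp [treeVec, he1]), mul_zero]
    have hL : ∑ τ, w τ * ∏ i ∈ A.disjSum B, y i τ = pS (xVec H) p (Y U) := by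
      unfold pS
      refine Finset.sum_congr rfl fun τ _ => ?_
      rw [Finset.prod_disjSum]
      simp only [y, Sum.elim_inl, Sum.elim_inr]
      rw [hind τ]
      by_cases hp : p τ
      · rw [if_pos hp, if_pos hp, mul_one]
      · rw [if_neg hp, if_neg hp, mul_zero]
    have hR : ∏ i ∈ A.disjSum B, ∑ τ, w τ * y i τ = Φ U := by
      rw [Finset.prod_disjSum]
      simp only [y, Sum.elim_inl, Sum.elim_inr, Φ]
      rw [Finset.prod_congr rfl hmA, Finset.prod_congr rfl hmB']
    have hS : ∑ i ∈ A.disjSum B, (∑ τ, w τ * y i τ) * (1 - ∑ τ, w τ * y i τ) =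
        ∑ e ∈ A, v e U + ∑ e ∈ B, v e U := by
      rw [Finset.sum_disjSum]
      simp only [y, Sum.elim_inl, Sum.elim_inr]
      congr 1
      · refine Finset.sum_congr rfl fun e he => ?_
        rw [hmA e he]
      · refine Finset.sum_congr rfl fun e he => ?_
        rw [hmB' e he]
        simp only [v]
        ring
    rw [hL, hR, hS] at h
    exact h
  -- integrability
  have hYm : Measurable Y := measurable_Yt S.hAm T
  have hpSm : Measurable fun U => pS (xVec H) p (Y U) := (continuous_pS p).measurable.comp hYm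
  have hpSi : Integrable (fun U => pS (xVec H) p (Y U)) (iidU V) := by
    refine Integrable.of_bound (C := 1) hpSm.aestronglyMeasurable (Eventually.of_forall fun U => ?_)
    rw [Real.norm_eq_abs, abs_of_nonneg (pS_nonneg p _)]
    exact pS_le_one p _
  have hΦm : Measurable Φ :=
    (Finset.measurable_prod A fun e _ => hMm e).mul
      (Finset.measurable_prod B fun e _ => (hMm e).const_sub 1)
  have hΦb : ∀ U, |Φ U| ≤ 1 := fun U => by
    have h1 : 0 ≤ ∏ e ∈ A, M e U := Finset.prod_nonneg fun e _ => hM0 e U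
    have h2 : ∏ e ∈ A, M e U ≤ 1 := Finset.prod_le_one (fun e _ => hM0 e U) fun e _ => hM1 e U
    have h3 : 0 ≤ ∏ e ∈ B, (1 - M e U) :=
      Finset.prod_nonneg fun e _ => by linarith [hM1 e U]
    have h4 : ∏ e ∈ B, (1 - M e U) ≤ 1 :=
      Finset.prod_le_one (fun e _ => by linarith [hM1 e U]) fun e _ => by linarith [hM0 e U]
    rw [abs_of_nonneg (mul_nonneg h1 h3)]
    exact mul_le_one₀ h2 h3 h4
  have hΦi : Integrable Φ (iidU V) :=
    Integrable.of_bound (C := 1) hΦm.aestronglyMeasurable (Eventually.of_forall fun U => by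
      rw [Real.norm_eq_abs]; exact hΦb U)
  have hvi : ∀ e, Integrable (v e) (iidU V) := fun e => by
    refine Integrable.of_bound (C := 1)
      ((hMm e).mul ((hMm e).const_sub 1)).aestronglyMeasurable (Eventually.of_forall fun U => ?_)
    have h0 := hM0 e U
    have h1 := hM1 e U
    rw [Real.norm_eq_abs, abs_of_nonneg (mul_nonneg h0 (by linarith))]
    exact mul_le_one₀ h1 (by linarith) (by linarith)
  have hvT : ∀ e ∈ H.edgeSet, ∫ U, v e U ∂iidU V ≤ Real.exp (-((T : ℝ) / 8)) :=
    fun e he => fin_loc L hG H hc he T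
  -- the final computation
  have hgoal : ustCyl H A B - ∫ U, Φ U ∂iidU V = ∫ U, (pS (xVec H) p (Y U) - Φ U) ∂iidU V := by
    rw [integral_sub hpSi hΦi, hmean, hust]
  have hsumi : Integrable (fun U => 2 * (∑ e ∈ A, v e U + ∑ e ∈ B, v e U)) (iidU V) :=
    ((integrable_finsetSum A fun e _ => hvi e).add
      (integrable_finsetSum B fun e _ => hvi e)).const_mul 2
  have hbound : ∫ U, 2 * (∑ e ∈ A, v e U + ∑ e ∈ B, v e U) ∂iidU V ≤
      2 * ((A.card + B.card : ℕ) : ℝ) * Real.exp (-((T : ℝ) / 8)) := by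
    rw [integral_const_mul,
      integral_add (integrable_finsetSum A fun e _ => hvi e)
        (integrable_finsetSum B fun e _ => hvi e),
      integral_finsetSum A fun e _ => hvi e, integral_finsetSum B fun e _ => hvi e]
    have h1 : ∑ e ∈ A, ∫ U, v e U ∂iidU V ≤ (A.card : ℝ) * Real.exp (-((T : ℝ) / 8)) := by
      have := Finset.sum_le_card_nsmul A (fun e => ∫ U, v e U ∂iidU V) _ fun e he => hvT e (hA e he)
      simpa [nsmul_eq_mul] using this
    have h2 : ∑ e ∈ B, ∫ U, v e U ∂iidU V ≤ (B.card : ℝ) * Real.exp (-((T : ℝ) / 8)) := by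
      have := Finset.sum_le_card_nsmul B (fun e => ∫ U, v e U ∂iidU V) _ fun e he => hvT e (hB e he)
      simpa [nsmul_eq_mul] using this
    push_cast
    nlinarith
  show |ustCyl H A B - ∫ U, Φ U ∂iidU V| ≤ _
  rw [hgoal]
  calc |∫ U, (pS (xVec H) p (Y U) - Φ U) ∂iidU V|
      ≤ ∫ U, |pS (xVec H) p (Y U) - Φ U| ∂iidU V := abs_integral_le_integral_abs
    _ ≤ ∫ U, 2 * (∑ e ∈ A, v e U + ∑ e ∈ B, v e U) ∂iidU V :=
        integral_mono (hpSi.sub hΦi).abs hsumi hpt
    _ ≤ _ := hbound

end Vale.Agent.Lib.P143
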