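import Vale.Agent.Lib.P143.URG
import Vale.Agent.Lib.P143.CayleyG

/-! The final factor theorems: the free uniform spanning forest as a factor of IID. -/

open MeasureTheory
open Classical

universe u

noncomputable section

namespace Vale.Agent.Lib.P143

theorem fromRel_adj_self {V : Type*} (G : SimpleGraph V) : SimpleGraph.fromRel G.Adj = G := by
  ext a b
  simp only [SimpleGraph.fromRel_adj]
  exact ⟨fun h => h.2.elim id (fun h => h.symm), fun h => ⟨G.ne_of_adj h, Or.inl h⟩⟩

theorem measurable_decide_phiSet {V : Type*} [Countable V] {Ω : Type*} [MeasurableSpace Ω]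
    (L : LabNoise) (G : Ω → SimpleGraph V) (hG : ∀ a b, MeasurableSet {ω | (G ω).Adj a b})
    {U : Ω → V → unitInterval} (hU : ∀ v, Measurable fun ω => U ω v) :
    Measurable fun ω (e : Sym2 V) => decide (e ∈ phiSet L (G ω) (U ω)) := by
  refine measurable_pi_iff.2 fun e => measurable_to_bool ?_
  have h := measurableSet_phiSet_joint L G hG hU e
  convert h using 1
  ext ω
  simp

theorem decide_phiSet_natural {V V' : Type*} [Countable V] [Countable V'] (L : LabNoise)
    (G : SimpleGraph V) (G' : SimpleGraph V') (π : V ≃ V')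
    (hπ : ∀ a b, G'.Adj (π a) (π b) ↔ G.Adj a b) (U : V → unitInterval) (e : Sym2 V) :
    decide (Sym2.map π e ∈ phiSet L G' (fun v' => U (π.symm v'))) =
      decide (e ∈ phiSet L G U) := by
  rw [phiSet_natural L G G' π hπ U]
  have hinj : Function.Injective (Sym2.map π) := Sym2.map.injective π.injective
  simp only [hinj.mem_set_image]

/-- The free uniform spanning forest of every Cayley graph is a factor of IID. -/
theorem cayley_factor (Γ : Type u) [Group Γ] (S : Finset Γ)
    (hS : Subgroup.closure (S : Set Γ) = ⊤) :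
    ∃ Φ : (Γ → unitInterval) → Sym2 Γ → Bool,
      Measurable Φ ∧
      (∀ U e, Φ U e = true → e ∈ (SimpleGraph.mulCayley (S : Set Γ)).edgeSet) ∧
      (∀ (γ : Γ) (U : Γ → unitInterval) (e : Sym2 Γ),
        Φ (fun g => U (γ⁻¹ * g)) (Sym2.map (fun g => γ * g) e) = Φ U e) ∧
      IsFUSF (SimpleGraph.mulCayley (S : Set Γ))
        ((Measure.infinitePi fun _ : Γ => (volume : Measure unitInterval)).map
          fun U (e : (SimpleGraph.mulCayley (S : Set Γ)).edgeSet) => Φ U e) := by
  obtain ⟨L⟩ := exists_labNoise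
  have hcount : Countable Γ := cayley_countable (S : Set Γ) S.finite_toSet hS
  let G := SimpleGraph.mulCayley (S : Set Γ)
  refine ⟨fun U e => decide (e ∈ phiSet L G U), ?_, ?_, ?_, ?_⟩
  · exact measurable_decide_phiSet L (fun _ : Γ → unitInterval => G)
      (fun a b => MeasurableSet.const _) (U := fun U => U) (fun v => measurable_pi_apply v)
  · intro U e h
    exact phiSet_subset L G U (by simpa using h)
  · intro γ U e
    let π : Γ ≃ Γ := ⟨fun g => γ * g, fun g => γ⁻¹ * g, fun g => by simp, fun g => by simp⟩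
    exact decide_phiSet_natural L G G π (fun a b => cayley_adj_mul (S : Set Γ) γ a b) U e
  · exact isFUSF_phiSet L (cayley_locallyFinite (S : Set Γ) S.finite_toSet)
      (cayley_connected (S : Set Γ) hS)

/-- The free uniform spanning forest is a graph factor of IID, on every connected locally finite
graph with vertex set the natural numbers. -/
theorem graph_factor :
    ∃ Ψ : (ℕ → ℕ → Prop) × (ℕ → unitInterval) → Sym2 ℕ → Bool,
      Measurable Ψ ∧
      (∀ (G : SimpleGraph ℕ) U e, Ψ (G.Adj, U) e = true → e ∈ G.edgeSet) ∧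
      (∀ (π : ℕ ≃ ℕ) (G G' : SimpleGraph ℕ), (∀ a b, G'.Adj (π a) (π b) ↔ G.Adj a b) →
        ∀ (U : ℕ → unitInterval) (e : Sym2 ℕ),
          Ψ (G'.Adj, fun v => U (π.symm v)) (Sym2.map π e) = Ψ (G.Adj, U) e) ∧
      ∀ G : SimpleGraph ℕ, G.Connected → (∀ v, (G.neighborSet v).Finite) →
        IsFUSF G ((Measure.infinitePi fun _ : ℕ => (volume : Measure unitInterval)).map
          fun U (e : G.edgeSet) => Ψ (G.Adj, U) e) := by
  obtain ⟨L⟩ := exists_labNoise
  refine ⟨fun ω e => decide (e ∈ phiSet L (SimpleGraph.fromRel ω.1) ω.2), ?_, ?_, ?_, ?_⟩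
  · refine measurable_decide_phiSet L
      (fun ω : (ℕ → ℕ → Prop) × (ℕ → unitInterval) => SimpleGraph.fromRel ω.1) (fun a b => ?_)
      (U := fun ω => ω.2) (fun v => (measurable_pi_apply v).comp measurable_snd)
    simp only [SimpleGraph.fromRel_adj]
    have h1 : ∀ x y : ℕ, Measurable
        fun ω : (ℕ → ℕ → Prop) × (ℕ → unitInterval) => ω.1 x y := fun x y =>
      (measurable_pi_apply y).comp ((measurable_pi_apply x).comp measurable_fst)
    have h2 : MeasurableSet {ω : (ℕ → ℕ → Prop) × (ℕ → unitInterval) | ω.1 a b ∨ ω.1 b a} :=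
      (measurableSet_setOfPred.2 (h1 a b)).union (measurableSet_setOfPred.2 (h1 b a))
    by_cases hab : a = b
    · simp [hab]
    · simpa [hab] using h2
  · intro G U e h
    have h' : e ∈ phiSet L (SimpleGraph.fromRel G.Adj) U := by simpa using h
    rw [fromRel_adj_self] at h'
    exact phiSet_subset L G U h'
  · intro π G G' hπ U e
    simp only [fromRel_adj_self]
    exact decide_phiSet_natural L G G' π hπ U e
  · intro G hc hlf
    simp only [fromRel_adj_self]
    exact isFUSF_phiSet L hlf hc

end Vale.Agent.Lib.P143
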