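import Mathlib

/-! Pathwise solution of the integral equation `D t = ∫₀ᵗ m (b s + D s) ds` by Picard iteration,
for a drift with values in `[0,1]` that is Lipschitz for the supremum norm. -/

open MeasureTheory Filter Topology Set

noncomputable section

namespace Vale.Agent.Lib.P143

variable {E : Type*}

/-- A drift: values in `[0,1]`, Lipschitz for the supremum norm, measurable. -/
structure Drift (E : Type*) where
  /-- the drift -/
  m : (E → ℝ) → E → ℝ
  nonneg : ∀ y e, 0 ≤ m y e
  le_one : ∀ y e, m y e ≤ 1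
  lip : ∀ {y y' : E → ℝ} {ε : ℝ}, (∀ f, |y f - y' f| ≤ ε) → ∀ e, |m y e - m y' e| ≤ 2 * ε
  meas : ∀ e, Measurable fun y => m y e

/-- Picard iterates. -/
def pic (D : Drift E) (b : ℝ → E → ℝ) : ℕ → ℝ → E → ℝ
  | 0, _, _ => 0
  | j + 1, t, e => ∫ s in (0 : ℝ)..t, D.m (fun f => b s f + pic D b j s f) e

theorem pic_zero (D : Drift E) (b : ℝ → E → ℝ) (t : ℝ) (e : E) : pic D b 0 t e = 0 := rfl

theorem pic_succ (D : Drift E) (b : ℝ → E → ℝ) (j : ℕ) (t : ℝ) (e : E) :
    pic D b (j + 1) t e = ∫ s in (0 : ℝ)..t, D.m (fun f => b s f + pic D b j s f) e := rfl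

theorem drift_abs_le (D : Drift E) (y : E → ℝ) (e : E) : |D.m y e| ≤ 1 :=
  abs_le.2 ⟨by linarith [D.nonneg y e], D.le_one y e⟩

theorem intervalIntegrable_of_bdd {g : ℝ → ℝ} (hg : Measurable g) {M : ℝ} (h : ∀ s, |g s| ≤ M)
    (a b : ℝ) : IntervalIntegrable g volume a b := by
  rw [intervalIntegrable_iff]
  refine Measure.integrableOn_of_bounded (M := M) (by simp) hg.aestronglyMeasurable ?_
  exact Eventually.of_forall fun s => by simpa using h s

section Basic

variable (D : Drift E) {b : ℝ → E → ℝ}

theorem measurable_drift_comp (hb : ∀ f, Measurable fun s => b s f) {u : ℝ → E → ℝ}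
    (hu : ∀ f, Measurable fun s => u s f) (e : E) :
    Measurable fun s => D.m (fun f => b s f + u s f) e :=
  (D.meas e).comp (measurable_pi_lambda _ fun f => (hb f).add (hu f))

theorem measurable_pic (hb : ∀ f, Measurable fun s => b s f) (j : ℕ) (e : E) :
    Measurable fun t => pic D b j t e := by
  induction j generalizing e with
  | zero => simp only [pic_zero]; exact measurable_const
  | succ j ih =>
    have hg := measurable_drift_comp D hb (fun f => ih f) e
    have hint : ∀ a c, IntervalIntegrable (fun s => D.m (fun f => b s f + pic D b j s f) e) volume a c :=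
      fun a c => intervalIntegrable_of_bdd hg (fun s => drift_abs_le D _ e) a c
    exact (intervalIntegral.continuous_primitive hint 0).measurable

theorem intervalIntegrable_drift (hb : ∀ f, Measurable fun s => b s f) (j : ℕ) (e : E) (a c : ℝ) :
    IntervalIntegrable (fun s => D.m (fun f => b s f + pic D b j s f) e) volume a c :=
  intervalIntegrable_of_bdd (measurable_drift_comp D hb (fun f => measurable_pic D hb j f) e)
    (fun s => drift_abs_le D _ e) a c

theorem pic_sub (hb : ∀ f, Measurable fun s => b s f) (j : ℕ) (e : E) (t t' : ℝ) :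
    |pic D b j t e - pic D b j t' e| ≤ |t - t'| := by
  cases j with
  | zero => simp [pic_zero]
  | succ j =>
    rw [pic_succ, pic_succ, intervalIntegral.integral_interval_sub_left
      (intervalIntegrable_drift D hb j e _ _) (intervalIntegrable_drift D hb j e _ _)]
    have := intervalIntegral.norm_integral_le_of_norm_le_const (a := t') (b := t) (C := 1)
      (f := fun s => D.m (fun f => b s f + pic D b j s f) e)
      (fun s _ => by rw [Real.norm_eq_abs]; exact drift_abs_le D _ e)
    simpa [Real.norm_eq_abs] using this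

theorem pic_abs_le (hb : ∀ f, Measurable fun s => b s f) (j : ℕ) (e : E) (t : ℝ) :
    |pic D b j t e| ≤ |t| := by
  have h := pic_sub D hb j e t 0
  cases j with
  | zero => simp [pic_zero]
  | succ j =>
    simpa [pic_succ] using h

/-- The constants in the Picard estimate. -/
def picC (j : ℕ) (t : ℝ) : ℝ := 2 ^ j * t ^ (j + 1) / (j + 1).factorial

theorem picC_nonneg (j : ℕ) {t : ℝ} (ht : 0 ≤ t) : 0 ≤ picC j t := by
  unfold picC; positivity

theorem integral_picC (j : ℕ) (t : ℝ) : ∫ s in (0 : ℝ)..t, 2 * picC j s = picC (j + 1) t := by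
  unfold picC
  have h1 : ∀ s : ℝ, 2 * (2 ^ j * s ^ (j + 1) / ((j + 1).factorial : ℝ)) =
      (2 * 2 ^ j / ((j + 1).factorial : ℝ)) * s ^ (j + 1) := fun s => by ring
  simp_rw [h1]
  rw [intervalIntegral.integral_const_mul, integral_pow]
  have h2 : ((j + 1 + 1).factorial : ℝ) = (j + 2 : ℝ) * ((j + 1).factorial : ℝ) := by
    rw [Nat.factorial_succ]; push_cast; ring
  have h3 : ((j + 1).factorial : ℝ) ≠ 0 := by positivity
  rw [h2]
  have h4 : ((j : ℝ) + 2) ≠ 0 := by positivity
  simp only [ne_eq, Nat.add_eq_zero_iff, one_ne_zero, and_false, not_false_eq_true, zero_pow,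
    sub_zero]
  push_cast
  field_simp
  ring

theorem pic_succ_sub (hb : ∀ f, Measurable fun s => b s f) (j : ℕ) (e : E) {t : ℝ} (ht : 0 ≤ t) :
    |pic D b (j + 1) t e - pic D b j t e| ≤ picC j t := by
  induction j generalizing e t with
  | zero =>
    simpa [pic_zero, picC, abs_of_nonneg ht] using pic_abs_le D hb 1 e t
  | succ j ih =>
    rw [pic_succ D b (j + 1), pic_succ D b j, ← intervalIntegral.integral_sub
      (intervalIntegrable_drift D hb (j + 1) e _ _) (intervalIntegrable_drift D hb j e _ _),
      ← integral_picC]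
    have hI := intervalIntegral.norm_integral_le_of_norm_le (μ := volume) (a := 0) (b := t)
      (f := fun s => D.m (fun f => b s f + pic D b (j + 1) s f) e -
        D.m (fun f => b s f + pic D b j s f) e) (g := fun s => 2 * picC j s) ht
      (Eventually.of_forall fun s hs => by
        have hs0 : 0 ≤ s := hs.1.le
        rw [Real.norm_eq_abs]
        refine D.lip (fun f => ?_) e
        have := ih f hs0
        simpa using this)
      (by
        refine Continuous.intervalIntegrable ?_ _ _
        unfold picC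
        fun_prop)
    rwa [Real.norm_eq_abs] at hI

theorem summable_picC (t : ℝ) : Summable fun j => picC j t := by
  have h := (summable_nat_add_iff 1).2 (Real.summable_pow_div_factorial (2 * t))
  have h2 : (fun j => picC j t) = fun j => (1 / 2) * ((2 * t) ^ (j + 1) / ((j + 1).factorial : ℝ)) := by
    funext j
    unfold picC
    rw [mul_pow, pow_succ 2 j]
    ring
  rw [h2]
  exact h.mul_left _

/-- The tail of the Picard series. -/
def picTail (t : ℝ) (j : ℕ) : ℝ := ∑' i, picC (j + i) t

theorem picTail_tendsto (t : ℝ) : Tendsto (picTail t) atTop (𝓝 0) := by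
  have := tendsto_sum_nat_add (fun j => picC j t)
  have h : picTail t = fun j => ∑' i, picC (i + j) t := by
    funext j
    unfold picTail
    refine tsum_congr fun i => by rw [add_comm]
  rw [h]
  exact this

theorem picTail_nonneg {t : ℝ} (ht : 0 ≤ t) (j : ℕ) : 0 ≤ picTail t j :=
  tsum_nonneg fun _ => picC_nonneg _ ht

theorem cauchySeq_pic (hb : ∀ f, Measurable fun s => b s f) (e : E) {t : ℝ} (ht : 0 ≤ t) :
    CauchySeq fun j => pic D b j t e :=
  cauchySeq_of_dist_le_of_summable (fun j => picC j t)
    (fun j => by rw [Real.dist_eq, abs_sub_comm]; exact pic_succ_sub D hb j e ht)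
    (summable_picC t)

/-- The solution: the limit of the Picard iterates. -/
def sol (D : Drift E) (b : ℝ → E → ℝ) (t : ℝ) (e : E) : ℝ := limUnder atTop fun j => pic D b j t e

theorem tendsto_sol (hb : ∀ f, Measurable fun s => b s f) (e : E) {t : ℝ} (ht : 0 ≤ t) :
    Tendsto (fun j => pic D b j t e) atTop (𝓝 (sol D b t e)) :=
  (cauchySeq_pic D hb e ht).tendsto_limUnder

theorem abs_pic_sub_sol_le (hb : ∀ f, Measurable fun s => b s f) (j : ℕ) (e : E) {t : ℝ}
    (ht : 0 ≤ t) : |pic D b j t e - sol D b t e| ≤ picTail t j := by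
  have := dist_le_tsum_of_dist_le_of_tendsto (fun i => picC i t)
    (fun i => by rw [Real.dist_eq, abs_sub_comm]; exact pic_succ_sub D hb i e ht)
    (summable_picC t) (tendsto_sol D hb e ht) j
  rwa [Real.dist_eq] at this

theorem sol_sub (hb : ∀ f, Measurable fun s => b s f) (e : E) {t t' : ℝ} (ht : 0 ≤ t)
    (ht' : 0 ≤ t') : |sol D b t e - sol D b t' e| ≤ |t - t'| := by
  have h1 := ((tendsto_sol D hb e ht).sub (tendsto_sol D hb e ht')).abs
  exact le_of_tendsto h1 (Eventually.of_forall fun j => pic_sub D hb j e t t')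

theorem sol_abs_le (hb : ∀ f, Measurable fun s => b s f) (e : E) {t : ℝ} (ht : 0 ≤ t) :
    |sol D b t e| ≤ t := by
  have h := le_of_tendsto (tendsto_sol D hb e ht).abs
    (Eventually.of_forall fun j => pic_abs_le D hb j e t)
  rwa [abs_of_nonneg ht] at h

theorem measurable_sol (hb : ∀ f, Measurable fun s => b s f) (e : E) :
    Measurable fun t => sol D b (max t 0) e :=
  measurable_of_tendsto_metrizable
    (f := fun (j : ℕ) t => pic D b j (max t 0) e)
    (fun j => (measurable_pic D hb j e).comp (measurable_id.max measurable_const))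
    (tendsto_pi_nhds.2 fun t => tendsto_sol D hb e (le_max_right t 0))

/-- The integrand with the solution plugged in converges. -/
theorem tendsto_drift_pic (hb : ∀ f, Measurable fun s => b s f) (e : E) {s : ℝ} (hs : 0 ≤ s) :
    Tendsto (fun j => D.m (fun f => b s f + pic D b j s f) e) atTop
      (𝓝 (D.m (fun f => b s f + sol D b s f) e)) := by
  rw [Metric.tendsto_atTop]
  intro ε hε
  have h0 := (picTail_tendsto s).const_mul 2
  rw [mul_zero] at h0
  obtain ⟨N, hN⟩ := (h0.eventually (gt_mem_nhds hε)).exists_forall_of_atTop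
  refine ⟨N, fun j hj => ?_⟩
  rw [Real.dist_eq]
  refine lt_of_le_of_lt (D.lip (fun f => ?_) e) (hN j hj)
  simpa using abs_pic_sub_sol_le D hb j f hs

/-- The integral equation. -/
theorem sol_eq (hb : ∀ f, Measurable fun s => b s f) (e : E) {t : ℝ} (ht : 0 ≤ t) :
    sol D b t e = ∫ s in (0 : ℝ)..t, D.m (fun f => b s f + sol D b s f) e := by
  have h1 : Tendsto (fun j => pic D b (j + 1) t e) atTop (𝓝 (sol D b t e)) :=
    (tendsto_sol D hb e ht).comp (tendsto_add_atTop_nat 1)
  have h2 : Tendsto (fun j => pic D b (j + 1) t e) atTop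
      (𝓝 (∫ s in (0 : ℝ)..t, D.m (fun f => b s f + sol D b s f) e)) := by
    refine intervalIntegral.tendsto_integral_filter_of_dominated_convergence (fun _ => 1)
      (Eventually.of_forall fun j => ?_) (Eventually.of_forall fun j => ?_) (by simp)
      (Eventually.of_forall fun s hs => ?_)
    · exact (measurable_drift_comp D hb (fun f => measurable_pic D hb j f) e).aestronglyMeasurable
    · exact Eventually.of_forall fun s _ => by
        rw [Real.norm_eq_abs]; exact drift_abs_le D _ e
    · rw [uIoc_of_le ht] at hs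
      exact tendsto_drift_pic D hb e hs.1.le
  exact tendsto_nhds_unique h1 h2

/-- The drift along the solution is measurable on the half line. -/
theorem measurable_drift_sol (hb : ∀ f, Measurable fun s => b s f) (e : E) :
    Measurable fun s => D.m (fun f => b s f + sol D b (max s 0) f) e :=
  measurable_drift_comp D hb (fun f => measurable_sol D hb f) e

theorem intervalIntegrable_drift_sol (hb : ∀ f, Measurable fun s => b s f) (e : E) {a c : ℝ}
    (ha : 0 ≤ a) (hc : 0 ≤ c) :
    IntervalIntegrable (fun s => D.m (fun f => b s f + sol D b s f) e) volume a c := by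
  have h := intervalIntegrable_of_bdd (measurable_drift_sol D hb e)
    (fun s => drift_abs_le D _ e) a c
  refine h.congr fun s hs => ?_
  have hs0 : 0 ≤ s := by
    rcases le_total a c with h1 | h1
    · rw [uIoc_of_le h1] at hs; exact ha.trans hs.1.le
    · rw [uIoc_of_ge h1] at hs; exact hc.trans hs.1.le
  simp only [max_eq_left hs0]

end Basic

/-! ### Convergence of drifts -/

/-- Convergence of drifts along moving arguments with bounded difference. -/
def DriftConv (Dn : ℕ → Drift E) (D : Drift E) : Prop :=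
  ∀ (y : E → ℝ) (yn : ℕ → E → ℝ) (C : ℝ), (∀ f, Tendsto (fun n => yn n f) atTop (𝓝 (y f))) →
    (∀ n f, |yn n f - y f| ≤ C) → ∀ e, Tendsto (fun n => (Dn n).m (yn n) e) atTop (𝓝 (D.m y e))

section Conv

variable {Dn : ℕ → Drift E} {D : Drift E} {b : ℝ → E → ℝ}

theorem pic_tendsto (h : DriftConv Dn D) (hb : ∀ f, Measurable fun s => b s f) (j : ℕ) (e : E)
    {t : ℝ} (ht : 0 ≤ t) : Tendsto (fun n => pic (Dn n) b j t e) atTop (𝓝 (pic D b j t e)) := by
  induction j generalizing e t with
  | zero => simp only [pic_zero]; exact tendsto_const_nhds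
  | succ j ih =>
    simp only [pic_succ]
    refine intervalIntegral.tendsto_integral_filter_of_dominated_convergence (fun _ => 1)
      (Eventually.of_forall fun n => ?_) (Eventually.of_forall fun n => ?_) (by simp)
      (Eventually.of_forall fun s hs => ?_)
    · exact (measurable_drift_comp (Dn n) hb
        (fun f => measurable_pic (Dn n) hb j f) e).aestronglyMeasurable
    · exact Eventually.of_forall fun s _ => by
        rw [Real.norm_eq_abs]; exact drift_abs_le _ _ e
    · rw [uIoc_of_le ht] at hs
      have hs0 : 0 ≤ s := hs.1.le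
      refine h _ _ (2 * s) (fun f => tendsto_const_nhds.add (ih f hs0)) (fun n f => ?_) e
      have h1 := pic_abs_le (Dn n) hb j f s
      have h2 := pic_abs_le D hb j f s
      rw [abs_of_nonneg hs0] at h1 h2
      have h3 : b s f + pic (Dn n) b j s f - (b s f + pic D b j s f) =
          pic (Dn n) b j s f - pic D b j s f := by ring
      rw [h3]
      calc |pic (Dn n) b j s f - pic D b j s f| ≤ |pic (Dn n) b j s f| + |pic D b j s f| :=
            abs_sub _ _
        _ ≤ 2 * s := by linarith

theorem sol_tendsto (h : DriftConv Dn D) (hb : ∀ f, Measurable fun s => b s f) (e : E)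
    {t : ℝ} (ht : 0 ≤ t) : Tendsto (fun n => sol (Dn n) b t e) atTop (𝓝 (sol D b t e)) := by
  rw [Metric.tendsto_atTop]
  intro ε hε
  have h3 : 0 < ε / 3 := by positivity
  obtain ⟨j, hj⟩ := ((picTail_tendsto t).eventually (gt_mem_nhds h3)).exists
  have h4 := Metric.tendsto_atTop.1 (pic_tendsto h hb j e ht) (ε / 3) h3
  obtain ⟨N, hN⟩ := h4
  refine ⟨N, fun n hn => ?_⟩
  have h5 := hN n hn
  rw [Real.dist_eq] at h5 ⊢
  have h6 := abs_pic_sub_sol_le (Dn n) hb j e ht
  have h7 := abs_pic_sub_sol_le D hb j e ht
  have h8 : sol (Dn n) b t e - sol D b t e =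
      -(pic (Dn n) b j t e - sol (Dn n) b t e) + (pic (Dn n) b j t e - pic D b j t e) +
        (pic D b j t e - sol D b t e) := by ring
  rw [h8]
  calc _ ≤ |-(pic (Dn n) b j t e - sol (Dn n) b t e) + (pic (Dn n) b j t e - pic D b j t e)| +
          |pic D b j t e - sol D b t e| := abs_add_le _ _
    _ ≤ |-(pic (Dn n) b j t e - sol (Dn n) b t e)| + |pic (Dn n) b j t e - pic D b j t e| +
          |pic D b j t e - sol D b t e| := by gcongr; exact abs_add_le _ _
    _ < ε := by rw [abs_neg]; linarith

/-- Convergence of the drift along the solutions. -/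
theorem drift_sol_tendsto (h : DriftConv Dn D) (hb : ∀ f, Measurable fun s => b s f) (e : E)
    {t : ℝ} (ht : 0 ≤ t) :
    Tendsto (fun n => (Dn n).m (fun f => b t f + sol (Dn n) b t f) e) atTop
      (𝓝 (D.m (fun f => b t f + sol D b t f) e)) := by
  refine h _ _ (2 * t) (fun f => tendsto_const_nhds.add (sol_tendsto h hb f ht)) (fun n f => ?_) e
  have h1 := sol_abs_le (Dn n) hb f ht
  have h2 := sol_abs_le D hb f ht
  have h3 : b t f + sol (Dn n) b t f - (b t f + sol D b t f) =
      sol (Dn n) b t f - sol D b t f := by ring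
  rw [h3]
  calc |sol (Dn n) b t f - sol D b t f| ≤ |sol (Dn n) b t f| + |sol D b t f| := abs_sub _ _
    _ ≤ 2 * t := by linarith

end Conv

/-! ### Equivariance -/

section Equiv

variable {E' : Type*} (π : E ≃ E') {D : Drift E} {D' : Drift E'} {b : ℝ → E → ℝ} {b' : ℝ → E' → ℝ}

theorem pic_equiv (hD : ∀ y e, D'.m (fun f' => y (π.symm f')) (π e) = D.m y e)
    (hb : ∀ s f, b' s (π f) = b s f) (j : ℕ) (t : ℝ) (e : E) :
    pic D' b' j t (π e) = pic D b j t e := by
  induction j generalizing t e with
  | zero => rfl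
  | succ j ih =>
    simp only [pic_succ]
    refine intervalIntegral.integral_congr fun s _ => ?_
    rw [← hD]
    congr 1
    funext f'
    have h1 := hb s (π.symm f')
    have h2 := ih s (π.symm f')
    rw [Equiv.apply_symm_apply] at h1 h2
    rw [h1, h2]

theorem sol_equiv (hD : ∀ y e, D'.m (fun f' => y (π.symm f')) (π e) = D.m y e)
    (hb : ∀ s f, b' s (π f) = b s f) (t : ℝ) (e : E) :
    sol D' b' t (π e) = sol D b t e := by
  unfold sol
  congr 1
  funext j
  exact pic_equiv π hD hb j t e

end Equiv

/-! ### Measurability in a parameter -/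

section Param

variable {Ω : Type*} [MeasurableSpace Ω] (D : Drift E) {b : Ω → ℝ → E → ℝ}

theorem measurable_pic_joint (hb : ∀ f, Measurable fun p : Ω × ℝ => b p.1 p.2 f) (j : ℕ) (e : E) :
    Measurable fun p : Ω × ℝ => pic D (b p.1) j p.2 e := by
  induction j generalizing e with
  | zero => simp only [pic_zero]; exact measurable_const
  | succ j ih =>
    have hslice : ∀ ω f, Measurable fun s => b ω s f := fun ω f =>
      (hb f).comp measurable_prodMk_left
    have hg : Measurable fun p : Ω × ℝ => D.m (fun f => b p.1 p.2 f + pic D (b p.1) j p.2 f) e :=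
      (D.meas e).comp (measurable_pi_lambda _ fun f => (hb f).add (ih f))
    have hfix : ∀ t : ℝ, Measurable fun ω : Ω => pic D (b ω) (j + 1) t e := by
      intro t
      simp only [pic_succ, intervalIntegral]
      refine Measurable.sub ?_ ?_
      · exact (hg.stronglyMeasurable.integral_prod_right' (ν := volume.restrict (Ioc 0 t))).measurable
      · exact (hg.stronglyMeasurable.integral_prod_right' (ν := volume.restrict (Ioc t 0))).measurable
    have hcont : ∀ ω, Continuous fun t => pic D (b ω) (j + 1) t e := by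
      intro ω
      simp only [pic_succ]
      exact intervalIntegral.continuous_primitive
        (intervalIntegrable_drift D (hslice ω) j e) 0
    have := measurable_uncurry_of_continuous_of_measurable (u := fun t ω => pic D (b ω) (j + 1) t e)
      hcont hfix
    exact this.comp measurable_swap

theorem measurable_sol_joint (hb : ∀ f, Measurable fun p : Ω × ℝ => b p.1 p.2 f) (e : E) :
    Measurable fun p : Ω × ℝ => sol D (b p.1) (max p.2 0) e := by
  have hslice : ∀ ω f, Measurable fun s => b ω s f := fun ω f =>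
    (hb f).comp measurable_prodMk_left
  refine measurable_of_tendsto_metrizable
    (f := fun (j : ℕ) (p : Ω × ℝ) => pic D (b p.1) j (max p.2 0) e)
    (fun j => ?_)
    (tendsto_pi_nhds.2 fun p => tendsto_sol D (hslice p.1) e (le_max_right p.2 0))
  exact (measurable_pic_joint D hb j e).comp
    (measurable_fst.prodMk (measurable_snd.max measurable_const))

end Param

/-! ### Euler scheme -/

/-- The drift part of the Euler scheme driven by `W`. -/
def euD (D : Drift E) (h : ℝ) (W : ℕ → E → ℝ) : ℕ → E → ℝ
  | 0, _ => 0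
  | j + 1, e => euD D h W j e + h * D.m (fun f => W j f + euD D h W j f) e

section Euler

variable (D : Drift E) {b : ℝ → E → ℝ}

theorem euler_step (hb : ∀ f, Measurable fun s => b s f) (X : Finset E)
    (hX : ∀ {y y' : E → ℝ} {ε : ℝ}, 0 ≤ ε → (∀ f ∈ X, |y f - y' f| ≤ ε) → ∀ e,
      |D.m y e - D.m y' e| ≤ 2 * ε)
    {h : ℝ} (hh : 0 < h) (W : ℕ → E → ℝ) (j : ℕ) {ε : ℝ}
    (hε : ∀ e, |sol D b (j * h) e - euD D h W j e| ≤ ε)
    (hρ : IntervalIntegrable (fun s => ∑ f ∈ X, |b s f - W j f|) volume (j * h) ((j + 1) * h))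
    (e : E) :
    |sol D b ((j + 1) * h) e - euD D h W (j + 1) e| ≤
      ε + 2 * h * ε + 2 * h ^ 2 + 2 * ∫ s in (j * h)..((j + 1) * h), ∑ f ∈ X, |b s f - W j f| := by
  have h0 : (0 : ℝ) ≤ j * h := by positivity
  have h1 : (j : ℝ) * h ≤ (j + 1) * h := by nlinarith
  have h1' : (0 : ℝ) ≤ (j + 1) * h := h0.trans h1
  set a : ℝ := j * h with ha
  set a' : ℝ := (j + 1) * h with ha'
  have hlen : a' - a = h := by rw [ha, ha']; ring
  set c : ℝ := D.m (fun f => W j f + euD D h W j f) e with hc
  set G : ℝ → ℝ := fun s => D.m (fun f => b s f + sol D b s f) e with hG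
  have hGint : IntervalIntegrable G volume a a' := intervalIntegrable_drift_sol D hb e h0 h1'
  have hsol : sol D b a' e - sol D b a e = ∫ s in a..a', G s := by
    rw [sol_eq D hb e h1', sol_eq D hb e h0,
      intervalIntegral.integral_interval_sub_left
        (intervalIntegrable_drift_sol D hb e le_rfl h1')
        (intervalIntegrable_drift_sol D hb e le_rfl h0)]
  have hcint : ∫ _ in a..a', c = h * c := by
    rw [intervalIntegral.integral_const, hlen, smul_eq_mul]
  have hsplit : sol D b a' e - euD D h W (j + 1) e =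
      (sol D b a e - euD D h W j e) + ∫ s in a..a', (G s - c) := by
    rw [intervalIntegral.integral_sub hGint intervalIntegrable_const, ← hsol, hcint]
    show _ = _
    have : euD D h W (j + 1) e = euD D h W j e + h * c := rfl
    rw [this]
    ring
  rw [hsplit]
  have hbound : ‖∫ s in a..a', (G s - c)‖ ≤
      ∫ s in a..a', 2 * ((∑ f ∈ X, |b s f - W j f|) + h + ε) := by
    refine intervalIntegral.norm_integral_le_of_norm_le h1
      (Eventually.of_forall fun s hs => ?_) ?_
    · rw [Real.norm_eq_abs]
      have hs0 : 0 ≤ s := h0.trans hs.1.le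
      have hε0 : 0 ≤ ε := (abs_nonneg _).trans (hε e)
      have hρ0 : 0 ≤ ∑ f ∈ X, |b s f - W j f| := Finset.sum_nonneg fun _ _ => abs_nonneg _
      refine hX (by linarith) (fun f hf => ?_) e
      have t1 : |b s f - W j f| ≤ ∑ f ∈ X, |b s f - W j f| :=
        Finset.single_le_sum (f := fun f => |b s f - W j f|) (fun _ _ => abs_nonneg _) hf
      have t2 : |sol D b s f - sol D b a f| ≤ h := by
        refine (sol_sub D hb f hs0 h0).trans ?_
        rw [abs_of_pos (sub_pos.2 hs.1)]
        linarith [hs.2]
      have t3 := hε f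
      calc |b s f + sol D b s f - (W j f + euD D h W j f)|
          = |(b s f - W j f) + (sol D b s f - sol D b a f) +
              (sol D b a f - euD D h W j f)| := by congr 1; ring
        _ ≤ |b s f - W j f| + |sol D b s f - sol D b a f| +
              |sol D b a f - euD D h W j f| := abs_add_three _ _ _
        _ ≤ _ := by linarith
    · exact ((hρ.add intervalIntegrable_const).add intervalIntegrable_const).const_mul 2
  have hval : ∫ s in a..a', 2 * ((∑ f ∈ X, |b s f - W j f|) + h + ε) =
      2 * h ^ 2 + 2 * h * ε + 2 * ∫ s in a..a', ∑ f ∈ X, |b s f - W j f| := by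
    rw [intervalIntegral.integral_const_mul]
    have : ∀ s, (∑ f ∈ X, |b s f - W j f|) + h + ε = (∑ f ∈ X, |b s f - W j f|) + (h + ε) :=
      fun s => by ring
    simp_rw [this]
    rw [intervalIntegral.integral_add hρ intervalIntegrable_const,
      intervalIntegral.integral_const, hlen, smul_eq_mul]
    ring
  rw [hval] at hbound
  rw [Real.norm_eq_abs] at hbound
  calc _ ≤ |sol D b a e - euD D h W j e| + |∫ s in a..a', (G s - c)| := abs_add_le _ _
    _ ≤ _ := by linarith [hε e]

/-- Discrete Gronwall for the Euler scheme. -/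
theorem euler_compare (hb : ∀ f, Measurable fun s => b s f) (X : Finset E)
    (hX : ∀ {y y' : E → ℝ} {ε : ℝ}, 0 ≤ ε → (∀ f ∈ X, |y f - y' f| ≤ ε) → ∀ e,
      |D.m y e - D.m y' e| ≤ 2 * ε)
    {h : ℝ} (hh : 0 < h) (W : ℕ → E → ℝ) (n : ℕ)
    (hρ : ∀ j, j < n → IntervalIntegrable (fun s => ∑ f ∈ X, |b s f - W j f|) volume
      (j * h) ((j + 1) * h)) (e : E) :
    |sol D b (n * h) e - euD D h W n e| ≤ Real.exp (2 * (n * h)) *
      (2 * h * (n * h) + 2 * ∑ j ∈ Finset.range n,
        ∫ s in (j * h)..((j + 1) * h), ∑ f ∈ X, |b s f - W j f|) := by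
  set R : ℕ → ℝ := fun j => ∫ s in (j * h)..((j + 1) * h), ∑ f ∈ X, |b s f - W j f| with hR
  have hRnn : ∀ j, 0 ≤ R j := by
    intro j
    refine intervalIntegral.integral_nonneg (by nlinarith) fun s _ => ?_
    exact Finset.sum_nonneg fun _ _ => abs_nonneg _
  have key : ∀ k, k ≤ n → ∀ e, |sol D b (k * h) e - euD D h W k e| ≤
      (1 + 2 * h) ^ k * (2 * h * (k * h) + 2 * ∑ j ∈ Finset.range k, R j) := by
    intro k
    induction k with
    | zero =>
      intro _ e
      have h0 : sol D b 0 e = 0 := by
        rw [sol_eq D hb e le_rfl]; simp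
      simp [euD, h0]
    | succ k ih =>
      intro hk e
      have ih' := ih (by omega)
      have hstep := euler_step D hb X hX hh W k ih' (hρ k (by omega)) e
      push_cast
      have hS : 0 ≤ 2 * h * (k * h) + 2 * ∑ j ∈ Finset.range k, R j := by
        have : 0 ≤ ∑ j ∈ Finset.range k, R j := Finset.sum_nonneg fun j _ => hRnn j
        positivity
      refine hstep.trans ?_
      rw [Finset.sum_range_succ, pow_succ]
      have hp : 1 ≤ (1 + 2 * h) ^ k := one_le_pow₀ (by linarith)
      have hRk := hRnn k
      set S := 2 * h * (k * h) + 2 * ∑ j ∈ Finset.range k, R j with hSdef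
      have e1 : 2 * h * ((k + 1) * h) + 2 * (∑ j ∈ Finset.range k, R j + R k) =
          S + 2 * h ^ 2 + 2 * R k := by rw [hSdef]; ring
      rw [e1]
      have e2 : (1 + 2 * h) ^ k * S + 2 * h * ((1 + 2 * h) ^ k * S) + 2 * h ^ 2 + 2 * R k ≤
          (1 + 2 * h) ^ k * (1 + 2 * h) * (S + 2 * h ^ 2 + 2 * R k) := by
        have h3 : 0 ≤ 2 * h ^ 2 + 2 * R k := by positivity
        have h4 : 1 ≤ (1 + 2 * h) ^ k * (1 + 2 * h) := by
          have : 1 ≤ 1 + 2 * h := by linarith
          nlinarith
        nlinarith
      exact e2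
  refine (key n le_rfl e).trans ?_
  have hexp : (1 + 2 * h) ^ n ≤ Real.exp (2 * (n * h)) := by
    have h1 : 1 + 2 * h ≤ Real.exp (2 * h) := by
      have := Real.add_one_le_exp (2 * h); linarith
    calc (1 + 2 * h) ^ n ≤ Real.exp (2 * h) ^ n := pow_le_pow_left₀ (by linarith) h1 n
      _ = _ := by rw [← Real.exp_nat_mul]; congr 1; ring
  have hS : 0 ≤ 2 * h * (n * h) + 2 * ∑ j ∈ Finset.range n, R j := by
    have : 0 ≤ ∑ j ∈ Finset.range n, R j := Finset.sum_nonneg fun j _ => hRnn j
    positivity
  exact mul_le_mul_of_nonneg_right hexp hS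

end Euler

end Vale.Agent.Lib.P143
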