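import Vale.Agent.Lib.P143.Chain
import Vale.Agent.Lib.P143.Picard
import Vale.Agent.Lib.P143.BPath

/-! The law of the solution of the integral equation in finite volume, through the Euler chains. -/

open MeasureTheory Filter Topology Set ProbabilityTheory
open scoped ENNReal

noncomputable section

namespace Vale.Agent.Lib.P143

variable {E Ω : Type*} [MeasurableSpace Ω]

/-- The step at level `l`. -/
def hl (l : ℕ) : ℝ := (rr ^ l) ^ 2

theorem rr_sq : rr ^ 2 = 1 / 2 := by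
  unfold rr
  rw [inv_pow, Real.sq_sqrt (by norm_num)]
  norm_num

theorem hl_eq (l : ℕ) : hl l = (1 / 2 : ℝ) ^ l := by
  unfold hl
  rw [← pow_mul, mul_comm, pow_mul, rr_sq]

theorem hl_pos (l : ℕ) : 0 < hl l := by rw [hl_eq]; positivity

theorem hl_mul_two_pow (l : ℕ) : hl l * 2 ^ l = 1 := by
  rw [hl_eq, ← mul_pow]; norm_num

theorem nat_mul_hl (T l : ℕ) : ((T * 2 ^ l : ℕ) : ℝ) * hl l = T := by
  push_cast
  rw [mul_assoc, mul_comm ((2 : ℝ) ^ l), hl_mul_two_pow, mul_one]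

theorem rr_lt_one : rr < 1 := by
  have h1 : (1 : ℝ) < Real.sqrt 2 := by
    rw [show (1 : ℝ) = Real.sqrt 1 by simp]
    exact Real.sqrt_lt_sqrt (by norm_num) (by norm_num)
  unfold rr
  exact inv_lt_one_of_one_lt₀ h1

theorem wSum_zero (g : ℕ → ℕ → ℝ) (l : ℕ) : wSum g l 0 = 0 := by simp [wSum]

theorem wSum_succ (g : ℕ → ℕ → ℝ) (l k : ℕ) : wSum g l (k + 1) = wSum g l k + rr ^ l * g l k := by
  simp [wSum, Finset.sum_range_succ, mul_add]

theorem wSum_dyadic {g : ℕ → ℕ → ℝ} (hg : Refines g) (T l : ℕ) :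
    wSum g l (T * 2 ^ l) = wSum g 0 T := by
  induction l with
  | zero => simp
  | succ l ih =>
    rw [← ih, ← wSum_refine hg l (T * 2 ^ l)]
    congr 1
    ring

section Noise

variable {P : Measure Ω} {A : E → Ω → ℕ → ℕ → ℝ}

/-- The driving path. -/
def bA (A : E → Ω → ℕ → ℕ → ℝ) (ω : Ω) (s : ℝ) (f : E) : ℝ := bPath (A f ω) s

/-- The partial sums of the noise. -/
def wA (A : E → Ω → ℕ → ℕ → ℝ) (ω : Ω) (l j : ℕ) (f : E) : ℝ := wSum (A f ω) l j

theorem measurable_wSum_param (hAm : ∀ e l k, Measurable fun ω => A e ω l k) (f : E) (l j : ℕ) :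
    Measurable fun ω => wSum (A f ω) l j := by
  unfold wSum
  exact (Finset.measurable_sum _ fun i _ => hAm f l i).const_mul _

theorem measurable_bA (hAm : ∀ e l k, Measurable fun ω => A e ω l k) (f : E) :
    Measurable fun p : Ω × ℝ => bA A p.1 p.2 f :=
  measurable_bPath (A := fun ω => A f ω) (hAm f)

theorem floor_eq_of_mem {l j : ℕ} {s : ℝ} (h1 : (j : ℝ) * hl l < s) (h2 : s < (j + 1) * hl l) :
    ⌊s * 2 ^ l⌋₊ = j := by
  have hp : (0 : ℝ) < 2 ^ l := by positivity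
  have h3 := hl_mul_two_pow l
  rw [Nat.floor_eq_iff]
  · constructor
    · calc (j : ℝ) = (j * hl l) * 2 ^ l := by rw [mul_assoc, h3, mul_one]
        _ ≤ s * 2 ^ l := by gcongr
    · calc s * 2 ^ l < ((j + 1) * hl l) * 2 ^ l := by gcongr
        _ = j + 1 := by rw [mul_assoc, h3, mul_one]
  · have : 0 ≤ s := le_trans (by have := hl_pos l; positivity) h1.le
    positivity

/-- The basic `L¹` bound on one dyadic interval. -/
theorem lintegral_interval_le (hAm : ∀ e l k, Measurable fun ω => A e ω l k)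
    (hAr : ∀ e ω, Refines (A e ω)) {f : E}
    (hL1 : ∀ l k, ∫⁻ ω, ENNReal.ofReal |A f ω l k| ∂P ≤ 1) (l j : ℕ) [SFinite P] :
    ∫⁻ ω, (∫⁻ s in Ioc ((j : ℝ) * hl l) ((j + 1) * hl l),
        ENNReal.ofReal |bPath (A f ω) s - wSum (A f ω) l j|) ∂P ≤
      ENNReal.ofReal (hl l) * ENNReal.ofReal (3 * rr ^ l) := by
  have hm : Measurable fun p : Ω × ℝ => ENNReal.ofReal |bPath (A f p.1) p.2 - wSum (A f p.1) l j| :=
    (((measurable_bA hAm f).sub ((measurable_wSum_param hAm f l j).comp measurable_fst)).abs).ennreal_ofReal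
  rw [lintegral_lintegral_swap hm.aemeasurable]
  have hlen : (volume (Ioc ((j : ℝ) * hl l) ((j + 1) * hl l))) = ENNReal.ofReal (hl l) := by
    rw [Real.volume_Ioc]
    congr 1
    ring
  have hbd : ∀ᵐ s ∂(volume.restrict (Ioc ((j : ℝ) * hl l) ((j + 1) * hl l))),
      ∫⁻ ω, ENNReal.ofReal |bPath (A f ω) s - wSum (A f ω) l j| ∂P ≤ ENNReal.ofReal (3 * rr ^ l) := by
    have h1 : ∀ᵐ s ∂(volume.restrict (Ioc ((j : ℝ) * hl l) ((j + 1) * hl l))),
        s ≠ (j + 1) * hl l := by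
      apply ae_restrict_of_ae
      simp [ae_iff]
    filter_upwards [h1, ae_restrict_mem measurableSet_Ioc] with s hs hmem
    have hs2 : s < (j + 1) * hl l := lt_of_le_of_ne hmem.2 hs
    have hfl := floor_eq_of_mem hmem.1 hs2
    have hs0 : 0 ≤ s := le_trans (by have := hl_pos l; positivity) hmem.1.le
    have h2 := lintegral_bPath_sub_le (P := P) (A := A f) (hAm f) (hAr f) hL1 hs0 l
    simpa [bStep, hfl] using h2
  calc _ ≤ ∫⁻ _ in Ioc ((j : ℝ) * hl l) ((j + 1) * hl l), ENNReal.ofReal (3 * rr ^ l) :=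
        lintegral_mono_ae hbd
    _ = _ := by rw [setLIntegral_const, hlen, mul_comm]

/-- The total error of the Euler scheme up to time `T`. -/
def Rr (A : E → Ω → ℕ → ℕ → ℝ) (X : Finset E) (T l : ℕ) (ω : Ω) : ℝ≥0∞ :=
  ∑ j ∈ Finset.range (T * 2 ^ l), ∫⁻ s in Ioc ((j : ℝ) * hl l) ((j + 1) * hl l),
    ∑ f ∈ X, ENNReal.ofReal |bPath (A f ω) s - wSum (A f ω) l j|

theorem measurable_Rr (hAm : ∀ e l k, Measurable fun ω => A e ω l k) (X : Finset E) (T l : ℕ) :
    Measurable (Rr A X T l) := by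
  unfold Rr
  refine Finset.measurable_sum _ fun j _ => ?_
  have hm : Measurable fun p : Ω × ℝ =>
      ∑ f ∈ X, ENNReal.ofReal |bPath (A f p.1) p.2 - wSum (A f p.1) l j| :=
    Finset.measurable_sum _ fun f _ =>
      (((measurable_bA hAm f).sub ((measurable_wSum_param hAm f l j).comp measurable_fst)).abs).ennreal_ofReal
  exact hm.lintegral_prod_right'

theorem lintegral_Rr_le [SFinite P] (hAm : ∀ e l k, Measurable fun ω => A e ω l k)
    (hAr : ∀ e ω, Refines (A e ω)) {X : Finset E}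
    (hL1 : ∀ f ∈ X, ∀ l k, ∫⁻ ω, ENNReal.ofReal |A f ω l k| ∂P ≤ 1) (T l : ℕ) :
    ∫⁻ ω, Rr A X T l ω ∂P ≤ ENNReal.ofReal (T * X.card * (3 * rr ^ l)) := by
  classical
  have hm : ∀ f j, Measurable fun p : Ω × ℝ =>
      ENNReal.ofReal |bPath (A f p.1) p.2 - wSum (A f p.1) l j| := fun f j =>
    (((measurable_bA hAm f).sub ((measurable_wSum_param hAm f l j).comp measurable_fst)).abs).ennreal_ofReal
  unfold Rr
  rw [lintegral_finsetSum _ (fun j _ => ?_)]
  · have h1 : ∀ j : ℕ, ∫⁻ ω, (∫⁻ s in Ioc ((j : ℝ) * hl l) ((j + 1) * hl l),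
        ∑ f ∈ X, ENNReal.ofReal |bPath (A f ω) s - wSum (A f ω) l j|) ∂P ≤
        ENNReal.ofReal (X.card * (hl l * (3 * rr ^ l))) := by
      intro j
      have h2 : ∀ ω, ∫⁻ s in Ioc ((j : ℝ) * hl l) ((j + 1) * hl l),
          ∑ f ∈ X, ENNReal.ofReal |bPath (A f ω) s - wSum (A f ω) l j| =
          ∑ f ∈ X, ∫⁻ s in Ioc ((j : ℝ) * hl l) ((j + 1) * hl l),
            ENNReal.ofReal |bPath (A f ω) s - wSum (A f ω) l j| := fun ω =>
        lintegral_finsetSum _ fun f _ => (Measurable.comp (g := fun p : Ω × ℝ =>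
          ENNReal.ofReal |bPath (A f p.1) p.2 - wSum (A f p.1) l j|) (f := fun s : ℝ => (ω, s))
            (hm f j) measurable_prodMk_left)
      simp_rw [h2]
      rw [lintegral_finsetSum _ fun f _ => (hm f j).lintegral_prod_right']
      calc _ ≤ ∑ _f ∈ X, ENNReal.ofReal (hl l) * ENNReal.ofReal (3 * rr ^ l) :=
            Finset.sum_le_sum fun f hf => lintegral_interval_le hAm hAr (hL1 f hf) l j
        _ = _ := by
          rw [Finset.sum_const, nsmul_eq_mul, ENNReal.ofReal_mul (Nat.cast_nonneg _),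
            ENNReal.ofReal_mul (hl_pos l).le, ENNReal.ofReal_natCast]
    calc _ ≤ ∑ _j ∈ Finset.range (T * 2 ^ l), ENNReal.ofReal (X.card * (hl l * (3 * rr ^ l))) :=
          Finset.sum_le_sum fun j _ => h1 j
      _ = _ := by
        rw [Finset.sum_const, nsmul_eq_mul, Finset.card_range, ← ENNReal.ofReal_natCast,
          ← ENNReal.ofReal_mul (by positivity)]
        congr 1
        have := nat_mul_hl T l
        calc ((T * 2 ^ l : ℕ) : ℝ) * (X.card * (hl l * (3 * rr ^ l)))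
            = (((T * 2 ^ l : ℕ) : ℝ) * hl l) * (X.card * (3 * rr ^ l)) := by ring
          _ = _ := by rw [this]; ring
  · have hm2 : Measurable fun p : Ω × ℝ =>
        ∑ f ∈ X, ENNReal.ofReal |bPath (A f p.1) p.2 - wSum (A f p.1) l j| :=
      Finset.measurable_sum _ fun f _ => hm f j
    exact hm2.lintegral_prod_right'

/-- Almost surely the error tends to zero. -/
theorem ae_Rr_tendsto [SFinite P] (hAm : ∀ e l k, Measurable fun ω => A e ω l k)
    (hAr : ∀ e ω, Refines (A e ω)) {X : Finset E}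
    (hL1 : ∀ f ∈ X, ∀ l k, ∫⁻ ω, ENNReal.ofReal |A f ω l k| ∂P ≤ 1) (T : ℕ) :
    ∀ᵐ ω ∂P, Tendsto (fun l => Rr A X T l ω) atTop (𝓝 0) := by
  have hsum : ∫⁻ ω, ∑' l, Rr A X T l ω ∂P ≠ ∞ := by
    rw [lintegral_tsum fun l => (measurable_Rr hAm X T l).aemeasurable]
    have hs : Summable fun l : ℕ => (T * X.card * 3 : ℝ) * rr ^ l :=
      (summable_geometric_of_lt_one rr_pos.le rr_lt_one).mul_left _
    refine ne_top_of_le_ne_top (b := ∑' l : ℕ, ENNReal.ofReal ((T * X.card * 3 : ℝ) * rr ^ l)) ?_ ?_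
    · rw [← ENNReal.ofReal_tsum_of_nonneg (fun l => by have := rr_pos; positivity) hs]
      exact ENNReal.ofReal_ne_top
    · refine ENNReal.tsum_le_tsum fun l => ?_
      refine (lintegral_Rr_le hAm hAr hL1 T l).trans (le_of_eq ?_)
      congr 1
      ring
  have hm : AEMeasurable (fun ω => ∑' l, Rr A X T l ω) P :=
    (Measurable.tsum fun l => measurable_Rr hAm X T l).aemeasurable
  filter_upwards [ae_lt_top' hm hsum] with ω hω
  exact ENNReal.tendsto_atTop_zero_of_tsum_ne_top hω.ne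

theorem bA_slice (hAm : ∀ e l k, Measurable fun ω => A e ω l k) (ω : Ω) (f : E) :
    Measurable fun s => bA A ω s f :=
  Measurable.comp (g := fun p : Ω × ℝ => bA A p.1 p.2 f) (f := fun s : ℝ => (ω, s))
    (measurable_bA hAm f) measurable_prodMk_left

/-- Comparison of the Euler scheme with the solution through the total error. -/
theorem compare_of_Rr (D : Drift E) (hAm : ∀ e l k, Measurable fun ω => A e ω l k) {X : Finset E}
    (hX : ∀ {y y' : E → ℝ} {ε : ℝ}, 0 ≤ ε → (∀ f ∈ X, |y f - y' f| ≤ ε) → ∀ e,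
      |D.m y e - D.m y' e| ≤ 2 * ε)
    (T l : ℕ) (ω : Ω) (hfin : Rr A X T l ω ≠ ∞) (e : E) :
    |sol D (bA A ω) T e - euD D (hl l) (wA A ω l) (T * 2 ^ l) e| ≤
      Real.exp (2 * T) * (2 * hl l * T + 2 * (Rr A X T l ω).toReal) := by
  have hρm : ∀ j : ℕ, Measurable fun s => ∑ f ∈ X, |bA A ω s f - wA A ω l j f| := fun j =>
    Finset.measurable_sum _ fun f _ => ((bA_slice hAm ω f).sub_const _).abs
  have hofReal : ∀ (j : ℕ) (s : ℝ), ENNReal.ofReal (∑ f ∈ X, |bA A ω s f - wA A ω l j f|) =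
      ∑ f ∈ X, ENNReal.ofReal |bPath (A f ω) s - wSum (A f ω) l j| := fun j s =>
    ENNReal.ofReal_sum_of_nonneg fun _ _ => abs_nonneg _
  have hfin2 : ∀ j ∈ Finset.range (T * 2 ^ l), ∫⁻ s in Ioc ((j : ℝ) * hl l) ((j + 1) * hl l),
      ∑ f ∈ X, ENNReal.ofReal |bPath (A f ω) s - wSum (A f ω) l j| ≠ ∞ :=
    ENNReal.sum_ne_top.1 hfin
  have hle : ∀ j : ℕ, (j : ℝ) * hl l ≤ (j + 1) * hl l := fun j => by
    have := hl_pos l; nlinarith
  have hint : ∀ j, j < T * 2 ^ l → IntervalIntegrable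
      (fun s => ∑ f ∈ X, |bA A ω s f - wA A ω l j f|) volume (j * hl l) ((j + 1) * hl l) := by
    intro j hj
    rw [intervalIntegrable_iff_integrableOn_Ioc_of_le (hle j)]
    refine ⟨(hρm j).aestronglyMeasurable, ?_⟩
    rw [hasFiniteIntegral_iff_ofReal (Eventually.of_forall fun s =>
      Finset.sum_nonneg fun _ _ => abs_nonneg _)]
    simp_rw [hofReal]
    exact (hfin2 j (Finset.mem_range.2 hj)).lt_top
  have h := euler_compare D (fun f => bA_slice hAm ω f) X hX (hl_pos l) (wA A ω l) (T * 2 ^ l) hint e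
  rw [nat_mul_hl] at h
  have hsum : ∑ j ∈ Finset.range (T * 2 ^ l),
      ∫ s in ((j : ℝ) * hl l)..((j + 1) * hl l), ∑ f ∈ X, |bA A ω s f - wA A ω l j f| =
      (Rr A X T l ω).toReal := by
    unfold Rr
    rw [ENNReal.toReal_sum hfin2]
    refine Finset.sum_congr rfl fun j _ => ?_
    rw [intervalIntegral.integral_of_le (hle j), integral_eq_lintegral_of_nonneg_ae
      (Eventually.of_forall fun s => Finset.sum_nonneg fun _ _ => abs_nonneg _)
      (hρm j).aestronglyMeasurable]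
    simp_rw [hofReal]
  rw [hsum] at h
  exact h

theorem hl_tendsto : Tendsto hl atTop (𝓝 0) := by
  have : hl = fun l => (1 / 2 : ℝ) ^ l := funext hl_eq
  rw [this]
  exact tendsto_pow_atTop_nhds_zero_of_lt_one (by norm_num) (by norm_num)

/-- Almost sure convergence of the Euler scheme at integer times. -/
theorem ae_tendsto_y [SFinite P] (D : Drift E) (hAm : ∀ e l k, Measurable fun ω => A e ω l k)
    (hAr : ∀ e ω, Refines (A e ω)) {X : Finset E}
    (hL1 : ∀ f ∈ X, ∀ l k, ∫⁻ ω, ENNReal.ofReal |A f ω l k| ∂P ≤ 1)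
    (hX : ∀ {y y' : E → ℝ} {ε : ℝ}, 0 ≤ ε → (∀ f ∈ X, |y f - y' f| ≤ ε) → ∀ e,
      |D.m y e - D.m y' e| ≤ 2 * ε) (T : ℕ) :
    ∀ᵐ ω ∂P, ∀ f, Tendsto (fun l => wA A ω l (T * 2 ^ l) f +
        euD D (hl l) (wA A ω l) (T * 2 ^ l) f) atTop
      (𝓝 (bA A ω T f + sol D (bA A ω) T f)) := by
  filter_upwards [ae_Rr_tendsto hAm hAr hL1 T] with ω hω f
  have h1 : ∀ l, wA A ω l (T * 2 ^ l) f = bA A ω T f := fun l => by
    unfold wA bA
    rw [wSum_dyadic (hAr f ω), bPath_nat (hAr f ω)]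
  simp_rw [h1]
  refine tendsto_const_nhds.add ?_
  -- the drift part
  have hev : ∀ᶠ l in atTop, Rr A X T l ω ≠ ∞ :=
    (hω.eventually (gt_mem_nhds (zero_lt_one))).mono fun l hl' => (hl'.trans ENNReal.one_lt_top).ne
  have hreal : Tendsto (fun l => (Rr A X T l ω).toReal) atTop (𝓝 0) := by
    have := (ENNReal.tendsto_toReal ENNReal.zero_ne_top).comp hω
    simpa [Function.comp_def] using this
  have hbound : Tendsto (fun l => Real.exp (2 * T) * (2 * hl l * T + 2 * (Rr A X T l ω).toReal)) atTop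
      (𝓝 0) := by
    have h2 : Tendsto (fun l => 2 * hl l * T + 2 * (Rr A X T l ω).toReal) atTop (𝓝 (2 * 0 * T + 2 * 0)) :=
      ((hl_tendsto.const_mul 2).mul_const _).add (hreal.const_mul 2)
    simpa using h2.const_mul (Real.exp (2 * T))
  rw [tendsto_iff_norm_sub_tendsto_zero]
  refine squeeze_zero' (Eventually.of_forall fun _ => norm_nonneg _) ?_ hbound
  filter_upwards [hev] with l hl'
  rw [Real.norm_eq_abs, abs_sub_comm]
  exact compare_of_Rr D hAm hX T l ω hl' f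

end Noise

section FinSetup

variable {τ ι : Type*} [Fintype τ] [Fintype ι]

/-- The hypotheses of the finite volume computation. -/
structure FinSetup (D : Drift E) (A : E → Ω → ℕ → ℕ → ℝ) (P : Measure Ω) (X : Finset E)
    (x : τ → X → ℝ) (k : ℝ) : Prop where
  hAm : ∀ e l k, Measurable fun ω => A e ω l k
  hAr : ∀ e ω, Refines (A e ω)
  hlaw : ∀ l, P.map (fun ω k (f : X) => A f ω l k) = gamSeq X
  hDX : ∀ (y : E → ℝ) (f : X), D.m y f = meanV Finset.univ x (fun g : X => y g) f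
  hDlip : ∀ {y y' : E → ℝ} {ε : ℝ}, 0 ≤ ε → (∀ f ∈ X, |y f - y' f| ≤ ε) → ∀ e,
      |D.m y e - D.m y' e| ≤ 2 * ε
  hx01 : ∀ T f, x T f = 0 ∨ x T f = 1
  hk : ∀ T, ∑ f, x T f ^ 2 = k

/-- The value at a time of the solution, on the coordinates in `X`. -/
def Yt (D : Drift E) (A : E → Ω → ℕ → ℕ → ℝ) (X : Finset E) (ω : Ω) (t : ℝ) : X → ℝ :=
  fun f => bA A ω t f + sol D (bA A ω) t f

variable {D : Drift E} {A : E → Ω → ℕ → ℕ → ℝ} {P : Measure Ω} [IsProbabilityMeasure P]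
  {X : Finset E} {x : τ → X → ℝ} {k : ℝ}

omit [IsProbabilityMeasure P] in
theorem FinSetup.law_coord (S : FinSetup D A P X x k) (f : X) (l j : ℕ) :
    P.map (fun ω => A f ω l j) = gaussianReal 0 1 := by
  have h1 : (gamSeq X).map (fun g : ℕ → X → ℝ => g j f) = gaussianReal 0 1 := by
    have h2 : (gamSeq X).map (fun g : ℕ → X → ℝ => g j) = gam X :=
      Measure.infinitePi_map_eval (fun _ : ℕ => gam X) j
    have h3 : (gam X).map (fun y : X → ℝ => y f) = gaussianReal 0 1 :=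
      Measure.infinitePi_map_eval (fun _ : X => gaussianReal (0 : ℝ) 1) f
    rw [← h3, ← h2, Measure.map_map (measurable_pi_apply f) (measurable_pi_apply j)]
    rfl
  have hg : Measurable fun g : ℕ → X → ℝ => g j f :=
    (measurable_pi_apply f).comp (measurable_pi_apply j)
  have hfm : Measurable fun (ω : Ω) k (f : X) => A f ω l k :=
    measurable_pi_lambda _ fun k => measurable_pi_lambda _ fun f => S.hAm f l k
  rw [← h1, ← S.hlaw l, Measure.map_map hg hfm]
  rfl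

theorem lintegral_abs_gaussian : ∫⁻ x, ENNReal.ofReal |x| ∂(gaussianReal 0 1) ≤ 1 := by
  have hsq : Integrable (fun x : ℝ => x ^ 2) (gaussianReal 0 1) :=
    (memLp_id_gaussianReal' 2 (by simp)).integrable_sq
  have hint : Integrable (fun x : ℝ => (1 + x ^ 2) / 2) (gaussianReal 0 1) :=
    ((integrable_const 1).add hsq).div_const 2
  have h0 : ∫ x, x ^ 2 ∂(gaussianReal 0 1) = 1 := by
    have hv := variance_id_gaussianReal (μ := 0) (v := 1)
    rw [variance_of_integral_eq_zero aemeasurable_id (by simp [integral_id_gaussianReal])] at hv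
    simpa using hv
  calc ∫⁻ x, ENNReal.ofReal |x| ∂(gaussianReal 0 1)
      ≤ ∫⁻ x, ENNReal.ofReal ((1 + x ^ 2) / 2) ∂(gaussianReal 0 1) := by
        refine lintegral_mono fun x => ENNReal.ofReal_le_ofReal ?_
        nlinarith [sq_nonneg (|x| - 1), sq_abs x]
    _ = ENNReal.ofReal (∫ x, (1 + x ^ 2) / 2 ∂(gaussianReal 0 1)) :=
        (ofReal_integral_eq_lintegral_ofReal hint
          (Eventually.of_forall fun x => by positivity)).symm
    _ = 1 := by
        rw [integral_div, integral_add (integrable_const 1) hsq, h0]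
        simp

theorem FinSetup.hL1 (S : FinSetup D A P X x k) :
    ∀ f ∈ X, ∀ l j, ∫⁻ ω, ENNReal.ofReal |A f ω l j| ∂P ≤ 1 := by
  intro f hf l j
  have h := S.law_coord ⟨f, hf⟩ l j
  have hm : Measurable fun y : ℝ => ENNReal.ofReal |y| := by fun_prop
  have h2 := lintegral_map (μ := P) hm (S.hAm f l j)
  rw [h] at h2
  rw [← h2]
  exact lintegral_abs_gaussian

omit [IsProbabilityMeasure P] in
theorem eu_eq (S : FinSetup D A P X x k) (ω : Ω) (l j : ℕ) (f : X) :
    eu (meanV Finset.univ x) (rr ^ l) (fun k (f : X) => A f ω l k) j f =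
      wA A ω l j f + euD D (hl l) (wA A ω l) j f := by
  induction j generalizing f with
  | zero => simp [eu, euD, wA, wSum_zero]
  | succ j ih =>
    have h1 : eu (meanV Finset.univ x) (rr ^ l) (fun k (f : X) => A f ω l k) j =
        fun g : X => wA A ω l j g + euD D (hl l) (wA A ω l) j g := funext ih
    simp only [eu, Pi.add_apply, Pi.smul_apply, smul_eq_mul]
    rw [ih f, h1, ← S.hDX (fun g => wA A ω l j g + euD D (hl l) (wA A ω l) j g) f]
    simp only [euD, wA, wSum_succ, hl]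
    ring

section Main

variable [Nonempty τ] {α : ι → ℝ} {b : ι → X → ℝ} {β : ℝ}

omit [Nonempty τ] in
theorem measurable_meanV {F : Type*} {Y : Finset F} {z : τ → F → ℝ} (e : F) :
    Measurable fun y : F → ℝ => meanV Y z y e := by
  unfold meanV mu
  exact Finset.measurable_sum _ fun T _ =>
    (((measurable_dot Y (z T)).exp).div (measurable_Zf Y z)).mul_const _

theorem meanV_mem {F : Type*} {Y : Finset F} {z : τ → F → ℝ} (h01 : ∀ T f, z T f = 0 ∨ z T f = 1)
    (y : F → ℝ) (f : F) : 0 ≤ meanV Y z y f ∧ meanV Y z y f ≤ 1 := by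
  unfold meanV
  constructor
  · refine Finset.sum_nonneg fun T _ => mul_nonneg (mu_nonneg Y z y T) ?_
    rcases h01 T f with h | h <;> simp [h]
  · calc ∑ T, mu Y z y T * z T f ≤ ∑ T, mu Y z y T := Finset.sum_le_sum fun T _ => by
          have := mu_nonneg Y z y T
          rcases h01 T f with h | h <;> rw [h] <;> linarith
      _ = 1 := sum_mu Y z y

omit [Nonempty τ] in
theorem FinSetup.ae_tendsto_Eul (S : FinSetup D A P X x k) (T : ℕ) :
    ∀ᵐ ω ∂P, Tendsto (fun l => eu (meanV Finset.univ x) (rr ^ l)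
        (fun k (f : X) => A f ω l k) (T * 2 ^ l)) atTop (𝓝 (Yt D A X ω T)) := by
  filter_upwards [ae_tendsto_y D S.hAm S.hAr S.hL1 S.hDlip T] with ω hω
  rw [tendsto_pi_nhds]
  intro f
  simp_rw [funext fun l => eu_eq S ω l (T * 2 ^ l) f]
  exact hω f

omit [IsProbabilityMeasure P] [Nonempty τ] in
theorem FinSetup.measurable_gl (S : FinSetup D A P X x k) (l : ℕ) :
    Measurable fun (ω : Ω) k (f : X) => A f ω l k :=
  measurable_pi_lambda _ fun k => measurable_pi_lambda _ fun f => S.hAm f l k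

/-- The Bernoulli estimate for the correction factor. -/
theorem kappa_lim (C : ℝ) (q : ℕ) :
    Tendsto (fun l => (1 - 3 * ((rr ^ l) ^ 2 * C) ^ 2) ^ (q * 2 ^ l)) atTop (𝓝 1) ∧
      ∀ᶠ l in atTop, 0 < 1 - 3 * ((rr ^ l) ^ 2 * C) ^ 2 ∧ (rr ^ l) ^ 2 * C ≤ 1 / 2 := by
  have h0 : Tendsto (fun l => hl l * C) atTop (𝓝 0) := by
    simpa using hl_tendsto.mul_const C
  have hδ : Tendsto (fun l => 3 * (hl l * C) ^ 2) atTop (𝓝 0) := by
    simpa using (h0.pow 2).const_mul 3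
  have hev : ∀ᶠ l in atTop, 3 * (hl l * C) ^ 2 < 1 ∧ hl l * C < 1 / 2 := by
    have h1 := hδ.eventually (gt_mem_nhds (zero_lt_one))
    have h2 := h0.eventually (gt_mem_nhds (show (0 : ℝ) < 1 / 2 by norm_num))
    filter_upwards [h1, h2] with l h3 h4
    exact ⟨h3, h4⟩
  constructor
  · have hlow : Tendsto (fun l => 1 - 3 * q * C ^ 2 * hl l) atTop (𝓝 1) := by
      simpa using tendsto_const_nhds.sub (hl_tendsto.const_mul (3 * q * C ^ 2))
    refine tendsto_of_tendsto_of_tendsto_of_le_of_le' hlow tendsto_const_nhds ?_ ?_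
    · filter_upwards [hev] with l hl'
      have hb := one_add_mul_le_pow (a := -(3 * (hl l * C) ^ 2)) (by linarith [hl'.1]) (q * 2 ^ l)
      have h1 : (1 : ℝ) + ((q * 2 ^ l : ℕ) : ℝ) * -(3 * (hl l * C) ^ 2) =
          1 - 3 * q * C ^ 2 * hl l := by
        have h2 := hl_mul_two_pow l
        push_cast
        calc (1 : ℝ) + (q * 2 ^ l) * -(3 * (hl l * C) ^ 2)
            = 1 - 3 * q * C ^ 2 * hl l * (hl l * 2 ^ l) := by ring
          _ = _ := by rw [h2, mul_one]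
      rw [h1] at hb
      rw [show (1 : ℝ) - 3 * ((rr ^ l) ^ 2 * C) ^ 2 = 1 + -(3 * (hl l * C) ^ 2) by
        simp only [hl]; ring]
      exact hb
    · filter_upwards [hev] with l hl'
      refine pow_le_one₀ ?_ ?_
      · have : (rr ^ l) ^ 2 = hl l := rfl
        rw [this]; linarith [hl'.1]
      · have : 0 ≤ 3 * ((rr ^ l) ^ 2 * C) ^ 2 := by positivity
        linarith
  · filter_upwards [hev] with l hl'
    have : (rr ^ l) ^ 2 = hl l := rfl
    rw [this]
    exact ⟨by linarith [hl'.1], hl'.2.le⟩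

/-- The supermartingale inequality for the solution. -/
theorem FinSetup.law_ineq (S : FinSetup D A P X x k) (hα : ∀ i, 0 ≤ α i)
    (hβ : ∀ i, ∑ f, b i f ^ 2 = β) {Ψ : (X → ℝ) → ℝ} (hΨc : Continuous Ψ) (hΨ0 : ∀ y, 0 ≤ Ψ y)
    {t t' : ℕ} (ht : t ≤ t') (hbd : t = 0 ∨ ∃ K, ∀ y, testF Finset.univ x α b y * Ψ y ≤ K) :
    ∫⁻ ω, ENNReal.ofReal (testF Finset.univ x α b (Yt D A X ω t') * Ψ (Yt D A X ω t)) ∂P ≤
      ENNReal.ofReal (Real.exp (((t' : ℝ) - t) * (β - k) / 2)) *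
        ∫⁻ ω, ENNReal.ofReal (testF Finset.univ x α b (Yt D A X ω t) * Ψ (Yt D A X ω t)) ∂P := by
  classical
  set F : (X → ℝ) → ℝ := testF Finset.univ x α b with hF
  have hFc : Continuous F := continuous_testF _ _ _ _
  have hFm : Measurable F := measurable_testF _ _ _ _
  have hF0 : ∀ y, 0 ≤ F y := fun y => testF_nonneg hα y
  have hΨm : Measurable Ψ := hΨc.measurable
  set M := meanV Finset.univ x with hM
  have hMm : ∀ e, Measurable fun y => M y e := fun e => measurable_meanV e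
  set Func : ℕ → ℕ → ℕ → (ℕ → X → ℝ) → ℝ≥0∞ := fun l n n₀ g =>
    ENNReal.ofReal (F (eu M (rr ^ l) g n) * Ψ (eu M (rr ^ l) g n₀)) with hFunc
  have hFuncm : ∀ l n n₀, Measurable (Func l n n₀) := fun l n n₀ =>
    ((hFm.comp (measurable_eu hMm _ n)).mul (hΨm.comp (measurable_eu hMm _ n₀))).ennreal_ofReal
  set gl : ℕ → Ω → ℕ → X → ℝ := fun l ω k f => A f ω l k with hgl
  have hglm : ∀ l, Measurable (gl l) := fun l => S.measurable_gl l
  have htrans : ∀ l n n₀, ∫⁻ ω, Func l n n₀ (gl l ω) ∂P = ∫⁻ g, Func l n n₀ g ∂gamSeq X := by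
    intro l n n₀
    rw [← S.hlaw l, lintegral_map (hFuncm l n n₀) (hglm l)]
  -- the constant
  set C : ℝ := ∑ i, ∑ f, |b i f| + ∑ T, ∑ f, |x T f| with hC
  have hC1 : ∀ i, ∑ f, |b i f| ≤ C := fun i => by
    have h1 : ∑ f, |b i f| ≤ ∑ i, ∑ f, |b i f| :=
      Finset.single_le_sum (f := fun i => ∑ f, |b i f|)
        (fun i _ => Finset.sum_nonneg fun _ _ => abs_nonneg _) (Finset.mem_univ i)
    have h2 : 0 ≤ ∑ T, ∑ f, |x T f| :=
      Finset.sum_nonneg fun _ _ => Finset.sum_nonneg fun _ _ => abs_nonneg _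
    linarith
  have hC2 : ∀ T, ∑ f, |x T f| ≤ C := fun T => by
    have h1 : ∑ f, |x T f| ≤ ∑ T, ∑ f, |x T f| :=
      Finset.single_le_sum (f := fun T => ∑ f, |x T f|)
        (fun i _ => Finset.sum_nonneg fun _ _ => abs_nonneg _) (Finset.mem_univ T)
    have h2 : 0 ≤ ∑ i, ∑ f, |b i f| :=
      Finset.sum_nonneg fun _ _ => Finset.sum_nonneg fun _ _ => abs_nonneg _
    linarith
  have hh01 : ∀ (y : X → ℝ) T, ∀ f ∈ (Finset.univ : Finset X), |x T f - M y f| ≤ 1 := by
    intro y T f _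
    obtain ⟨h1, h2⟩ := meanV_mem S.hx01 y f (Y := Finset.univ)
    rw [abs_le]
    rcases S.hx01 T f with h | h <;> rw [h] <;> constructor <;> linarith
  set K : ℝ≥0∞ := ENNReal.ofReal (Real.exp (((t' : ℝ) - t) * (β - k) / 2)) with hK
  set κ : ℕ → ℝ := fun l => 1 - 3 * ((rr ^ l) ^ 2 * C) ^ 2 with hκ
  set d : ℕ → ℕ := fun l => (t' - t) * 2 ^ l with hd
  have hdn : ∀ l, t * 2 ^ l + d l = t' * 2 ^ l := fun l => by
    simp only [hd]
    rw [← add_mul]
    congr 1
    omega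
  -- the chain estimate
  have hchain : ∀ l, (rr ^ l) ^ 2 * C ≤ 1 / 2 →
      ENNReal.ofReal (κ l) ^ d l * ∫⁻ g, Func l (t' * 2 ^ l) (t * 2 ^ l) g ∂gamSeq X ≤
        K * ∫⁻ g, Func l (t * 2 ^ l) (t * 2 ^ l) g ∂gamSeq X := by
    intro l hl'
    have h := chain_bound (X := Finset.univ) (x := x) (α := α) (b := b) (M := M) (s := rr ^ l)
      (C := C) (k := k) (β := β) (ψ := fun y => ENNReal.ofReal (Ψ y))
      hMm (fun y f _ => rfl) hh01 (fun T f hf => absurd (Finset.mem_univ f) hf) S.hk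
      (fun i f hf => absurd (Finset.mem_univ f) hf) hβ hα hC1 hC2 hl' (t * 2 ^ l) (d l)
      hΨm.ennreal_ofReal
    have hpow : ENNReal.ofReal (Real.exp ((rr ^ l) ^ 2 * (β - k) / 2)) ^ d l = K := by
      rw [hK, ← ENNReal.ofReal_pow (Real.exp_pos _).le, ← Real.exp_nat_mul]
      congr 2
      have h1 : ((d l : ℕ) : ℝ) * hl l = (t' : ℝ) - t := by
        simp only [hd]
        rw [nat_mul_hl, Nat.cast_sub ht]
      have h2 : (rr ^ l) ^ 2 = hl l := rfl
      rw [h2]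
      calc ((d l : ℕ) : ℝ) * (hl l * (β - k) / 2) = (((d l : ℕ) : ℝ) * hl l) * (β - k) / 2 := by ring
        _ = _ := by rw [h1]
    have e1 : ∀ n, ∫⁻ g, Func l n (t * 2 ^ l) g ∂gamSeq X =
        ∫⁻ g, ENNReal.ofReal (testF Finset.univ x α b (eu M (rr ^ l) g n)) *
          (fun y => ENNReal.ofReal (Ψ y)) (eu M (rr ^ l) g (t * 2 ^ l)) ∂gamSeq X := fun n =>
      lintegral_congr fun g => by
        simp only [hFunc]
        rw [ENNReal.ofReal_mul (hF0 _)]
    rw [e1, e1, ← hdn l, ← hpow]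
    exact h
  -- almost sure limits
  have hae1 : ∀ᵐ ω ∂P, Tendsto (fun l => Func l (t' * 2 ^ l) (t * 2 ^ l) (gl l ω)) atTop
      (𝓝 (ENNReal.ofReal (F (Yt D A X ω t') * Ψ (Yt D A X ω t)))) := by
    filter_upwards [S.ae_tendsto_Eul t, S.ae_tendsto_Eul t'] with ω h1 h2
    refine ENNReal.tendsto_ofReal ?_
    exact ((hFc.tendsto _).comp h2).mul ((hΨc.tendsto _).comp h1)
  have hae2 : ∀ᵐ ω ∂P, Tendsto (fun l => Func l (t * 2 ^ l) (t * 2 ^ l) (gl l ω)) atTop
      (𝓝 (ENNReal.ofReal (F (Yt D A X ω t) * Ψ (Yt D A X ω t)))) := by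
    filter_upwards [S.ae_tendsto_Eul t] with ω h1
    refine ENNReal.tendsto_ofReal ?_
    exact ((hFc.tendsto _).comp h1).mul ((hΨc.tendsto _).comp h1)
  -- convergence of the right side
  have hc : Tendsto (fun l => ∫⁻ ω, Func l (t * 2 ^ l) (t * 2 ^ l) (gl l ω) ∂P) atTop
      (𝓝 (∫⁻ ω, ENNReal.ofReal (F (Yt D A X ω t) * Ψ (Yt D A X ω t)) ∂P)) := by
    rcases hbd with h0 | ⟨K₀, hK₀⟩
    · -- time zero: everything is constant
      subst h0
      have hconst : ∀ l ω, Func l ((0 : ℕ) * 2 ^ l) ((0 : ℕ) * 2 ^ l) (gl l ω) =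
          ENNReal.ofReal (F 0 * Ψ 0) := by
        intro l ω
        simp [hFunc, eu]
      have hY0 : ∀ ω, Yt D A X ω ((0 : ℕ) : ℝ) = 0 := by
        intro ω
        funext f
        have h1 := bPath_nat (S.hAr f ω) 0
        have h2 : sol D (bA A ω) 0 f = 0 := by
          rw [sol_eq D (fun g => bA_slice S.hAm ω g) f le_rfl]
          simp
        simp only [Yt, Nat.cast_zero, Pi.zero_apply]
        rw [h2, bA, show ((0 : ℕ) : ℝ) = 0 by simp] at *
        simpa [wSum_zero] using h1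
      simp_rw [hconst, hY0]
      simp
    · refine tendsto_lintegral_of_dominated_convergence (fun _ => ENNReal.ofReal K₀) (fun l => ?_)
        (fun l => Eventually.of_forall fun ω => ?_) (by simp) hae2
      · exact (hFuncm l _ _).comp (hglm l)
      · exact ENNReal.ofReal_le_ofReal (hK₀ _)
  -- the correction factor
  obtain ⟨hκ1, hκ2⟩ := kappa_lim C (t' - t)
  have hκd : Tendsto (fun l => (ENNReal.ofReal (κ l) ^ d l)⁻¹) atTop (𝓝 1) := by
    have h1 : Tendsto (fun l => ENNReal.ofReal (κ l ^ d l)) atTop (𝓝 1) := by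
      simpa using ENNReal.tendsto_ofReal hκ1
    have h2 : Tendsto (fun l => ENNReal.ofReal (κ l) ^ d l) atTop (𝓝 1) := by
      refine h1.congr' ?_
      filter_upwards [hκ2] with l hl'
      rw [ENNReal.ofReal_pow hl'.1.le]
    simpa using tendsto_inv_iff.2 h2
  have hκpos : ∀ᶠ l in atTop, ENNReal.ofReal (κ l) ^ d l ≠ 0 ∧
      (rr ^ l) ^ 2 * C ≤ 1 / 2 := by
    filter_upwards [hκ2] with l hl'
    refine ⟨pow_ne_zero _ ?_, hl'.2⟩
    exact (ENNReal.ofReal_pos.2 hl'.1).ne'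
  -- Fatou
  have hfatou : ∫⁻ ω, ENNReal.ofReal (F (Yt D A X ω t') * Ψ (Yt D A X ω t)) ∂P ≤
      liminf (fun l => ∫⁻ ω, Func l (t' * 2 ^ l) (t * 2 ^ l) (gl l ω) ∂P) atTop := by
    refine le_trans (le_of_eq ?_) (lintegral_liminf_le fun l => (hFuncm l _ _).comp (hglm l))
    refine lintegral_congr_ae ?_
    filter_upwards [hae1] with ω hω
    exact hω.liminf_eq.symm
  refine hfatou.trans ?_
  have hbound : ∀ᶠ l in atTop, ∫⁻ ω, Func l (t' * 2 ^ l) (t * 2 ^ l) (gl l ω) ∂P ≤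
      (ENNReal.ofReal (κ l) ^ d l)⁻¹ * (K * ∫⁻ ω, Func l (t * 2 ^ l) (t * 2 ^ l) (gl l ω) ∂P) := by
    filter_upwards [hκpos] with l hl'
    rw [htrans, htrans, ← ENNReal.mul_le_iff_le_inv hl'.1 (by
      exact ENNReal.pow_ne_top ENNReal.ofReal_ne_top)]
    exact hchain l hl'.2
  have hlim : Tendsto (fun l => (ENNReal.ofReal (κ l) ^ d l)⁻¹ *
      (K * ∫⁻ ω, Func l (t * 2 ^ l) (t * 2 ^ l) (gl l ω) ∂P)) atTop
      (𝓝 (1 * (K * ∫⁻ ω, ENNReal.ofReal (F (Yt D A X ω t) * Ψ (Yt D A X ω t)) ∂P))) := by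
    refine ENNReal.Tendsto.mul hκd (Or.inl one_ne_zero) ?_ (Or.inr ENNReal.one_ne_top)
    exact ENNReal.Tendsto.const_mul hc (Or.inr ENNReal.ofReal_ne_top)
  rw [one_mul] at hlim
  calc _ ≤ liminf (fun l => (ENNReal.ofReal (κ l) ^ d l)⁻¹ *
        (K * ∫⁻ ω, Func l (t * 2 ^ l) (t * 2 ^ l) (gl l ω) ∂P)) atTop :=
        liminf_le_liminf hbound
    _ = _ := hlim.liminf_eq

end Main

end FinSetup

end Vale.Agent.Lib.P143
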