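import Mathlib

/-! The variational functional on a space of finitely supported vectors. -/

open Filter Topology

noncomputable section

namespace Vale.Agent.Lib.P143

variable {E : Type*}

/-- Weighted energy `∑ f, exp (-y f) * θ f ^ 2`. -/
def energy (y : E → ℝ) (θ : E →₀ ℝ) : ℝ := θ.sum fun f t => Real.exp (-y f) * t ^ 2

/-- The fraction of the energy carried by the coordinate `e`. -/
def ratio (y : E → ℝ) (e : E) (θ : E →₀ ℝ) : ℝ := Real.exp (-y e) * θ e ^ 2 / energy y θ

/-- The supremum of `ratio` over a space of finitely supported vectors. -/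
def aval (F : Submodule ℝ (E →₀ ℝ)) (y : E → ℝ) (e : E) : ℝ := ⨆ θ : F, ratio y e (θ : E →₀ ℝ)

theorem energy_nonneg (y : E → ℝ) (θ : E →₀ ℝ) : 0 ≤ energy y θ :=
  Finset.sum_nonneg fun _ _ => by positivity

theorem term_le_energy (y : E → ℝ) (θ : E →₀ ℝ) (e : E) :
    Real.exp (-y e) * θ e ^ 2 ≤ energy y θ := by
  by_cases h : e ∈ θ.support
  · exact Finset.single_le_sum (f := fun f => Real.exp (-y f) * θ f ^ 2)
      (fun f _ => by positivity) h
  · have h0 : θ e = 0 := by simpa using h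
    simpa [h0] using energy_nonneg y θ

theorem energy_pos_of_ne (y : E → ℝ) (θ : E →₀ ℝ) {e : E} (h : θ e ≠ 0) : 0 < energy y θ :=
  lt_of_lt_of_le (by positivity) (term_le_energy y θ e)

theorem ratio_nonneg (y : E → ℝ) (e : E) (θ : E →₀ ℝ) : 0 ≤ ratio y e θ :=
  div_nonneg (by positivity) (energy_nonneg y θ)

theorem ratio_le_one (y : E → ℝ) (e : E) (θ : E →₀ ℝ) : ratio y e θ ≤ 1 :=
  div_le_one_of_le₀ (term_le_energy y θ e) (energy_nonneg y θ)

theorem aval_bdd (F : Submodule ℝ (E →₀ ℝ)) (y : E → ℝ) (e : E) :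
    BddAbove (Set.range fun θ : F => ratio y e (θ : E →₀ ℝ)) :=
  ⟨1, by rintro _ ⟨θ, rfl⟩; exact ratio_le_one y e θ⟩

theorem ratio_le_aval {F : Submodule ℝ (E →₀ ℝ)} (y : E → ℝ) (e : E) {θ : E →₀ ℝ} (h : θ ∈ F) :
    ratio y e θ ≤ aval F y e :=
  le_ciSup (aval_bdd F y e) ⟨θ, h⟩

theorem aval_nonneg (F : Submodule ℝ (E →₀ ℝ)) (y : E → ℝ) (e : E) : 0 ≤ aval F y e :=
  Real.iSup_nonneg fun _ => ratio_nonneg y e _

theorem aval_le_one (F : Submodule ℝ (E →₀ ℝ)) (y : E → ℝ) (e : E) : aval F y e ≤ 1 :=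
  ciSup_le fun _ => ratio_le_one y e _

theorem aval_le_of {F : Submodule ℝ (E →₀ ℝ)} {y : E → ℝ} {e : E} {c : ℝ}
    (hc : ∀ θ ∈ F, ratio y e θ ≤ c) : aval F y e ≤ c :=
  ciSup_le fun θ => hc θ θ.2

theorem aval_mono {F F' : Submodule ℝ (E →₀ ℝ)} (h : F ≤ F') (y : E → ℝ) (e : E) :
    aval F y e ≤ aval F' y e :=
  aval_le_of fun _ hθ => ratio_le_aval y e (h hθ)

theorem energy_le_exp {y y' : E → ℝ} {ε : ℝ} (h : ∀ f, |y f - y' f| ≤ ε) (θ : E →₀ ℝ) :
    energy y' θ ≤ Real.exp ε * energy y θ := by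
  unfold energy Finsupp.sum
  rw [Finset.mul_sum]
  refine Finset.sum_le_sum fun f _ => ?_
  have h1 : Real.exp (-y' f) ≤ Real.exp ε * Real.exp (-y f) := by
    rw [← Real.exp_add]
    apply Real.exp_le_exp.2
    linarith [(abs_le.1 (h f)).2]
  calc Real.exp (-y' f) * θ f ^ 2 ≤ (Real.exp ε * Real.exp (-y f)) * θ f ^ 2 :=
        mul_le_mul_of_nonneg_right h1 (sq_nonneg _)
    _ = _ := by ring

theorem ratio_le_exp {y y' : E → ℝ} {ε : ℝ} (h : ∀ f, |y f - y' f| ≤ ε) (e : E) (θ : E →₀ ℝ) :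
    ratio y' e θ ≤ Real.exp (2 * ε) * ratio y e θ := by
  by_cases h0 : θ e = 0
  · simp [ratio, h0]
  have hpos := energy_pos_of_ne y θ h0
  have hpos' := energy_pos_of_ne y' θ h0
  have h1 : energy y θ ≤ Real.exp ε * energy y' θ :=
    energy_le_exp (fun f => by rw [abs_sub_comm]; exact h f) θ
  have h2 : Real.exp (-y' e) ≤ Real.exp ε * Real.exp (-y e) := by
    rw [← Real.exp_add]
    apply Real.exp_le_exp.2
    linarith [(abs_le.1 (h e)).2]
  have h3 : Real.exp (2 * ε) = Real.exp ε * Real.exp ε := by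
    rw [← Real.exp_add]; congr 1; ring
  unfold ratio
  rw [h3, div_le_iff₀ hpos']
  have hA : 0 ≤ θ e ^ 2 := sq_nonneg _
  have hE := Real.exp_pos ε
  have hy := Real.exp_pos (-y e)
  have key : Real.exp (-y' e) * θ e ^ 2 * energy y θ ≤
      (Real.exp ε * Real.exp (-y e)) * θ e ^ 2 * (Real.exp ε * energy y' θ) := by
    apply mul_le_mul (mul_le_mul_of_nonneg_right h2 hA) h1 hpos.le (by positivity)
  have : Real.exp ε * Real.exp ε * (Real.exp (-y e) * θ e ^ 2 / energy y θ) * energy y' θ =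
      (Real.exp ε * Real.exp (-y e)) * θ e ^ 2 * (Real.exp ε * energy y' θ) / energy y θ := by
    field_simp
  rw [this, le_div_iff₀ hpos]
  exact key

theorem aval_le_exp (F : Submodule ℝ (E →₀ ℝ)) {y y' : E → ℝ} {ε : ℝ}
    (h : ∀ f, |y f - y' f| ≤ ε) (e : E) :
    aval F y' e ≤ Real.exp (2 * ε) * aval F y e :=
  aval_le_of fun θ hθ => (ratio_le_exp h e θ).trans
    (mul_le_mul_of_nonneg_left (ratio_le_aval y e hθ) (Real.exp_pos _).le)

private theorem sub_le_of_exp {a a' ε : ℝ} (hε : 0 ≤ ε) (h : a' ≤ Real.exp (2 * ε) * a)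
    (ha' : a' ≤ 1) (ha'0 : 0 ≤ a') : a' - a ≤ 2 * ε := by
  have h1 : Real.exp (-(2 * ε)) * Real.exp (2 * ε) = 1 := by
    rw [← Real.exp_add]; simp
  have h2 : -(2 * ε) + 1 ≤ Real.exp (-(2 * ε)) := Real.add_one_le_exp _
  have h3 : Real.exp (-(2 * ε)) * a' ≤ a := by
    calc Real.exp (-(2 * ε)) * a' ≤ Real.exp (-(2 * ε)) * (Real.exp (2 * ε) * a) :=
          mul_le_mul_of_nonneg_left h (Real.exp_pos _).le
      _ = a := by rw [← mul_assoc, h1, one_mul]
  nlinarith

theorem aval_lip (F : Submodule ℝ (E →₀ ℝ)) {y y' : E → ℝ} {ε : ℝ}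
    (h : ∀ f, |y f - y' f| ≤ ε) (e : E) : |aval F y e - aval F y' e| ≤ 2 * ε := by
  have h' : ∀ f, |y' f - y f| ≤ ε := fun f => by rw [abs_sub_comm]; exact h f
  have hε : 0 ≤ ε := (abs_nonneg _).trans (h e)
  rw [abs_le]
  constructor
  · have := sub_le_of_exp hε (aval_le_exp F h e) (aval_le_one F y' e) (aval_nonneg F y' e)
    linarith
  · exact sub_le_of_exp hε (aval_le_exp F h' e) (aval_le_one F y e) (aval_nonneg F y e)

theorem continuous_ratio (e : E) (θ : E →₀ ℝ) : Continuous fun y : E → ℝ => ratio y e θ := by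
  by_cases h0 : θ e = 0
  · simp only [ratio, h0]
    simpa using continuous_const
  refine Continuous.div ?_ ?_ (fun y => (energy_pos_of_ne y θ h0).ne')
  · exact ((continuous_apply e).neg.rexp).mul continuous_const
  · unfold energy Finsupp.sum
    exact continuous_finsetSum _ fun f _ => ((continuous_apply f).neg.rexp).mul continuous_const

theorem lowerSemicontinuous_aval (F : Submodule ℝ (E →₀ ℝ)) (e : E) :
    LowerSemicontinuous fun y : E → ℝ => aval F y e :=
  lowerSemicontinuous_ciSup (fun y => aval_bdd F y e)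
    (fun θ => (continuous_ratio e (θ : E →₀ ℝ)).lowerSemicontinuous)

theorem measurable_aval [Countable E] (F : Submodule ℝ (E →₀ ℝ)) (e : E) :
    Measurable fun y : E → ℝ => aval F y e :=
  (lowerSemicontinuous_aval F e).measurable

/-! ### Exhaustion -/

/-- The rescaled vector as an element of `ℓ²`. -/
def embFun (y : E → ℝ) (θ : E →₀ ℝ) : lp (fun _ : E => ℝ) 2 :=
  ⟨fun f => Real.exp (-y f / 2) * θ f, by
    apply memℓp_gen
    refine summable_of_ne_finset_zero (s := θ.support) fun f hf => ?_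
    have h0 : θ f = 0 := by simpa using hf
    simp [h0]⟩

@[simp] theorem embFun_apply (y : E → ℝ) (θ : E →₀ ℝ) (f : E) :
    embFun y θ f = Real.exp (-y f / 2) * θ f := rfl

/-- The rescaling as a linear map. -/
def embL (y : E → ℝ) : (E →₀ ℝ) →ₗ[ℝ] lp (fun _ : E => ℝ) 2 where
  toFun := embFun y
  map_add' θ θ' := by
    ext f
    simp [mul_add]
  map_smul' c θ := by
    ext f
    simp
    ring

theorem inner_embFun (y : E → ℝ) (θ : E →₀ ℝ) (b : lp (fun _ : E => ℝ) 2) :
    inner ℝ b (embFun y θ) = ∑ f ∈ θ.support, b f * (Real.exp (-y f / 2) * θ f) := by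
  rw [lp.inner_eq_tsum, tsum_eq_sum (s := θ.support)]
  · refine Finset.sum_congr rfl fun f _ => ?_
    simp [mul_comm]
  · intro f hf
    have h0 : θ f = 0 := by simpa using hf
    simp [h0]

theorem norm_embFun_sq (y : E → ℝ) (θ : E →₀ ℝ) : ‖embFun y θ‖ ^ 2 = energy y θ := by
  rw [← real_inner_self_eq_norm_sq, inner_embFun]
  unfold energy Finsupp.sum
  refine Finset.sum_congr rfl fun f _ => ?_
  have h : Real.exp (-y f / 2) * Real.exp (-y f / 2) = Real.exp (-y f) := by
    rw [← Real.exp_add]; congr 1; ring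
  simp only [embFun_apply]
  calc Real.exp (-y f / 2) * θ f * (Real.exp (-y f / 2) * θ f)
      = (Real.exp (-y f / 2) * Real.exp (-y f / 2)) * θ f ^ 2 := by ring
    _ = _ := by rw [h]

/-- Riesz vector for the coordinate `e` on the closure of the rescaled space. -/
theorem exists_riesz (F : Submodule ℝ (E →₀ ℝ)) (y : E → ℝ) (e : E) :
    ∃ b : lp (fun _ : E => ℝ) 2,
      (∀ θ ∈ F, ∑ f ∈ θ.support, b f * (Real.exp (-y f / 2) * θ f) = Real.exp (-y e / 2) * θ e) ∧
      ‖b‖ ^ 2 ≤ aval F y e := by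
  classical
  set K := (F.map (embL y)).topologicalClosure with hK
  set δ : lp (fun _ : E => ℝ) 2 := lp.single 2 e (1 : ℝ) with hδ
  set b := K.starProjection δ with hb
  have hbK : b ∈ K := K.starProjection_apply_mem δ
  have hin : ∀ v ∈ K, inner ℝ b v = inner ℝ δ v := by
    intro v hv
    have h0 := K.starProjection_inner_eq_zero δ v hv
    rw [inner_sub_left] at h0
    linarith
  have hδin : ∀ v : lp (fun _ : E => ℝ) 2, inner ℝ δ v = v e := by
    intro v
    rw [hδ, lp.inner_single_left]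
    simp
  -- the inequality on the closure
  have hclosed : IsClosed {v : lp (fun _ : E => ℝ) 2 | (v e) ^ 2 ≤ aval F y e * ‖v‖ ^ 2} := by
    have hc : Continuous fun v : lp (fun _ : E => ℝ) 2 => v e := by
      have : (fun v : lp (fun _ : E => ℝ) 2 => v e) = fun v => inner ℝ δ v := by
        funext v; rw [hδin]
      rw [this]
      exact continuous_const.inner continuous_id
    exact isClosed_le (hc.pow 2) (continuous_const.mul (continuous_norm.pow 2))
  have hsub : (K : Set (lp (fun _ : E => ℝ) 2)) ⊆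
      {v : lp (fun _ : E => ℝ) 2 | (v e) ^ 2 ≤ aval F y e * ‖v‖ ^ 2} := by
    rw [hK, Submodule.topologicalClosure_coe]
    refine closure_minimal ?_ hclosed
    rintro _ ⟨θ, hθ, rfl⟩
    show (embFun y θ e) ^ 2 ≤ aval F y e * ‖embFun y θ‖ ^ 2
    rw [norm_embFun_sq, embFun_apply]
    have h1 : (Real.exp (-y e / 2) * θ e) ^ 2 = Real.exp (-y e) * θ e ^ 2 := by
      have h : Real.exp (-y e / 2) * Real.exp (-y e / 2) = Real.exp (-y e) := by
        rw [← Real.exp_add]; congr 1; ring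
      rw [← h]; ring
    rw [h1]
    by_cases h0 : θ e = 0
    · simp only [h0]
      have := aval_nonneg F y e
      have := energy_nonneg y θ
      simp only [ne_eq, OfNat.ofNat_ne_zero, not_false_eq_true, zero_pow, mul_zero]
      positivity
    · have hpos := energy_pos_of_ne y θ h0
      have := ratio_le_aval y e hθ
      unfold ratio at this
      rwa [div_le_iff₀ hpos] at this
  refine ⟨b, fun θ hθ => ?_, ?_⟩
  · have hmem : embFun y θ ∈ K := by
      apply Submodule.le_topologicalClosure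
      exact ⟨θ, hθ, rfl⟩
    rw [← inner_embFun, hin _ hmem, hδin, embFun_apply]
  · have h1 : ‖b‖ ^ 2 = b e := by
      rw [← real_inner_self_eq_norm_sq, hin b hbK, hδin]
    have h2 : (b e) ^ 2 ≤ aval F y e * ‖b‖ ^ 2 := hsub hbK
    rw [← h1] at h2
    by_cases h3 : ‖b‖ ^ 2 = 0
    · rw [h3]; exact aval_nonneg F y e
    · have h4 : 0 < ‖b‖ ^ 2 := lt_of_le_of_ne (by positivity) (Ne.symm h3)
      by_contra hcon
      rw [not_le] at hcon
      nlinarith

/-- The upper bound through the Riesz vector. -/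
theorem ratio_le_tsum {F : Submodule ℝ (E →₀ ℝ)} {y : E → ℝ} {e : E}
    {b : lp (fun _ : E => ℝ) 2}
    (hb : ∀ θ ∈ F, ∑ f ∈ θ.support, b f * (Real.exp (-y f / 2) * θ f) =
      Real.exp (-y e / 2) * θ e) (y' : E → ℝ) {C : ℝ} (hC : ∀ f, |y' f - y f| ≤ C)
    {θ : E →₀ ℝ} (hθ : θ ∈ F) :
    ratio y' e θ ≤ Real.exp (y e - y' e) * ∑' f, Real.exp (y' f - y f) * (b f) ^ 2 := by
  have hsumm : Summable fun f => (b f) ^ 2 := by
    have := lp.memℓp b
    have h2 := this.summable (by norm_num)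
    simpa using h2
  have hsumm2 : Summable fun f => Real.exp (y' f - y f) * (b f) ^ 2 := by
    refine Summable.of_nonneg_of_le (fun f => by positivity) (fun f => ?_) (hsumm.mul_left (Real.exp C))
    apply mul_le_mul_of_nonneg_right _ (sq_nonneg _)
    exact Real.exp_le_exp.2 (le_trans (le_abs_self _) (hC f))
  have hS0 : 0 ≤ ∑' f, Real.exp (y' f - y f) * (b f) ^ 2 := tsum_nonneg fun f => by positivity
  by_cases h0 : θ e = 0
  · simp only [ratio, h0]
    simpa using mul_nonneg (Real.exp_pos _).le hS0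
  have hpos := energy_pos_of_ne y' θ h0
  -- Cauchy-Schwarz
  have hCS : (Real.exp (-y e / 2) * θ e) ^ 2 ≤ energy y' θ *
      ∑ f ∈ θ.support, Real.exp (y' f - y f) * (b f) ^ 2 := by
    rw [← hb θ hθ]
    have := Finset.sum_mul_sq_le_sq_mul_sq θ.support
      (fun f => Real.exp (-y' f / 2) * θ f) (fun f => Real.exp ((y' f - y f) / 2) * b f)
    have e1 : ∑ f ∈ θ.support, b f * (Real.exp (-y f / 2) * θ f) =
        ∑ f ∈ θ.support, (Real.exp (-y' f / 2) * θ f) * (Real.exp ((y' f - y f) / 2) * b f) := by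
      refine Finset.sum_congr rfl fun f _ => ?_
      have : Real.exp (-y f / 2) = Real.exp (-y' f / 2) * Real.exp ((y' f - y f) / 2) := by
        rw [← Real.exp_add]; congr 1; ring
      rw [this]; ring
    have e2 : ∑ f ∈ θ.support, (Real.exp (-y' f / 2) * θ f) ^ 2 = energy y' θ := by
      unfold energy Finsupp.sum
      refine Finset.sum_congr rfl fun f _ => ?_
      have : Real.exp (-y' f / 2) * Real.exp (-y' f / 2) = Real.exp (-y' f) := by
        rw [← Real.exp_add]; congr 1; ring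
      show (Real.exp (-y' f / 2) * θ f) ^ 2 = Real.exp (-y' f) * θ f ^ 2
      rw [← this]; ring
    have e3 : ∑ f ∈ θ.support, (Real.exp ((y' f - y f) / 2) * b f) ^ 2 =
        ∑ f ∈ θ.support, Real.exp (y' f - y f) * (b f) ^ 2 := by
      refine Finset.sum_congr rfl fun f _ => ?_
      have : Real.exp ((y' f - y f) / 2) * Real.exp ((y' f - y f) / 2) = Real.exp (y' f - y f) := by
        rw [← Real.exp_add]; congr 1; ring
      rw [← this]; ring
    rw [e1]
    rwa [e2, e3] at this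
  have hfin : ∑ f ∈ θ.support, Real.exp (y' f - y f) * (b f) ^ 2 ≤
      ∑' f, Real.exp (y' f - y f) * (b f) ^ 2 :=
    hsumm2.sum_le_tsum _ (fun f _ => by positivity)
  have hCS2 : (Real.exp (-y e / 2) * θ e) ^ 2 ≤ energy y' θ *
      ∑' f, Real.exp (y' f - y f) * (b f) ^ 2 :=
    hCS.trans (mul_le_mul_of_nonneg_left hfin hpos.le)
  unfold ratio
  rw [div_le_iff₀ hpos]
  have e4 : Real.exp (-y' e) = Real.exp (y e - y' e) * Real.exp (-y e) := by
    rw [← Real.exp_add]; congr 1; ring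
  have e5 : Real.exp (-y e) * θ e ^ 2 = (Real.exp (-y e / 2) * θ e) ^ 2 := by
    have h : Real.exp (-y e / 2) * Real.exp (-y e / 2) = Real.exp (-y e) := by
      rw [← Real.exp_add]; congr 1; ring
    rw [← h]; ring
  rw [e4, mul_assoc, e5]
  calc Real.exp (y e - y' e) * (Real.exp (-y e / 2) * θ e) ^ 2
      ≤ Real.exp (y e - y' e) * (energy y' θ * ∑' f, Real.exp (y' f - y f) * (b f) ^ 2) :=
        mul_le_mul_of_nonneg_left hCS2 (Real.exp_pos _).le
    _ = _ := by ring

/-- Convergence of the supremum along an exhaustion, with moving weights. -/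
theorem aval_tendsto {F : Submodule ℝ (E →₀ ℝ)} {Fn : ℕ → Submodule ℝ (E →₀ ℝ)}
    (hmono : Monotone Fn) (hle : ∀ n, Fn n ≤ F) (hU : ∀ θ ∈ F, ∃ n, θ ∈ Fn n)
    {y : E → ℝ} {yn : ℕ → E → ℝ} (hy : ∀ f, Tendsto (fun n => yn n f) atTop (𝓝 (y f)))
    {C : ℝ} (hC : ∀ n f, |yn n f - y f| ≤ C) (e : E) :
    Tendsto (fun n => aval (Fn n) (yn n) e) atTop (𝓝 (aval F y e)) := by
  obtain ⟨b, hb, hbn⟩ := exists_riesz F y e
  have hsumm : Summable fun f => (b f) ^ 2 := by
    have := lp.memℓp b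
    have h2 := this.summable (by norm_num)
    simpa using h2
  have hnorm : ‖b‖ ^ 2 = ∑' f, (b f) ^ 2 := by
    rw [← real_inner_self_eq_norm_sq, lp.inner_eq_tsum]
    refine tsum_congr fun f => ?_
    simp [sq]
  have hupper : Tendsto (fun n => Real.exp (y e - yn n e) *
      ∑' f, Real.exp (yn n f - y f) * (b f) ^ 2) atTop (𝓝 (‖b‖ ^ 2)) := by
    have h1 : Tendsto (fun n => Real.exp (y e - yn n e)) atTop (𝓝 1) := by
      have : Tendsto (fun n => y e - yn n e) atTop (𝓝 (y e - y e)) :=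
        tendsto_const_nhds.sub (hy e)
      rw [sub_self] at this
      simpa [Function.comp_def] using (Real.continuous_exp.tendsto 0).comp this
    have h2 : Tendsto (fun n => ∑' f, Real.exp (yn n f - y f) * (b f) ^ 2) atTop
        (𝓝 (∑' f, (b f) ^ 2)) := by
      refine tendsto_tsum_of_dominated_convergence (bound := fun f => Real.exp C * (b f) ^ 2)
        (hsumm.mul_left _) (fun f => ?_) (Eventually.of_forall fun n f => ?_)
      · have : Tendsto (fun n => yn n f - y f) atTop (𝓝 (y f - y f)) :=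
          (hy f).sub tendsto_const_nhds
        rw [sub_self] at this
        have h3 : Tendsto (fun n => Real.exp (yn n f - y f)) atTop (𝓝 1) := by
          simpa [Function.comp_def] using (Real.continuous_exp.tendsto 0).comp this
        simpa using h3.mul_const ((b f) ^ 2)
      · rw [Real.norm_eq_abs, abs_of_nonneg (by positivity)]
        apply mul_le_mul_of_nonneg_right _ (sq_nonneg _)
        exact Real.exp_le_exp.2 (le_trans (le_abs_self _) (hC n f))
    rw [hnorm]
    simpa using h1.mul h2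
  refine tendsto_order.2 ⟨fun c hc => ?_, fun c hc => ?_⟩
  · -- lower bound
    obtain ⟨θ, hθ⟩ := exists_lt_of_lt_ciSup hc
    obtain ⟨N, hN⟩ := hU θ θ.2
    have hcont : Tendsto (fun n => ratio (yn n) e (θ : E →₀ ℝ)) atTop
        (𝓝 (ratio y e (θ : E →₀ ℝ))) :=
      (continuous_ratio e (θ : E →₀ ℝ)).continuousAt.tendsto.comp (tendsto_pi_nhds.2 hy)
    filter_upwards [hcont.eventually (lt_mem_nhds hθ), eventually_ge_atTop N] with n hn hnN
    exact lt_of_lt_of_le hn (ratio_le_aval _ e (hmono hnN hN))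
  · -- upper bound
    have hlt : ‖b‖ ^ 2 < c := lt_of_le_of_lt hbn hc
    filter_upwards [hupper.eventually (gt_mem_nhds hlt)] with n hn
    refine lt_of_le_of_lt (aval_le_of fun θ hθ => ?_) hn
    exact ratio_le_tsum hb (yn n) (hC n) (hle n hθ)

end Vale.Agent.Lib.P143
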