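import Vale.Agent.Lib.P143.GraphFlow
import Vale.Agent.Lib.P143.Picard
import Vale.Agent.Lib.P143.Defs

/-! The drift attached to a set of edges. -/

open Filter Topology Classical

noncomputable section

namespace Vale.Agent.Lib.P143

variable {V : Type*}

theorem ratio_congr_on {X : Set (Sym2 V)} {y y' : Sym2 V → ℝ} (h : ∀ f ∈ X, y f = y' f)
    {θ : Sym2 V →₀ ℝ} (hθ : θ ∈ flowSpace X) (e : Sym2 V) : ratio y e θ = ratio y' e θ := by
  have h1 : energy y θ = energy y' θ := by
    unfold energy
    refine Finsupp.sum_congr fun f hf => ?_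
    have hfX : f ∈ X := hθ.1 f (by simpa using hf)
    rw [h f hfX]
  unfold ratio
  rw [h1]
  by_cases h0 : θ e = 0
  · simp [h0]
  · rw [h e (hθ.1 e h0)]

theorem aval_congr_on {X : Set (Sym2 V)} {y y' : Sym2 V → ℝ} (h : ∀ f ∈ X, y f = y' f) (e : Sym2 V) :
    aval (flowSpace X) y e = aval (flowSpace X) y' e := by
  unfold aval
  exact iSup_congr fun θ => ratio_congr_on h θ.2 e

theorem aval_lip_on {X : Set (Sym2 V)} {Xf : Finset (Sym2 V)} (hsub : ∀ f ∈ X, f ∈ Xf)
    {y y' : Sym2 V → ℝ} {ε : ℝ} (hε : 0 ≤ ε) (h : ∀ f ∈ Xf, |y f - y' f| ≤ ε) (e : Sym2 V) :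
    |aval (flowSpace X) y e - aval (flowSpace X) y' e| ≤ 2 * ε := by
  set z : Sym2 V → ℝ := fun f => if f ∈ Xf then y f else y' f with hz
  have h1 : aval (flowSpace X) y e = aval (flowSpace X) z e :=
    aval_congr_on (fun f hf => by simp [hz, hsub f hf]) e
  rw [h1]
  refine aval_lip _ (fun f => ?_) e
  by_cases hf : f ∈ Xf
  · simpa [hz, hf] using h f hf
  · simpa [hz, hf] using hε

variable [Countable V]

/-- The drift `1 - aval` of a set of edges. -/
def flowDrift (X : Set (Sym2 V)) : Drift (Sym2 V) where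
  m y e := 1 - aval (flowSpace X) y e
  nonneg y e := by linarith [aval_le_one (flowSpace X) y e]
  le_one y e := by linarith [aval_nonneg (flowSpace X) y e]
  lip h e := by
    have := aval_lip (flowSpace X) h e
    rw [abs_sub_comm]
    convert this using 2
    ring
  meas e := measurable_const.sub (measurable_aval _ e)

theorem flowDrift_m (X : Set (Sym2 V)) (y : Sym2 V → ℝ) (e : Sym2 V) :
    (flowDrift X).m y e = 1 - aval (flowSpace X) y e := rfl

/-- The drift of a finite set of edges only sees these edges. -/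
theorem flowDrift_lip_on {X : Set (Sym2 V)} {Xf : Finset (Sym2 V)} (hsub : ∀ f ∈ X, f ∈ Xf)
    {y y' : Sym2 V → ℝ} {ε : ℝ} (hε : 0 ≤ ε) (h : ∀ f ∈ Xf, |y f - y' f| ≤ ε) (e : Sym2 V) :
    |(flowDrift X).m y e - (flowDrift X).m y' e| ≤ 2 * ε := by
  simp only [flowDrift_m]
  have := aval_lip_on hsub hε h e
  rw [abs_sub_comm]
  convert this using 2
  ring

variable {G : SimpleGraph V}

/-- Along an exhaustion the drifts converge. -/
theorem flowDrift_conv {Gn : ℕ → G.Subgraph} (hGn : IsExhaustion G Gn) :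
    DriftConv (fun n => flowDrift (Gn n).edgeSet) (flowDrift G.edgeSet) := by
  intro y yn C hlim hC e
  have hmono : Monotone fun n => flowSpace (Gn n).edgeSet := by
    refine monotone_nat_of_le_succ fun n => flowSpace_mono ?_
    exact SimpleGraph.Subgraph.edgeSet_mono (hGn.mono n)
  have hle : ∀ n, flowSpace (Gn n).edgeSet ≤ flowSpace G.edgeSet := fun n =>
    flowSpace_mono (SimpleGraph.Subgraph.edgeSet_subset _)
  have hU : ∀ θ ∈ flowSpace G.edgeSet, ∃ n, θ ∈ flowSpace (Gn n).edgeSet := by
    intro θ hθ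
    have hfin : ∀ s : Finset (Sym2 V), (∀ f ∈ s, f ∈ G.edgeSet) →
        ∃ n, ∀ f ∈ s, f ∈ (Gn n).edgeSet := by
      intro s
      induction s using Finset.induction_on with
      | empty => exact fun _ => ⟨0, by simp⟩
      | insert a s _ ih =>
        intro hs
        obtain ⟨n, hn⟩ := ih fun f hf => hs f (Finset.mem_insert_of_mem hf)
        obtain ⟨m, hm⟩ := hGn.edges a (hs a (Finset.mem_insert_self a s))
        have hmono2 : Monotone fun n => (Gn n).edgeSet := by
          refine monotone_nat_of_le_succ fun n => ?_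
          exact SimpleGraph.Subgraph.edgeSet_mono (hGn.mono n)
        refine ⟨max n m, fun f hf => ?_⟩
        rcases Finset.mem_insert.1 hf with rfl | hf
        · exact hmono2 (le_max_right n m) hm
        · exact hmono2 (le_max_left n m) (hn f hf)
    obtain ⟨n, hn⟩ := hfin θ.support fun f hf => hθ.1 f (by simpa using hf)
    refine ⟨n, fun f hf => hn f (by simpa using hf), hθ.2⟩
  have h := aval_tendsto hmono hle hU hlim hC e
  simpa [flowDrift_m] using tendsto_const_nhds.sub h

end Vale.Agent.Lib.P143
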