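import Mathlib

/-! Gaussian computations for the product measure on `V → ℝ`. -/

open MeasureTheory ProbabilityTheory
open scoped ENNReal NNReal

namespace Vale.Agent.Lib.P143

variable {V : Type*}

/-- The iid standard normal field on `V`. -/
noncomputable def gam (V : Type*) : Measure (V → ℝ) :=
  Measure.infinitePi (fun _ : V => gaussianReal 0 1)

instance : IsProbabilityMeasure (gam V) := by unfold gam; infer_instance

theorem lintegral_prod_coord (s : Finset V) (f : V → ℝ → ℝ≥0∞) (hf : ∀ v, Measurable (f v)) :
    ∫⁻ g, ∏ v ∈ s, f v (g v) ∂gam V = ∏ v ∈ s, ∫⁻ x, f v x ∂gaussianReal 0 1 := by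
  have hind : iIndepFun (fun v (g : V → ℝ) => f v (g v)) (gam V) :=
    iIndepFun_infinitePi (P := fun _ : V => gaussianReal 0 1) (X := fun v x => f v x) hf
  rw [lintegral_prod_eq_prod_lintegral_of_indepFun s _ hind]
  · refine Finset.prod_congr rfl (fun v _ => ?_)
    have h1 := Measure.infinitePi_map_eval (fun _ : V => gaussianReal (0 : ℝ) 1) v
    conv_rhs => rw [← h1]
    rw [lintegral_map (hf v) (measurable_pi_apply v)]
    rfl
  · intro v
    exact (hf v).comp (measurable_pi_apply v)

/-- Indicator of a box as a product. -/
private theorem indicator_pi (t : Finset V) (B : V → Set ℝ) (y : V → ℝ) :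
    (Set.pi t B).indicator (1 : (V → ℝ) → ℝ≥0∞) y = ∏ v ∈ t, (B v).indicator 1 (y v) := by
  classical
  by_cases hy : y ∈ Set.pi t B
  · rw [Set.indicator_of_mem hy]
    symm
    apply Finset.prod_eq_one
    intro v hv
    rw [Set.indicator_of_mem (hy v hv)]
    rfl
  · rw [Set.indicator_of_notMem hy]
    simp only [Set.mem_pi, not_forall] at hy
    obtain ⟨v, hv, hyv⟩ := hy
    symm
    apply Finset.prod_eq_zero (show v ∈ t from hv)
    rw [Set.indicator_of_notMem hyv]

/-- The shifted Gaussian as a density with respect to the standard one. -/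
private theorem gaussian_shift (a : ℝ) :
    gaussianReal a 1 = (gaussianReal 0 1).withDensity
      (fun x => ENNReal.ofReal (Real.exp (a * x - a ^ 2 / 2))) := by
  have hm : Measurable (fun x : ℝ => ENNReal.ofReal (Real.exp (a * x - a ^ 2 / 2))) := by fun_prop
  rw [gaussianReal_of_var_ne_zero a one_ne_zero, gaussianReal_of_var_ne_zero 0 one_ne_zero,
    ← withDensity_mul _ (measurable_gaussianPDF 0 1) hm]
  congr 1
  ext x
  simp only [Pi.mul_apply, gaussianPDF_def]
  rw [← ENNReal.ofReal_mul (gaussianPDFReal_nonneg _ _ _)]
  congr 1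
  simp only [gaussianPDFReal, NNReal.coe_one, mul_one]
  rw [mul_assoc, ← Real.exp_add]
  congr 2
  ring

/-- Cameron-Martin shift formula for a finitely supported shift. -/
theorem cameron_martin (S : Finset V) (a : V → ℝ) (ha : ∀ v, v ∉ S → a v = 0)
    (F : (V → ℝ) → ℝ≥0∞) (hF : Measurable F) :
    ∫⁻ g, F (a + g) ∂gam V =
      ∫⁻ g, F g * ENNReal.ofReal (Real.exp (∑ v ∈ S, (a v * g v - a v ^ 2 / 2))) ∂gam V := by
  classical
  have hshift : (gam V).map (fun g => a + g) =
      Measure.infinitePi (fun v => gaussianReal (a v) 1) := by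
    have h1 : (gam V).map (fun g => a + g) =
        (Measure.infinitePi (fun _ : V => gaussianReal (0 : ℝ) 1)).map
          (fun g v => (fun x => a v + x) (g v)) := rfl
    rw [h1, Measure.infinitePi_map_pi _ (fun v => by fun_prop)]
    congr 1
    ext1 v
    rw [gaussianReal_map_const_add]
    simp
  set D : (V → ℝ) → ℝ≥0∞ :=
    fun g => ENNReal.ofReal (Real.exp (∑ v ∈ S, (a v * g v - a v ^ 2 / 2))) with hD
  have hDm : Measurable D := by
    simp only [hD]
    apply ENNReal.measurable_ofReal.comp
    apply Real.measurable_exp.comp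
    apply Finset.measurable_sum
    intro v _
    exact ((measurable_const.mul (measurable_pi_apply v)).sub measurable_const)
  have hdens : (gam V).withDensity D =
      Measure.infinitePi (fun v => gaussianReal (a v) 1) := by
    refine Measure.eq_infinitePi _ (fun s t ht => ?_)
    have hmeas : MeasurableSet (Set.pi (s : Set V) t) :=
      MeasurableSet.pi s.countable_toSet (fun v _ => ht v)
    rw [withDensity_apply _ hmeas, ← lintegral_indicator hmeas]
    -- coordinate factors
    set u : V → ℝ → ℝ≥0∞ := fun v x =>
      (if v ∈ s then (t v).indicator 1 x else 1) *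
        (if v ∈ S then ENNReal.ofReal (Real.exp (a v * x - a v ^ 2 / 2)) else 1) with hu
    have hum : ∀ v, Measurable (u v) := by
      intro v
      simp only [hu]
      refine Measurable.mul ?_ ?_
      · split_ifs
        · exact measurable_one.indicator (ht v)
        · exact measurable_const
      · split_ifs
        · fun_prop
        · exact measurable_const
    have hpt : ∀ g : V → ℝ, (Set.pi (s : Set V) t).indicator D g = ∏ v ∈ s ∪ S, u v (g v) := by
      intro g
      simp only [hu]
      rw [Finset.prod_mul_distrib]
      have h1 : ∏ v ∈ s ∪ S, (if v ∈ s then (t v).indicator (1 : ℝ → ℝ≥0∞) (g v) else 1) =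
          (Set.pi (s : Set V) t).indicator (1 : (V → ℝ) → ℝ≥0∞) g := by
        rw [indicator_pi]
        rw [← Finset.prod_subset (Finset.subset_union_left (s₁ := s) (s₂ := S))]
        · exact Finset.prod_congr rfl (fun v hv => by rw [if_pos hv])
        · intro v _ hv
          rw [if_neg hv]
      have h2 : ∏ v ∈ s ∪ S,
          (if v ∈ S then ENNReal.ofReal (Real.exp (a v * g v - a v ^ 2 / 2)) else 1) = D g := by
        rw [← Finset.prod_subset (Finset.subset_union_right (s₁ := s) (s₂ := S))]
        · rw [Finset.prod_congr rfl (fun v hv => by rw [if_pos hv])]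
          simp only [hD]
          rw [Real.exp_sum, ENNReal.ofReal_prod_of_nonneg (fun v _ => (Real.exp_pos _).le)]
        · intro v _ hv
          rw [if_neg hv]
      rw [h1, h2]
      by_cases hg : g ∈ Set.pi (s : Set V) t
      · rw [Set.indicator_of_mem hg, Set.indicator_of_mem hg]
        simp
      · rw [Set.indicator_of_notMem hg, Set.indicator_of_notMem hg]
        simp
    simp only [hpt]
    rw [lintegral_prod_coord _ u hum]
    have hcoord : ∀ v, ∫⁻ x, u v x ∂gaussianReal 0 1 =
        if v ∈ s then gaussianReal (a v) 1 (t v) else 1 := by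
      intro v
      have hdv : gaussianReal (a v) 1 = (gaussianReal 0 1).withDensity
          (fun x => if v ∈ S then ENNReal.ofReal (Real.exp (a v * x - a v ^ 2 / 2)) else 1) := by
        by_cases hvS : v ∈ S
        · simp only [if_pos hvS]
          exact gaussian_shift _
        · simp only [if_neg hvS, ha v hvS]
          have : (fun _ : ℝ => (1 : ℝ≥0∞)) = 1 := rfl
          rw [this, withDensity_one]
      by_cases hvs : v ∈ s
      · simp only [hu, if_pos hvs]
        rw [hdv, withDensity_apply _ (ht v), ← lintegral_indicator (ht v)]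
        refine lintegral_congr (fun x => ?_)
        by_cases hx : x ∈ t v
        · rw [Set.indicator_of_mem hx, Set.indicator_of_mem hx]
          simp
        · rw [Set.indicator_of_notMem hx, Set.indicator_of_notMem hx]
          simp
      · simp only [hu, if_neg hvs, one_mul]
        have h3 : ∫⁻ x, (if v ∈ S then ENNReal.ofReal (Real.exp (a v * x - a v ^ 2 / 2)) else 1)
            ∂gaussianReal 0 1 = gaussianReal (a v) 1 Set.univ := by
          rw [hdv, withDensity_apply _ MeasurableSet.univ, Measure.restrict_univ]
        rw [h3, measure_univ]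
    simp only [hcoord]
    rw [← Finset.prod_subset (Finset.subset_union_left (s₁ := s) (s₂ := S))]
    · exact Finset.prod_congr rfl (fun v hv => by rw [if_pos hv])
    · intro v _ hv
      rw [if_neg hv]
  have h1 : ∫⁻ g, F (a + g) ∂gam V = ∫⁻ z, F z ∂(gam V).map (fun g => a + g) := by
    rw [lintegral_map hF (measurable_const_add a)]
  rw [h1, hshift, ← hdens, lintegral_withDensity_eq_lintegral_mul _ hDm hF]
  refine lintegral_congr (fun g => ?_)
  simp only [Pi.mul_apply]
  rw [mul_comm]

end Vale.Agent.Lib.P143
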