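import Vale.Agent.Lib.P143.FinLevel
import Vale.Agent.Lib.P143.Auto

/-! The infinite volume process, the limit, the factor map and its law. -/

open MeasureTheory Filter Topology
open scoped ENNReal
open Classical

noncomputable section

namespace Vale.Agent.Lib.P143

variable {V : Type*} [Countable V] {G : SimpleGraph V}

/-- Convergence of the finite volume process along an exhaustion (`drift_sol_tendsto`,
`flowDrift_conv`, measurability of `bA`). -/
theorem MM_tendsto (L : LabNoise) (hG : ∀ v, (G.neighborSet v).Finite) {Gn : ℕ → G.Subgraph}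
    (hGn : IsExhaustion G Gn) (e : Sym2 V) (T : ℕ) (U : V → unitInterval) :
    Tendsto (fun n => MM L G (Gn n).edgeSet e T U) atTop (𝓝 (MM L G G.edgeSet e T U)) := by
  have hb : ∀ f, Measurable fun s => bA (arrOf L G) U s f := fun f =>
    bA_slice (fun e l k => measurable_arrOf L G hG e l k) U f
  exact drift_sol_tendsto (flowDrift_conv hGn) hb e (Nat.cast_nonneg T)

/-- An integrable function of the marginals passes to the limit along an exhaustion. -/
theorem integral_MM_tendsto (L : LabNoise) (hG : ∀ v, (G.neighborSet v).Finite)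
    {Gn : ℕ → G.Subgraph} (hGn : IsExhaustion G Gn) {ι : Type*} [Fintype ι] (es : ι → Sym2 V)
    (Ts : ι → ℕ) {F : (ι → ℝ) → ℝ} (hF : Continuous F) {C : ℝ}
    (hC : ∀ x, (∀ i, 0 ≤ x i ∧ x i ≤ 1) → |F x| ≤ C) :
    Tendsto (fun n => ∫ U, F (fun i => MM L G (Gn n).edgeSet (es i) (Ts i) U) ∂iidU V) atTop
      (𝓝 (∫ U, F (fun i => MM L G G.edgeSet (es i) (Ts i) U) ∂iidU V)) := by
  refine tendsto_integral_of_dominated_convergence (fun _ => C) (fun n => ?_) (integrable_const C)
    (fun n => Eventually.of_forall fun U => ?_) (Eventually.of_forall fun U => ?_)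
  · exact (hF.measurable.comp (measurable_pi_lambda _ fun i =>
      measurable_MM L hG _ (es i) (Ts i))).aestronglyMeasurable
  · rw [Real.norm_eq_abs]
    exact hC _ fun i => ⟨MM_nonneg _ _ _ _ _ _, MM_le_one _ _ _ _ _ _⟩
  · refine (hF.tendsto _).comp (tendsto_pi_nhds.2 fun i => ?_)
    exact MM_tendsto L hG hGn (es i) (Ts i) U

omit [Countable V] in
/-- For an exhaustion, each edge is eventually in the subgraph. -/
theorem IsExhaustion.eventually_mem {Gn : ℕ → G.Subgraph} (hGn : IsExhaustion G Gn) {e : Sym2 V}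
    (he : e ∈ G.edgeSet) : ∀ᶠ n in atTop, e ∈ (Gn n).edgeSet := by
  obtain ⟨m, hm⟩ := hGn.edges e he
  have hmono : Monotone fun n => (Gn n).edgeSet := by
    refine monotone_nat_of_le_succ fun n => ?_
    exact SimpleGraph.Subgraph.edgeSet_mono (hGn.mono n)
  filter_upwards [eventually_ge_atTop m] with n hn
  exact hmono hn hm

/-- Localization in infinite volume (bounded convergence from `fin_loc`). -/
theorem inf_loc (L : LabNoise) (hG : ∀ v, (G.neighborSet v).Finite) (hc : G.Connected)
    {e : Sym2 V} (he : e ∈ G.edgeSet) (T : ℕ) :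
    ∫ U, MM L G G.edgeSet e T U * (1 - MM L G G.edgeSet e T U) ∂iidU V ≤
      Real.exp (-((T : ℝ) / 8)) := by
  obtain ⟨Gn, hGn⟩ := exists_exhaustion hc
  have h := integral_MM_tendsto L hG hGn (ι := Unit) (fun _ => e) (fun _ => T)
    (F := fun x => x () * (1 - x ())) (by fun_prop) (C := 1) (by
      intro x hx
      obtain ⟨h0, h1⟩ := hx ()
      rw [abs_of_nonneg (mul_nonneg h0 (by linarith))]
      nlinarith)
  refine le_of_tendsto h ?_
  filter_upwards [hGn.eventually_mem he] with n hn
  have : Fact (Gn n).verts.Finite := ⟨hGn.finite n⟩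
  exact fin_loc L hG (Gn n) (hGn.connected n) hn T

/-- Second moments of the increments in infinite volume. -/
theorem inf_mart (L : LabNoise) (hG : ∀ v, (G.neighborSet v).Finite) (hc : G.Connected)
    {e : Sym2 V} (he : e ∈ G.edgeSet) {t t' : ℕ} (ht : t ≤ t') :
    ∫ U, (MM L G G.edgeSet e t' U - MM L G G.edgeSet e t U) ^ 2 ∂iidU V ≤
      ∫ U, MM L G G.edgeSet e t U * (1 - MM L G G.edgeSet e t U) ∂iidU V := by
  obtain ⟨Gn, hGn⟩ := exists_exhaustion hc
  have h1 := integral_MM_tendsto L hG hGn (ι := Bool) (fun _ => e) (fun b => if b then t' else t)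
    (F := fun x => (x true - x false) ^ 2) (by fun_prop) (C := 1) (by
      intro x hx
      obtain ⟨h0, h1⟩ := hx true
      obtain ⟨h2, h3⟩ := hx false
      rw [abs_of_nonneg (sq_nonneg _)]
      nlinarith)
  have h2 := integral_MM_tendsto L hG hGn (ι := Unit) (fun _ => e) (fun _ => t)
    (F := fun x => x () * (1 - x ())) (by fun_prop) (C := 1) (by
      intro x hx
      obtain ⟨h0, h1⟩ := hx ()
      rw [abs_of_nonneg (mul_nonneg h0 (by linarith))]
      nlinarith)
  simp only [if_true, Bool.false_eq_true, if_false] at h1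
  refine le_of_tendsto_of_tendsto h1 h2 ?_
  filter_upwards [hGn.eventually_mem he] with n hn
  have : Fact (Gn n).verts.Finite := ⟨hGn.finite n⟩
  exact fin_mart L hG (Gn n) (hGn.connected n) hn ht

/-- The times along which the limit is taken. -/
def tj (j : ℕ) : ℕ := 16 * j

/-- The factor map on unordered pairs. -/
def phiE (L : LabNoise) (G : SimpleGraph V) (U : V → unitInterval) (e : Sym2 V) : Prop :=
  1 / 2 < limsup (fun j => MM L G G.edgeSet e (tj j) U) atTop

/-- Nonnegative functions with summable means are almost surely summable. -/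
theorem ae_summable_of_integral_le {Ω : Type*} [MeasurableSpace Ω] {P : Measure Ω}
    {f : ℕ → Ω → ℝ} (hfm : ∀ j, Measurable (f j)) (hf0 : ∀ j ω, 0 ≤ f j ω)
    (hfi : ∀ j, Integrable (f j) P) {b : ℕ → ℝ} (hb : Summable b)
    (hle : ∀ j, ∫ ω, f j ω ∂P ≤ b j) : ∀ᵐ ω ∂P, Summable fun j => f j ω := by
  have hb0 : ∀ j, 0 ≤ b j := fun j => (integral_nonneg (hf0 j)).trans (hle j)
  have hint : ∀ j, ∫⁻ ω, ENNReal.ofReal (f j ω) ∂P ≤ ENNReal.ofReal (b j) := by
    intro j
    rw [← ofReal_integral_eq_lintegral_ofReal (hfi j) (Eventually.of_forall (hf0 j))]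
    exact ENNReal.ofReal_le_ofReal (hle j)
  have hfin : ∫⁻ ω, ∑' j, ENNReal.ofReal (f j ω) ∂P ≠ ∞ := by
    rw [lintegral_tsum fun j => (hfm j).ennreal_ofReal.aemeasurable]
    refine ne_top_of_le_ne_top (b := ∑' j, ENNReal.ofReal (b j)) ?_ (ENNReal.tsum_le_tsum hint)
    rw [← ENNReal.ofReal_tsum_of_nonneg hb0 hb]
    exact ENNReal.ofReal_ne_top
  have hm : AEMeasurable (fun ω => ∑' j, ENNReal.ofReal (f j ω)) P :=
    (Measurable.tsum fun j => (hfm j).ennreal_ofReal).aemeasurable
  filter_upwards [ae_lt_top' hm hfin] with ω hω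
  have h := ENNReal.summable_toReal hω.ne
  simpa [ENNReal.toReal_ofReal (hf0 _ ω)] using h

theorem tj_div (j : ℕ) : ((tj j : ℕ) : ℝ) / 8 = 2 * j := by
  unfold tj
  push_cast
  ring

theorem exp_neg_eq_pow (j : ℕ) : Real.exp (-(j : ℝ)) = (Real.exp (-1)) ^ j := by
  rw [← Real.exp_nat_mul]
  congr 1
  ring

theorem summable_exp_neg : Summable fun j : ℕ => Real.exp (-(j : ℝ)) := by
  simp_rw [exp_neg_eq_pow]
  refine summable_geometric_of_lt_one (Real.exp_pos _).le ?_
  rw [Real.exp_lt_one_iff]
  norm_num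

/-- Almost surely the marginals along `tj` converge to the indicator of `phiE`.
Proof: `∫ (M (tj (j+1)) - M (tj j))² ≤ exp(-2j)` and `∫ M (1-M) (tj j) ≤ exp(-2j)`; the increments
and the products have summable means, so are a.s. summable: the sequence is Cauchy and its limit is a
zero of `x (1-x)`. -/
theorem ae_tendsto_phiE (L : LabNoise) (hG : ∀ v, (G.neighborSet v).Finite) (hc : G.Connected)
    {e : Sym2 V} (he : e ∈ G.edgeSet) :
    ∀ᵐ U ∂iidU V, Tendsto (fun j => MM L G G.edgeSet e (tj j) U) atTop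
      (𝓝 (if phiE L G U e then 1 else 0)) := by
  set a : ℕ → (V → unitInterval) → ℝ := fun j U => MM L G G.edgeSet e (tj j) U with ha
  have ham : ∀ j, Measurable (a j) := fun j => measurable_MM L hG _ e (tj j)
  have ha0 : ∀ j U, 0 ≤ a j U := fun j U => MM_nonneg _ _ _ _ _ _
  have ha1 : ∀ j U, a j U ≤ 1 := fun j U => MM_le_one _ _ _ _ _ _
  have hbdd : ∀ {g : (V → unitInterval) → ℝ}, Measurable g → (∀ U, |g U| ≤ 1) →
      Integrable g (iidU V) := fun {g} hgm hg =>
    (integrable_const (1 : ℝ)).mono' hgm.aestronglyMeasurable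
      (Eventually.of_forall fun U => by simpa using hg U)
  -- the product
  have hloc : ∀ j, ∫ U, a j U * (1 - a j U) ∂iidU V ≤ Real.exp (-(2 * (j : ℝ))) := by
    intro j
    have h := inf_loc L hG hc he (tj j)
    rwa [tj_div] at h
  have hle2 : ∀ j : ℕ, Real.exp (-(2 * (j : ℝ))) ≤ Real.exp (-(j : ℝ)) := fun j =>
    Real.exp_le_exp.2 (by have : (0 : ℝ) ≤ j := Nat.cast_nonneg j; linarith)
  have hs1 : ∀ᵐ U ∂iidU V, Summable fun j => a j U * (1 - a j U) := by
    refine ae_summable_of_integral_le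
      (fun j => (ham j).mul (measurable_const.sub (ham j)))
      (fun j U => mul_nonneg (ha0 j U) (by linarith [ha1 j U]))
      (fun j => hbdd ((ham j).mul (measurable_const.sub (ham j))) fun U => ?_)
      summable_exp_neg (fun j => (hloc j).trans (hle2 j))
    rw [abs_of_nonneg (mul_nonneg (ha0 j U) (by linarith [ha1 j U]))]
    nlinarith [ha0 j U, ha1 j U]
  -- the increments
  have hinc : ∀ j, ∫ U, (a (j + 1) U - a j U) ^ 2 ∂iidU V ≤ Real.exp (-(2 * (j : ℝ))) := by
    intro j
    have hle : tj j ≤ tj (j + 1) := by unfold tj; omega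
    exact (inf_mart L hG hc he hle).trans (hloc j)
  have hs2 : ∀ᵐ U ∂iidU V, Summable fun j => |a (j + 1) U - a j U| := by
    have hsq : ∀ j, Integrable (fun U => (a (j + 1) U - a j U) ^ 2) (iidU V) := fun j =>
      hbdd (((ham (j + 1)).sub (ham j)).pow_const 2) fun U => by
        rw [abs_of_nonneg (sq_nonneg _)]
        nlinarith [ha0 j U, ha1 j U, ha0 (j + 1) U, ha1 (j + 1) U]
    refine ae_summable_of_integral_le
      (fun j => ((ham (j + 1)).sub (ham j)).abs) (fun j U => abs_nonneg _)
      (fun j => hbdd ((ham (j + 1)).sub (ham j)).abs fun U => ?_) summable_exp_neg (fun j => ?_)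
    · rw [abs_abs, abs_le]
      constructor <;> linarith [ha0 j U, ha1 j U, ha0 (j + 1) U, ha1 (j + 1) U]
    · have hpos : 0 < Real.exp (j : ℝ) := Real.exp_pos _
      have hpt : ∀ U, |a (j + 1) U - a j U| ≤
          ((a (j + 1) U - a j U) ^ 2 * Real.exp (j : ℝ) + Real.exp (-(j : ℝ))) / 2 := by
        intro U
        have h1 : Real.exp (j : ℝ) * Real.exp (-(j : ℝ)) = 1 := by
          rw [← Real.exp_add]; simp
        set x := |a (j + 1) U - a j U| with hx
        have h2 : (a (j + 1) U - a j U) ^ 2 = x ^ 2 := (sq_abs _).symm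
        rw [h2]
        set p := Real.exp (j : ℝ)
        set q := Real.exp (-(j : ℝ))
        have hq : 0 < q := Real.exp_pos _
        have h3 : 0 ≤ (x * p - 1) ^ 2 * q := by positivity
        have h4 : (x * p - 1) ^ 2 * q = x ^ 2 * p * (p * q) - 2 * x * (p * q) + q := by ring
        rw [h4, h1] at h3
        linarith
      have hint2 : Integrable (fun U => ((a (j + 1) U - a j U) ^ 2 * Real.exp (j : ℝ) +
          Real.exp (-(j : ℝ))) / 2) (iidU V) :=
        (((hsq j).mul_const _).add (integrable_const _)).div_const 2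
      calc ∫ U, |a (j + 1) U - a j U| ∂iidU V
          ≤ ∫ U, ((a (j + 1) U - a j U) ^ 2 * Real.exp (j : ℝ) + Real.exp (-(j : ℝ))) / 2 ∂iidU V :=
            integral_mono (hbdd ((ham (j + 1)).sub (ham j)).abs fun U => by
              rw [abs_abs, abs_le]
              constructor <;> linarith [ha0 j U, ha1 j U, ha0 (j + 1) U, ha1 (j + 1) U]) hint2 hpt
        _ = ((∫ U, (a (j + 1) U - a j U) ^ 2 ∂iidU V) * Real.exp (j : ℝ) +
              Real.exp (-(j : ℝ))) / 2 := by
            rw [integral_div, integral_add ((hsq j).mul_const _) (integrable_const _),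
              integral_mul_const]
            simp
        _ ≤ (Real.exp (-(2 * (j : ℝ))) * Real.exp (j : ℝ) + Real.exp (-(j : ℝ))) / 2 := by
            gcongr
            exact hinc j
        _ = Real.exp (-(j : ℝ)) := by
            have : Real.exp (-(2 * (j : ℝ))) * Real.exp (j : ℝ) = Real.exp (-(j : ℝ)) := by
              rw [← Real.exp_add]; congr 1; ring
            rw [this]; ring
  filter_upwards [hs1, hs2] with U h1 h2
  -- convergence
  have hcau : CauchySeq fun j => a j U := by
    refine cauchySeq_of_summable_dist ?_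
    simpa [Real.dist_eq, abs_sub_comm] using h2
  obtain ⟨l, hl⟩ := cauchySeq_tendsto_of_complete hcau
  have h3 : Tendsto (fun j => a j U * (1 - a j U)) atTop (𝓝 (l * (1 - l))) :=
    hl.mul (tendsto_const_nhds.sub hl)
  have h4 := tendsto_nhds_unique h3 h1.tendsto_atTop_zero
  have hlim : limsup (fun j => a j U) atTop = l := hl.limsup_eq
  have hphi : phiE L G U e ↔ 1 / 2 < l := by
    unfold phiE
    rw [show (fun j => MM L G G.edgeSet e (tj j) U) = fun j => a j U from rfl, hlim]
  rcases mul_eq_zero.1 h4 with h5 | h5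
  · rw [if_neg (by rw [hphi, h5]; norm_num)]
    rw [← h5]
    exact hl
  · have h6 : l = 1 := by linarith
    rw [if_pos (by rw [hphi, h6]; norm_num)]
    rw [← h6]
    exact hl

theorem measurableSet_phiE (L : LabNoise) (hG : ∀ v, (G.neighborSet v).Finite) (e : Sym2 V) :
    MeasurableSet {U | phiE L G U e} :=
  measurableSet_lt measurable_const (Measurable.limsup fun j => measurable_MM L hG _ e (tj j))

/-- The factor map as a configuration. -/
def phiMap (L : LabNoise) (G : SimpleGraph V) (U : V → unitInterval) (e : G.edgeSet) : Bool :=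
  decide (phiE L G U e)

theorem measurable_phiMap (L : LabNoise) (hG : ∀ v, (G.neighborSet v).Finite) :
    Measurable (phiMap (V := V) L G) := by
  refine measurable_pi_lambda _ fun e => measurable_to_bool ?_
  have : (fun U => phiMap L G U e) ⁻¹' {true} = {U | phiE L G U e} := by
    ext U
    simp [phiMap]
  rw [this]
  exact measurableSet_phiE L hG e

/-- The product of the marginals in a cylinder. -/
def prodM (L : LabNoise) (G : SimpleGraph V) (X : Set (Sym2 V)) (A B : Finset (Sym2 V)) (T : ℕ)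
    (U : V → unitInterval) : ℝ :=
  (∏ e ∈ A, MM L G X e T U) * ∏ e ∈ B, (1 - MM L G X e T U)

theorem prodM_mem (L : LabNoise) (G : SimpleGraph V) (X : Set (Sym2 V)) (A B : Finset (Sym2 V))
    (T : ℕ) (U : V → unitInterval) : 0 ≤ prodM L G X A B T U ∧ prodM L G X A B T U ≤ 1 := by
  unfold prodM
  have h1 : 0 ≤ ∏ e ∈ A, MM L G X e T U := Finset.prod_nonneg fun e _ => MM_nonneg _ _ _ _ _ _
  have h2 : ∏ e ∈ A, MM L G X e T U ≤ 1 :=
    Finset.prod_le_one (fun e _ => MM_nonneg _ _ _ _ _ _) (fun e _ => MM_le_one _ _ _ _ _ _)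
  have h3 : 0 ≤ ∏ e ∈ B, (1 - MM L G X e T U) :=
    Finset.prod_nonneg fun e _ => by linarith [MM_le_one L G X e (T : ℝ) U]
  have h4 : ∏ e ∈ B, (1 - MM L G X e T U) ≤ 1 :=
    Finset.prod_le_one (fun e _ => by linarith [MM_le_one L G X e (T : ℝ) U])
      (fun e _ => by linarith [MM_nonneg L G X e (T : ℝ) U])
  exact ⟨mul_nonneg h1 h3, mul_le_one₀ h2 h3 h4⟩

theorem measurable_prodM (L : LabNoise) (hG : ∀ v, (G.neighborSet v).Finite) (X : Set (Sym2 V))
    (A B : Finset (Sym2 V)) (T : ℕ) : Measurable (prodM L G X A B T) := by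
  unfold prodM
  exact (Finset.measurable_prod _ fun e _ => measurable_MM L hG X e T).mul
    (Finset.measurable_prod _ fun e _ => measurable_const.sub (measurable_MM L hG X e T))

theorem abs_prodM_le (L : LabNoise) (G : SimpleGraph V) (X : Set (Sym2 V)) (A B : Finset (Sym2 V))
    (T : ℕ) (U : V → unitInterval) : ‖prodM L G X A B T U‖ ≤ 1 := by
  obtain ⟨h0, h1⟩ := prodM_mem L G X A B T U
  rwa [Real.norm_eq_abs, abs_of_nonneg h0]

/-- Along an exhaustion the mean products converge. -/
theorem integral_prodM_tendsto (L : LabNoise) (hG : ∀ v, (G.neighborSet v).Finite)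
    {Gn : ℕ → G.Subgraph} (hGn : IsExhaustion G Gn) (A B : Finset (Sym2 V)) (T : ℕ) :
    Tendsto (fun n => ∫ U, prodM L G (Gn n).edgeSet A B T U ∂iidU V) atTop
      (𝓝 (∫ U, prodM L G G.edgeSet A B T U ∂iidU V)) := by
  refine tendsto_integral_of_dominated_convergence (fun _ => 1) (fun n => ?_) (integrable_const 1)
    (fun n => Eventually.of_forall fun U => abs_prodM_le L G _ A B T U)
    (Eventually.of_forall fun U => ?_)
  · exact (measurable_prodM L hG _ A B T).aestronglyMeasurable
  · refine Tendsto.mul (tendsto_finsetProd _ fun e _ => ?_)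
      (tendsto_finsetProd _ fun e _ => tendsto_const_nhds.sub ?_)
    · exact MM_tendsto L hG hGn e T U
    · exact MM_tendsto L hG hGn e T U

/-- Along `tj` the mean products converge to the probability of the cylinder. -/
theorem integral_prodM_tj_tendsto (L : LabNoise) (hG : ∀ v, (G.neighborSet v).Finite)
    (hc : G.Connected) (A B : Finset (Sym2 V)) (hA : ∀ e ∈ A, e ∈ G.edgeSet)
    (hB : ∀ e ∈ B, e ∈ G.edgeSet) :
    Tendsto (fun j => ∫ U, prodM L G G.edgeSet A B (tj j) U ∂iidU V) atTop
      (𝓝 (iidU V {U | (∀ e ∈ A, phiE L G U e) ∧ ∀ e ∈ B, ¬ phiE L G U e}).toReal) := by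
  set S : Set (V → unitInterval) := {U | (∀ e ∈ A, phiE L G U e) ∧ ∀ e ∈ B, ¬ phiE L G U e} with hS
  have hSm : MeasurableSet S := by
    have h1 : S = (⋂ e ∈ A, {U | phiE L G U e}) ∩ ⋂ e ∈ B, {U | phiE L G U e}ᶜ := by
      ext U
      simp [hS]
    rw [h1]
    exact (Finset.measurableSet_biInter _ fun e _ => measurableSet_phiE L hG e).inter
      (Finset.measurableSet_biInter _ fun e _ => (measurableSet_phiE L hG e).compl)
  have hval : (iidU V S).toReal = ∫ U, S.indicator (fun _ => (1 : ℝ)) U ∂iidU V := by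
    rw [integral_indicator_const _ hSm]
    simp [Measure.real]
  rw [hval]
  refine tendsto_integral_of_dominated_convergence (fun _ => 1) (fun j => ?_) (integrable_const 1)
    (fun j => Eventually.of_forall fun U => abs_prodM_le L G _ A B _ U) ?_
  · exact (measurable_prodM L hG _ A B _).aestronglyMeasurable
  have h1 : ∀ᵐ U ∂iidU V, ∀ e ∈ A, Tendsto (fun j => MM L G G.edgeSet e (tj j) U) atTop
      (𝓝 (if phiE L G U e then 1 else 0)) :=
    (ae_ball_iff (Finset.countable_toSet A)).2 fun e he => ae_tendsto_phiE L hG hc (hA e he)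
  have h2 : ∀ᵐ U ∂iidU V, ∀ e ∈ B, Tendsto (fun j => MM L G G.edgeSet e (tj j) U) atTop
      (𝓝 (if phiE L G U e then 1 else 0)) :=
    (ae_ball_iff (Finset.countable_toSet B)).2 fun e he => ae_tendsto_phiE L hG hc (hB e he)
  filter_upwards [h1, h2] with U hU1 hU2
  have hlim : Tendsto (fun j => prodM L G G.edgeSet A B (tj j) U) atTop
      (𝓝 ((∏ e ∈ A, (if phiE L G U e then (1 : ℝ) else 0)) *
        ∏ e ∈ B, (1 - (if phiE L G U e then (1 : ℝ) else 0)))) :=
    Tendsto.mul (tendsto_finsetProd _ fun e he => hU1 e he)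
      (tendsto_finsetProd _ fun e he => tendsto_const_nhds.sub (hU2 e he))
  convert hlim using 2
  by_cases hU : U ∈ S
  · rw [Set.indicator_of_mem hU, Finset.prod_eq_one, Finset.prod_eq_one, one_mul]
    · intro e he
      simp [hU.2 e he]
    · intro e he
      simp [hU.1 e he]
  · rw [Set.indicator_of_notMem hU]
    rw [hS, Set.mem_ofPred_eq, not_and_or] at hU
    rcases hU with hU | hU
    · push Not at hU
      obtain ⟨e, he, hne⟩ := hU
      rw [Finset.prod_eq_zero he (by simp [hne]), zero_mul]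
    · push Not at hU
      obtain ⟨e, he, hne⟩ := hU
      rw [Finset.prod_eq_zero (s := B) he (by simp [hne]), mul_zero]

/-- The law of the factor is the free uniform spanning forest. Proof: for `A`, `B` and the exhaustion,
given `ε`: `∫ Q_T → P(cylinder)` along `T = tj j` (bounded convergence, `ae_tendsto_phiE`), pick `j`
with `2 (|A|+|B|) exp(-T/8) < ε`; then for large `n` `fin_ust` for `H = Gn n` and `∫ Q^n_T → ∫ Q_T`
by `MM_tendsto` and bounded convergence. -/
theorem isFUSF_phiMap (L : LabNoise) (hG : ∀ v, (G.neighborSet v).Finite) (hc : G.Connected) :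
    IsFUSF G ((iidU V).map (phiMap L G)) := by
  have hmeas := measurable_phiMap (V := V) L hG
  refine ⟨Measure.isProbabilityMeasure_map hmeas.aemeasurable, fun Gn hGn A B => ?_⟩
  set A' : Finset (Sym2 V) := A.map (Function.Embedding.subtype _) with hA'
  set B' : Finset (Sym2 V) := B.map (Function.Embedding.subtype _) with hB'
  have hA1 : ∀ e ∈ A', e ∈ G.edgeSet := by
    intro e he
    obtain ⟨a, -, rfl⟩ := Finset.mem_map.1 he
    exact a.2
  have hB1 : ∀ e ∈ B', e ∈ G.edgeSet := by
    intro e he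
    obtain ⟨a, -, rfl⟩ := Finset.mem_map.1 he
    exact a.2
  -- the limit
  have hcyl : ((iidU V).map (phiMap L G)) {x | (∀ e ∈ A, x e = true) ∧ ∀ e ∈ B, x e = false} =
      iidU V {U | (∀ e ∈ A', phiE L G U e) ∧ ∀ e ∈ B', ¬ phiE L G U e} := by
    rw [Measure.map_apply hmeas]
    · congr 1
      ext U
      simp [phiMap, hA', hB']
    · have h1 : {x : G.edgeSet → Bool | (∀ e ∈ A, x e = true) ∧ ∀ e ∈ B, x e = false} =
          (⋂ e ∈ A, {x | x e = true}) ∩ ⋂ e ∈ B, {x | x e = false} := by
        ext x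
        simp
      rw [h1]
      refine (Finset.measurableSet_biInter _ fun e _ => ?_).inter
        (Finset.measurableSet_biInter _ fun e _ => ?_)
      · have hm : Measurable fun x : G.edgeSet → Bool => x e := measurable_pi_apply e
        exact hm (measurableSet_singleton true)
      · have hm : Measurable fun x : G.edgeSet → Bool => x e := measurable_pi_apply e
        exact hm (measurableSet_singleton false)
  rw [hcyl]
  have h1 := integral_prodM_tj_tendsto L hG hc A' B' hA1 hB1
  set q := (iidU V {U | (∀ e ∈ A', phiE L G U e) ∧ ∀ e ∈ B', ¬ phiE L G U e}).toReal with hq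
  set C : ℝ := 2 * ((A'.card + B'.card : ℕ) : ℝ) with hC
  have hexp : Tendsto (fun j : ℕ => C * Real.exp (-(((tj j : ℕ) : ℝ) / 8))) atTop (𝓝 0) := by
    have h2 : Tendsto (fun j : ℕ => ((tj j : ℕ) : ℝ) / 8) atTop atTop := by
      simp_rw [tj_div]
      exact tendsto_natCast_atTop_atTop.const_mul_atTop (by norm_num)
    have h3 := Real.tendsto_exp_neg_atTop_nhds_zero.comp h2
    simpa [Function.comp_def] using h3.const_mul C
  rw [Metric.tendsto_atTop]
  intro ε hε
  have h3 : 0 < ε / 3 := by positivity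
  have hev1 := (Metric.tendsto_atTop.1 h1) (ε / 3) h3
  have hev2 := (Metric.tendsto_atTop.1 hexp) (ε / 3) h3
  obtain ⟨j1, hj1⟩ := hev1
  obtain ⟨j2, hj2⟩ := hev2
  set j := max j1 j2 with hj
  have h4 := hj1 j (le_max_left _ _)
  have h5 := hj2 j (le_max_right _ _)
  have h6 := integral_prodM_tendsto L hG hGn A' B' (tj j)
  obtain ⟨N1, hN1⟩ := (Metric.tendsto_atTop.1 h6) (ε / 3) h3
  have hall : ∀ᶠ n in atTop, (∀ e ∈ A', e ∈ (Gn n).edgeSet) ∧ ∀ e ∈ B', e ∈ (Gn n).edgeSet := by
    have h7 := (Filter.eventually_all_finset A').2 fun e he => hGn.eventually_mem (hA1 e he)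
    have h8 := (Filter.eventually_all_finset B').2 fun e he => hGn.eventually_mem (hB1 e he)
    exact h7.and h8
  obtain ⟨N2, hN2⟩ := eventually_atTop.1 hall
  refine ⟨max N1 N2, fun n hn => ?_⟩
  have h9 := hN1 n (le_trans (le_max_left _ _) hn)
  obtain ⟨hA2, hB2⟩ := hN2 n (le_trans (le_max_right _ _) hn)
  have : Fact (Gn n).verts.Finite := ⟨hGn.finite n⟩
  have h10 := fin_ust L hG (Gn n) (hGn.connected n) A' B' hA2 hB2 (tj j)
  rw [Real.dist_eq] at h4 h5 h9 ⊢
  rw [sub_zero, abs_of_nonneg (mul_nonneg (by positivity) (Real.exp_pos _).le)] at h5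
  have h11 : |ustCyl (Gn n) A' B' - ∫ U, prodM L G (Gn n).edgeSet A' B' (tj j) U ∂iidU V| ≤
      C * Real.exp (-(((tj j : ℕ) : ℝ) / 8)) := h10
  calc |ustCyl (Gn n) A' B' - q|
      = |(ustCyl (Gn n) A' B' - ∫ U, prodM L G (Gn n).edgeSet A' B' (tj j) U ∂iidU V) +
          (∫ U, prodM L G (Gn n).edgeSet A' B' (tj j) U ∂iidU V -
            ∫ U, prodM L G G.edgeSet A' B' (tj j) U ∂iidU V) +
          (∫ U, prodM L G G.edgeSet A' B' (tj j) U ∂iidU V - q)| := by
        congr 1; ring
    _ ≤ _ := abs_add_three _ _ _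
    _ < ε := by linarith

/-- Naturality of the factor map for isomorphisms of graphs (`arrOf_natural`, `aval_edgeSet_map`,
`sol_equiv`). -/
theorem MM_natural {V' : Type*} [Countable V'] (L : LabNoise) (G : SimpleGraph V)
    (G' : SimpleGraph V') (π : V ≃ V') (hπ : ∀ a b, G'.Adj (π a) (π b) ↔ G.Adj a b)
    (U : V → unitInterval) (e : Sym2 V) (t : ℝ) :
    MM L G' G'.edgeSet (Sym2.map π e) t (fun v' => U (π.symm v')) = MM L G G.edgeSet e t U := by
  set U' : V' → unitInterval := fun v' => U (π.symm v') with hU'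
  have hD : ∀ (y : Sym2 V → ℝ) (e : Sym2 V),
      (flowDrift G'.edgeSet).m (fun f' => y ((symEquiv π).symm f')) (symEquiv π e) =
        (flowDrift G.edgeSet).m y e := by
    intro y e
    simp only [flowDrift_m]
    exact congrArg (fun x => 1 - x) (aval_edgeSet_map π hπ y e)
  have hb : ∀ s (f : Sym2 V), bA (arrOf L G') U' s (symEquiv π f) = bA (arrOf L G) U s f := by
    intro s f
    unfold bA
    congr 1
    funext l k
    exact arrOf_natural L G G' π hπ f U l k
  have hsol : ∀ (s : ℝ) (f : Sym2 V),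
      sol (flowDrift G'.edgeSet) (bA (arrOf L G') U') s (symEquiv π f) =
        sol (flowDrift G.edgeSet) (bA (arrOf L G) U) s f :=
    fun s f => sol_equiv (symEquiv π) hD hb s f
  unfold MM
  rw [← hD]
  have : (fun f' : Sym2 V' => bA (arrOf L G') U' t f' +
      sol (flowDrift G'.edgeSet) (bA (arrOf L G') U') t f') =
      fun f' => bA (arrOf L G) U t ((symEquiv π).symm f') +
        sol (flowDrift G.edgeSet) (bA (arrOf L G) U) t ((symEquiv π).symm f') := by
    funext f'
    rw [← hb t, ← hsol t, Equiv.apply_symm_apply]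
  rw [this]
  rfl

theorem phiE_natural {V' : Type*} [Countable V'] (L : LabNoise) (G : SimpleGraph V)
    (G' : SimpleGraph V') (π : V ≃ V') (hπ : ∀ a b, G'.Adj (π a) (π b) ↔ G.Adj a b)
    (U : V → unitInterval) (e : Sym2 V) :
    phiE L G' (fun v' => U (π.symm v')) (Sym2.map π e) ↔ phiE L G U e := by
  unfold phiE
  simp only [MM_natural L G G' π hπ U e]

end Vale.Agent.Lib.P143
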