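import Vale.Agent.Lib.P143.GraphFlow
import Vale.Agent.Lib.P143.Picard
import Vale.Agent.Lib.P143.EdgeNoise

/-! Joint measurability of the construction in the graph, for the graph factor version. -/

open MeasureTheory Filter Topology Set

noncomputable section

namespace Vale.Agent.Lib.P143

variable {V Ω : Type*} [MeasurableSpace Ω]

/-- A finitely supported vector in the flow space of `X` lies in the flow space of its support. -/
theorem mem_flowSpace_support {X : Set (Sym2 V)} {θ : Sym2 V →₀ ℝ} (hθ : θ ∈ flowSpace X) :
    θ ∈ flowSpace (θ.support : Set (Sym2 V)) :=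
  ⟨fun e he => by simpa using he, hθ.2⟩

open Classical in
/-- The functional as a countable supremum over finite edge sets. -/
theorem aval_eq_iSup (X : Set (Sym2 V)) (y : Sym2 V → ℝ) (e : Sym2 V) :
    aval (flowSpace X) y e =
      ⨆ S : Finset (Sym2 V), if (S : Set (Sym2 V)) ⊆ X then aval (flowSpace (S : Set (Sym2 V))) y e
        else 0 := by
  have hbdd : BddAbove (Set.range fun S : Finset (Sym2 V) =>
      if (S : Set (Sym2 V)) ⊆ X then aval (flowSpace (S : Set (Sym2 V))) y e else 0) := by
    refine ⟨1, ?_⟩
    rintro _ ⟨S, rfl⟩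
    show (if _ then _ else _) ≤ (1 : ℝ)
    split_ifs
    · exact aval_le_one _ _ _
    · exact zero_le_one
  apply le_antisymm
  · refine aval_le_of fun θ hθ => ?_
    refine le_trans (ratio_le_aval y e (mem_flowSpace_support hθ)) ?_
    refine le_trans (le_of_eq ?_) (le_ciSup hbdd θ.support)
    rw [if_pos]
    intro f hf
    exact hθ.1 f (by simpa using hf)
  · refine ciSup_le fun S => ?_
    split_ifs with h
    · exact aval_mono (flowSpace_mono h) y e
    · exact aval_nonneg _ _ _

/-- Measurability in the graph and the field. -/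
theorem measurable_aval_joint [Countable V] (G : Ω → SimpleGraph V)
    (hG : ∀ a b, MeasurableSet {ω | (G ω).Adj a b}) {y : Ω → Sym2 V → ℝ}
    (hy : ∀ f, Measurable fun ω => y ω f) (e : Sym2 V) :
    Measurable fun ω => aval (flowSpace (G ω).edgeSet) (y ω) e := by
  classical
  have h : (fun ω => aval (flowSpace (G ω).edgeSet) (y ω) e) = fun ω =>
      ⨆ S : Finset (Sym2 V), if (S : Set (Sym2 V)) ⊆ (G ω).edgeSet then
        aval (flowSpace (S : Set (Sym2 V))) (y ω) e else 0 :=
    funext fun ω => aval_eq_iSup _ _ _
  rw [h]
  refine Measurable.iSup fun S => ?_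
  have hS : MeasurableSet {ω | (S : Set (Sym2 V)) ⊆ (G ω).edgeSet} := by
    have : {ω | (S : Set (Sym2 V)) ⊆ (G ω).edgeSet} = ⋂ f ∈ S, {ω | f ∈ (G ω).edgeSet} := by
      ext ω
      simp [Set.subset_def]
    rw [this]
    refine Finset.measurableSet_biInter _ fun f _ => ?_
    induction f using Sym2.ind with
    | _ a b => exact hG a b
  refine Measurable.ite hS ?_ measurable_const
  exact (measurable_aval _ e).comp (measurable_pi_lambda _ hy)

/-! ### Drifts depending on a parameter -/

variable {E : Type*}

/-- The Picard iterates are jointly measurable when the drift depends measurably on a parameter. -/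
theorem measurable_pic_param (D : Ω → Drift E) (hD : ∀ y : Ω × ℝ → E → ℝ,
      (∀ f, Measurable fun p => y p f) → ∀ e, Measurable fun p : Ω × ℝ => (D p.1).m (y p) e)
    {b : Ω → ℝ → E → ℝ} (hb : ∀ f, Measurable fun p : Ω × ℝ => b p.1 p.2 f) (j : ℕ) (e : E) :
    Measurable fun p : Ω × ℝ => pic (D p.1) (b p.1) j p.2 e := by
  induction j generalizing e with
  | zero => simp only [pic_zero]; exact measurable_const
  | succ j ih =>
    have hslice : ∀ ω f, Measurable fun s => b ω s f := fun ω f =>
      (hb f).comp measurable_prodMk_left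
    have hg : Measurable fun p : Ω × ℝ =>
        (D p.1).m (fun f => b p.1 p.2 f + pic (D p.1) (b p.1) j p.2 f) e :=
      hD _ (fun f => (hb f).add (ih f)) e
    have hfix : ∀ t : ℝ, Measurable fun ω : Ω => pic (D ω) (b ω) (j + 1) t e := by
      intro t
      simp only [pic_succ, intervalIntegral]
      refine Measurable.sub ?_ ?_
      · exact (hg.stronglyMeasurable.integral_prod_right'
          (ν := volume.restrict (Ioc 0 t))).measurable
      · exact (hg.stronglyMeasurable.integral_prod_right'
          (ν := volume.restrict (Ioc t 0))).measurable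
    have hcont : ∀ ω, Continuous fun t => pic (D ω) (b ω) (j + 1) t e := by
      intro ω
      simp only [pic_succ]
      exact intervalIntegral.continuous_primitive
        (intervalIntegrable_drift (D ω) (hslice ω) j e) 0
    have := measurable_uncurry_of_continuous_of_measurable
      (u := fun t ω => pic (D ω) (b ω) (j + 1) t e) hcont hfix
    exact this.comp measurable_swap

/-- The solution is jointly measurable when the drift depends measurably on a parameter. -/
theorem measurable_sol_param (D : Ω → Drift E) (hD : ∀ y : Ω × ℝ → E → ℝ,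
      (∀ f, Measurable fun p => y p f) → ∀ e, Measurable fun p : Ω × ℝ => (D p.1).m (y p) e)
    {b : Ω → ℝ → E → ℝ} (hb : ∀ f, Measurable fun p : Ω × ℝ => b p.1 p.2 f) (e : E) :
    Measurable fun p : Ω × ℝ => sol (D p.1) (b p.1) (max p.2 0) e := by
  have hslice : ∀ ω f, Measurable fun s => b ω s f := fun ω f =>
    (hb f).comp measurable_prodMk_left
  refine measurable_of_tendsto_metrizable
    (f := fun (j : ℕ) (p : Ω × ℝ) => pic (D p.1) (b p.1) j (max p.2 0) e)
    (fun j => ?_)
    (tendsto_pi_nhds.2 fun p => tendsto_sol (D p.1) (hslice p.1) e (le_max_right p.2 0))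
  exact (measurable_pic_param D hD hb j e).comp
    (measurable_fst.prodMk (measurable_snd.max measurable_const))

/-- At a fixed nonnegative time the solution is measurable in the parameter. -/
theorem measurable_sol_param_fixed (D : Ω → Drift E) (hD : ∀ y : Ω × ℝ → E → ℝ,
      (∀ f, Measurable fun p => y p f) → ∀ e, Measurable fun p : Ω × ℝ => (D p.1).m (y p) e)
    {b : Ω → ℝ → E → ℝ} (hb : ∀ f, Measurable fun p : Ω × ℝ => b p.1 p.2 f) (e : E) {t : ℝ}
    (ht : 0 ≤ t) : Measurable fun ω => sol (D ω) (b ω) t e := by
  have h := (measurable_sol_param D hD hb e).comp (measurable_id.prodMk measurable_const :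
    Measurable fun ω : Ω => (ω, t))
  simpa [Function.comp_def, max_eq_left ht] using h

/-! ### The noise -/

/-- The cardinality of a random subset of a countable set is measurable. -/
theorem measurable_ncard [Countable V] {S : Ω → Set V} (hS : ∀ w, MeasurableSet {ω | w ∈ S ω}) :
    Measurable fun ω => (S ω).ncard := by
  classical
  have hF : ∀ F : Finset V, MeasurableSet {ω | S ω = (F : Set V)} := by
    intro F
    have : {ω | S ω = (F : Set V)} = ⋂ w, {ω | w ∈ S ω ↔ w ∈ F} := by
      ext ω
      simp [Set.ext_iff]
    rw [this]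
    refine MeasurableSet.iInter fun w => ?_
    by_cases hw : w ∈ F
    · have h : {ω | w ∈ S ω ↔ w ∈ F} = {ω | w ∈ S ω} := by
        ext ω; simp [hw]
      rw [h]; exact hS w
    · have h : {ω | w ∈ S ω ↔ w ∈ F} = {ω | w ∈ S ω}ᶜ := by
        ext ω; simp [hw]
      rw [h]; exact (hS w).compl
  have hpos : ∀ n, n ≠ 0 → MeasurableSet {ω | (S ω).ncard = n} := by
    intro n hn
    have : {ω | (S ω).ncard = n} = ⋃ F : {F : Finset V // F.card = n}, {ω | S ω = (F.1 : Set V)} := by
      ext ω
      simp only [Set.mem_ofPred_eq, Set.mem_iUnion]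
      constructor
      · intro h
        have hfin : (S ω).Finite := Set.finite_of_ncard_ne_zero (by omega)
        refine ⟨⟨hfin.toFinset, ?_⟩, by simp⟩
        rw [← h, Set.ncard_eq_toFinset_card _ hfin]
      · rintro ⟨⟨F, hF⟩, h⟩
        rw [h, Set.ncard_coe_finset]
        exact hF
    rw [this]
    exact MeasurableSet.iUnion fun F => hF F.1
  refine measurable_to_countable' fun n => ?_
  by_cases hn : n = 0
  · subst hn
    have : (fun ω => (S ω).ncard) ⁻¹' {0} = (⋃ n : {n : ℕ // n ≠ 0}, {ω | (S ω).ncard = n.1})ᶜ := by
      ext ω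
      simp only [Set.mem_preimage, Set.mem_singleton_iff, Set.mem_compl_iff, Set.mem_iUnion,
        Set.mem_ofPred_eq, not_exists]
      constructor
      · rintro h ⟨n, hn⟩ h2
        exact hn (h2.symm.trans h)
      · intro h
        by_contra hcon
        exact h ⟨_, hcon⟩ rfl
    rw [this]
    exact (MeasurableSet.iUnion fun n : {n : ℕ // n ≠ 0} => hpos n.1 n.2).compl
  · exact hpos n hn

/-- The rank is measurable in the graph and the labels. -/
theorem measurable_rk_joint [Countable V] (G : Ω → SimpleGraph V)
    (hG : ∀ a b, MeasurableSet {ω | (G ω).Adj a b}) {L : Ω → V → unitInterval}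
    (hL : ∀ v, Measurable fun ω => L ω v) (a b : V) :
    Measurable fun ω => rk (G ω) (L ω) a b := by
  unfold rk
  refine measurable_ncard fun w => ?_
  exact (hG a w).inter (measurableSet_lt (hL w) (hL b) : MeasurableSet {ω | L ω w < L ω b})

/-- The raw edge arrays are measurable in the graph and the labels. -/
theorem measurable_rawEdge_joint [Countable V] (G : Ω → SimpleGraph V)
    (hG : ∀ a b, MeasurableSet {ω | (G ω).Adj a b}) {U : Ω → V → unitInterval}
    (hU : ∀ v, Measurable fun ω => U ω v) {A : unitInterval → unitInterval}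
    {R : ℕ → unitInterval → ℕ → ℕ → ℝ} (hA : Measurable A) (hR : ∀ p, Measurable (R p))
    (e : Sym2 V) : Measurable fun ω => rawEdge (G ω) A R (U ω) e := by
  classical
  induction e using Sym2.ind with
  | _ a b =>
    have hL : ∀ v, Measurable fun ω => (A ∘ U ω) v := fun v => hA.comp (hU v)
    have happ : ∀ a' b' : V, Measurable fun ω => R (rk (G ω) (A ∘ U ω) a' b') (U ω a') := by
      intro a' b'
      have h1 : Measurable fun q : unitInterval × ℕ => R q.2 q.1 :=
        measurable_from_prod_countable_left fun n => hR n
      exact h1.comp ((hU a').prodMk (measurable_rk_joint G hG hL a' b'))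
    have hlt : ∀ a' b' : V, MeasurableSet {ω | A (U ω a') < A (U ω b')} := fun a' b' =>
      measurableSet_lt (hL a') (hL b')
    show Measurable fun ω => rawPair (G ω) A R (U ω) a b
    unfold rawPair
    refine Measurable.ite (hG a b) (Measurable.ite (hlt a b) (happ a b) ?_) measurable_const
    exact Measurable.ite (hlt b a) (happ b a) measurable_const

end Vale.Agent.Lib.P143
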