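import Mathlib

/-! Dyadic Gaussian noise on the unit interval, for the factor of IID construction. -/

open MeasureTheory ProbabilityTheory

namespace Vale.Agent.Lib.P143

/-- Standard normal law on the real line. -/
noncomputable abbrev stdN : Measure ℝ := gaussianReal 0 1

section Swap

variable {ι κ X : Type*} {mX : MeasurableSpace X} (m : Measure X) [IsProbabilityMeasure m]

/-- Exchanging the two index sets in an iterated product of one probability law. -/
theorem infinitePi_swap :
    (Measure.infinitePi (fun _ : ι => Measure.infinitePi (fun _ : κ => m))).map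
        (fun f (j : κ) (i : ι) => f i j) =
      Measure.infinitePi (fun _ : κ => Measure.infinitePi (fun _ : ι => m)) := by
  have h1 := Measure.infinitePi_map_curry (ι := ι) (κ := κ) (fun _ _ => m)
  have h2 := Measure.infinitePi_map_curry (ι := κ) (κ := ι) (fun _ _ => m)
  have h3 : (Measure.infinitePi (fun _ : ι × κ => m)).map (fun w (p : κ × ι) => w p.swap) =
      Measure.infinitePi (fun _ : κ × ι => m) :=
    Measure.map_infinitePi_infinitePi_of_inj (P := fun _ : ι × κ => m) (f := Prod.swap)
      Prod.swap_injective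
  rw [← h1, ← h2, ← h3, Measure.map_map (by fun_prop) (by fun_prop),
    Measure.map_map (by fun_prop) (by fun_prop)]
  rfl

end Swap

/-- The rotation by an eighth of a turn on `Bool → ℝ`. -/
noncomputable def rotB (v : Bool → ℝ) : Bool → ℝ := fun b =>
  if b then (v false - v true) / Real.sqrt 2 else (v false + v true) / Real.sqrt 2

theorem measurable_rotB : Measurable rotB := by
  unfold rotB
  refine measurable_pi_iff.2 fun b => ?_
  cases b <;> simp <;> fun_prop

theorem rotB_invol (v : Bool → ℝ) : rotB (rotB v) = v := by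
  have h : Real.sqrt 2 ^ 2 = 2 := Real.sq_sqrt (by norm_num)
  have h0 : Real.sqrt 2 ≠ 0 := by positivity
  funext b
  cases b <;> simp [rotB] <;> field_simp <;> rw [h] <;> ring

/-- `rotB` as a linear map on the Euclidean plane. -/
noncomputable def rotL : EuclideanSpace ℝ Bool →ₗ[ℝ] EuclideanSpace ℝ Bool where
  toFun x := WithLp.toLp 2 (rotB x.ofLp)
  map_add' x y := by
    ext b; cases b <;> simp [rotB] <;> ring
  map_smul' c x := by
    ext b; cases b <;> simp [rotB] <;> ring

/-- `rotB` as a linear isometry of the Euclidean plane. -/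
noncomputable def rotE : EuclideanSpace ℝ Bool ≃ₗᵢ[ℝ] EuclideanSpace ℝ Bool where
  toLinearEquiv := LinearEquiv.ofInvolutive rotL (fun x => by
    show WithLp.toLp 2 (rotB (rotB x.ofLp)) = x
    rw [rotB_invol])
  norm_map' x := by
    have h : Real.sqrt 2 * Real.sqrt 2 = 2 := Real.mul_self_sqrt (by norm_num)
    have h0 : Real.sqrt 2 ≠ 0 := by positivity
    show ‖rotL x‖ = ‖x‖
    rw [EuclideanSpace.norm_eq, EuclideanSpace.norm_eq]
    congr 1
    simp only [Fintype.sum_bool, Real.norm_eq_abs, sq_abs]
    simp [rotL, rotB]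
    field_simp
    nlinarith

/-- The standard Gaussian on `Bool → ℝ` is invariant under `rotB`. -/
theorem rotB_law :
    (Measure.infinitePi (fun _ : Bool => stdN)).map rotB =
      Measure.infinitePi (fun _ : Bool => stdN) := by
  rw [Measure.infinitePi_eq_pi]
  have h := map_pi_eq_stdGaussian (ι := Bool)
  have h2 := stdGaussian_map rotE
  have h3 : rotB = WithLp.ofLp ∘ rotE ∘ WithLp.toLp 2 := by
    funext v; rfl
  have hm1 : Measurable (WithLp.toLp 2 : (Bool → ℝ) → EuclideanSpace ℝ Bool) := by fun_prop
  have hm2 : Measurable (WithLp.ofLp : EuclideanSpace ℝ Bool → (Bool → ℝ)) := by fun_prop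
  have hm3 : Measurable (rotE : EuclideanSpace ℝ Bool → EuclideanSpace ℝ Bool) := by
    exact rotE.continuous.measurable
  have h4 : Measure.pi (fun _ : Bool => stdN) =
      (stdGaussian (EuclideanSpace ℝ Bool)).map WithLp.ofLp := by
    rw [← h, Measure.map_map hm2 hm1]
    exact Measure.map_id.symm
  rw [h3, ← Function.comp_assoc, ← Measure.map_map (hm2.comp hm3) hm1,
    ← Measure.map_map hm2 hm3]
  rw [h, h2, h4]

/-- The standard Gaussian law on sequences. -/
noncomputable abbrev seqN : Measure (ℕ → ℝ) := Measure.infinitePi (fun _ : ℕ => stdN)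

/-- One refinement step: two sequences are rotated pairwise into one. -/
noncomputable def rotSeq (x y : ℕ → ℝ) : ℕ → ℝ := fun j =>
  if j % 2 = 0 then (x (j / 2) + y (j / 2)) / Real.sqrt 2
  else (x (j / 2) - y (j / 2)) / Real.sqrt 2

theorem measurable_rotSeq : Measurable (fun p : (ℕ → ℝ) × (ℕ → ℝ) => rotSeq p.1 p.2) := by
  unfold rotSeq
  refine measurable_pi_iff.2 fun j => ?_
  by_cases hj : j % 2 = 0 <;> simp only [hj, if_true, if_false] <;> fun_prop

theorem rotSeq_add (x y : ℕ → ℝ) (k : ℕ) :
    x k = (rotSeq x y (2 * k) + rotSeq x y (2 * k + 1)) / Real.sqrt 2 := by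
  have h : Real.sqrt 2 ^ 2 = 2 := Real.sq_sqrt (by norm_num)
  have h0 : Real.sqrt 2 ≠ 0 := by positivity
  have h1 : (2 * k) % 2 = 0 := by omega
  have h2 : (2 * k + 1) % 2 ≠ 0 := by omega
  have h3 : (2 * k) / 2 = k := by omega
  have h4 : (2 * k + 1) / 2 = k := by omega
  simp only [rotSeq, h1, h2, h3, h4, if_true, if_false]
  field_simp
  rw [h]; ring

/-- The pairwise rotation of two independent standard sequences is a standard sequence. -/
theorem rotSeq_law : (seqN.prod seqN).map (fun p => rotSeq p.1 p.2) = seqN := by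
  have h0 : (Measure.infinitePi (fun _ : Bool => seqN)).map (fun ω => (ω false, ω true)) =
      seqN.prod seqN :=
    Measure.infinitePi_map_eval_prod (P := fun _ : Bool => seqN) Bool.false_ne_true
  have hinj : Function.Injective (fun j : ℕ => (j / 2, decide (j % 2 = 1))) := by
    intro a b hab
    simp only [Prod.mk.injEq, decide_eq_decide] at hab
    omega
  have h1 := infinitePi_swap (ι := Bool) (κ := ℕ) stdN
  have h2 : (Measure.infinitePi (fun _ : ℕ => Measure.infinitePi (fun _ : Bool => stdN))).map
      (fun z k => rotB (z k)) = Measure.infinitePi (fun _ : ℕ => Measure.infinitePi (fun _ : Bool => stdN)) := by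
    rw [Measure.infinitePi_map_pi _ (fun _ => measurable_rotB), rotB_law]
  have h3 := Measure.infinitePi_map_curry_symm (ι := ℕ) (κ := Bool) (fun _ _ => stdN)
  have h4 : (Measure.infinitePi (fun _ : ℕ × Bool => stdN)).map
      (fun w (j : ℕ) => w (j / 2, decide (j % 2 = 1))) = seqN :=
    Measure.map_infinitePi_infinitePi_of_inj (P := fun _ : ℕ × Bool => stdN) hinj
  have hD : Measurable (fun (f : Bool → ℕ → ℝ) (k : ℕ) (b : Bool) => f b k) := by fun_prop
  have hC : Measurable (fun (z : ℕ → Bool → ℝ) (k : ℕ) => rotB (z k)) :=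
    measurable_pi_iff.2 fun k => measurable_rotB.comp (measurable_pi_apply k)
  have hB := (MeasurableEquiv.curry ℕ Bool ℝ).symm.measurable
  have hA : Measurable (fun (w : ℕ × Bool → ℝ) (j : ℕ) => w (j / 2, decide (j % 2 = 1))) := by
    fun_prop
  conv_rhs => rw [← h4, ← h3, ← h2, ← h1]
  rw [← h0, Measure.map_map measurable_rotSeq (by fun_prop),
    Measure.map_map hC hD, Measure.map_map hB (hC.comp hD), Measure.map_map hA (hB.comp (hC.comp hD))]
  congr 1
  funext f j
  by_cases hj : j % 2 = 0
  · have : ¬ j % 2 = 1 := by omega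
    simp [rotSeq, rotB, hj, MeasurableEquiv.curry, Function.uncurry]
  · have : j % 2 = 1 := by omega
    simp [rotSeq, rotB, this, MeasurableEquiv.curry, Function.uncurry]

/-- The level-`l` sequence built from the rows of an array. -/
noncomputable def level : ℕ → (ℕ → ℕ → ℝ) → ℕ → ℝ
  | 0, ω => ω 0
  | l + 1, ω => rotSeq (level l ω) (ω (l + 1))

theorem measurable_level (l : ℕ) : Measurable (level l) := by
  induction l with
  | zero => exact measurable_pi_apply 0
  | succ l ih =>
    exact measurable_rotSeq.comp (ih.prodMk (measurable_pi_apply (l + 1)))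

theorem level_congr (l : ℕ) {ω ω' : ℕ → ℕ → ℝ} (h : ∀ i ≤ l, ω i = ω' i) :
    level l ω = level l ω' := by
  induction l with
  | zero => exact h 0 le_rfl
  | succ l ih =>
    simp only [level]
    rw [ih (fun i hi => h i (by omega)), h (l + 1) le_rfl]

/-- The law of the array. -/
noncomputable abbrev arrN : Measure (ℕ → ℕ → ℝ) := Measure.infinitePi (fun _ : ℕ => seqN)

theorem indep_level_row (l : ℕ) :
    IndepFun (level l) (fun ω : ℕ → ℕ → ℝ => ω (l + 1)) arrN := by
  have hI : iIndepFun (fun (i : ℕ) (ω : ℕ → ℕ → ℝ) => ω i) arrN :=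
    iIndepFun_infinitePi (P := fun _ : ℕ => seqN) (X := fun _ x => x) (fun _ => measurable_id)
  have hS := hI.indepFun_finset (Finset.range (l + 1)) {l + 1}
    (by simp) (fun i => measurable_pi_apply i)
  let ext : (Finset.range (l + 1) → ℕ → ℝ) → ℕ → ℕ → ℝ := fun r i =>
    if h : i ∈ Finset.range (l + 1) then r ⟨i, h⟩ else 0
  have hext : Measurable ext := by
    refine measurable_pi_iff.2 fun i => ?_
    by_cases h : i ∈ Finset.range (l + 1)
    · simp only [ext, h, dif_pos]
      exact measurable_pi_apply _
    · simp only [ext, h, dif_neg, not_false_eq_true]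
      exact measurable_const
  let i0 : (({l + 1} : Finset ℕ) : Set ℕ) := ⟨l + 1, by simp⟩
  have hψ : Measurable (fun r : (({l + 1} : Finset ℕ) : Set ℕ) → ℕ → ℝ => r i0) :=
    measurable_pi_apply i0
  have hcomp := hS.comp (φ := fun r => level l (ext r))
    (ψ := fun r => r i0) ((measurable_level l).comp hext) hψ
  have e1 : level l = (fun r => level l (ext r)) ∘
      (fun (a : ℕ → ℕ → ℝ) (i : ((Finset.range (l + 1) : Finset ℕ) : Set ℕ)) => a i) := by
    funext ω
    refine level_congr l fun i hi => ?_
    have hmem : i ∈ Finset.range (l + 1) := Finset.mem_range.2 (by omega)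
    simp only [ext, dif_pos hmem]
  have e2 : (fun ω : ℕ → ℕ → ℝ => ω (l + 1)) = (fun r => r i0) ∘
      (fun (a : ℕ → ℕ → ℝ) (i : (({l + 1} : Finset ℕ) : Set ℕ)) => a i) := rfl
  rw [e1, e2]
  exact hcomp

theorem level_law (l : ℕ) : arrN.map (level l) = seqN := by
  induction l with
  | zero => exact Measure.infinitePi_map_eval (fun _ : ℕ => seqN) 0
  | succ l ih =>
    have h := (indep_level_row l).map_prod_eq_prod_map_map
      (measurable_level l).aemeasurable (measurable_pi_apply (l + 1)).aemeasurable
    have h2 : arrN.map (fun ω : ℕ → ℕ → ℝ => ω (l + 1)) = seqN :=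
      Measure.infinitePi_map_eval (fun _ : ℕ => seqN) (l + 1)
    rw [ih, h2] at h
    have h3 : level (l + 1) = (fun p : (ℕ → ℝ) × (ℕ → ℝ) => rotSeq p.1 p.2) ∘
        (fun ω => (level l ω, ω (l + 1))) := rfl
    rw [h3, ← Measure.map_map measurable_rotSeq
      ((measurable_level l).prodMk (measurable_pi_apply (l + 1))), h, rotSeq_law]

end Vale.Agent.Lib.P143
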