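import Mathlib

/-! The passage to the limit: almost sure convergence of the marginals and the law of the limit, from
estimates on a family of finite level processes. -/

open MeasureTheory Filter Topology
open scoped ENNReal

noncomputable section

namespace Vale.Agent.Lib.P143

variable {Ω E : Type*} [MeasurableSpace Ω] {P : Measure Ω} [IsProbabilityMeasure P]

/-! ### Elementary estimates -/

/-- Products of numbers in `[0,1]` are one-Lipschitz for the sum of distances. -/
theorem abs_prod_sub_prod_le {ι : Type*} (s : Finset ι) (a b : ι → ℝ)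
    (ha : ∀ i ∈ s, 0 ≤ a i ∧ a i ≤ 1) (hb : ∀ i ∈ s, 0 ≤ b i ∧ b i ≤ 1) :
    |∏ i ∈ s, a i - ∏ i ∈ s, b i| ≤ ∑ i ∈ s, |a i - b i| := by
  classical
  induction s using Finset.induction_on with
  | empty => simp
  | insert i s hi ih =>
    rw [Finset.prod_insert hi, Finset.prod_insert hi, Finset.sum_insert hi]
    have h1 := ih (fun j hj => ha j (Finset.mem_insert_of_mem hj))
      (fun j hj => hb j (Finset.mem_insert_of_mem hj))
    obtain ⟨ha0, ha1⟩ := ha i (Finset.mem_insert_self i s)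
    obtain ⟨hb0, hb1⟩ := hb i (Finset.mem_insert_self i s)
    have hbp0 : 0 ≤ ∏ j ∈ s, b j :=
      Finset.prod_nonneg fun j hj => (hb j (Finset.mem_insert_of_mem hj)).1
    have hbp1 : ∏ j ∈ s, b j ≤ 1 :=
      Finset.prod_le_one (fun j hj => (hb j (Finset.mem_insert_of_mem hj)).1)
        (fun j hj => (hb j (Finset.mem_insert_of_mem hj)).2)
    have e : a i * ∏ j ∈ s, a j - b i * ∏ j ∈ s, b j =
        a i * (∏ j ∈ s, a j - ∏ j ∈ s, b j) + (a i - b i) * ∏ j ∈ s, b j := by ring
    rw [e]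
    calc _ ≤ |a i * (∏ j ∈ s, a j - ∏ j ∈ s, b j)| + |(a i - b i) * ∏ j ∈ s, b j| := abs_add_le _ _
      _ = a i * |∏ j ∈ s, a j - ∏ j ∈ s, b j| + |a i - b i| * ∏ j ∈ s, b j := by
          rw [abs_mul, abs_mul, abs_of_nonneg ha0, abs_of_nonneg hbp0]
      _ ≤ 1 * (∑ j ∈ s, |a j - b j|) + |a i - b i| * 1 := by
          gcongr
      _ = _ := by ring

/-- The product attached to a cylinder. -/
def phi (c : E → ℝ) (A B : Finset E) : ℝ := (∏ e ∈ A, c e) * ∏ f ∈ B, (1 - c f)

theorem abs_mul_sub_mul_le {x y x' y' : ℝ} (hx : 0 ≤ x ∧ x ≤ 1) (hy' : 0 ≤ y' ∧ y' ≤ 1) :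
    |x * y - x' * y'| ≤ |x - x'| + |y - y'| := by
  have e : x * y - x' * y' = x * (y - y') + (x - x') * y' := by ring
  rw [e]
  calc _ ≤ |x * (y - y')| + |(x - x') * y'| := abs_add_le _ _
    _ = x * |y - y'| + |x - x'| * y' := by
        rw [abs_mul, abs_mul, abs_of_nonneg hx.1, abs_of_nonneg hy'.1]
    _ ≤ 1 * |y - y'| + |x - x'| * 1 := by
        gcongr
        · exact hx.2
        · exact hy'.2
    _ = _ := by ring

theorem phi_mem {c : E → ℝ} (h : ∀ e, 0 ≤ c e ∧ c e ≤ 1) (A B : Finset E) :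
    0 ≤ phi c A B ∧ phi c A B ≤ 1 := by
  unfold phi
  have h1 : 0 ≤ ∏ e ∈ A, c e := Finset.prod_nonneg fun e _ => (h e).1
  have h2 : ∏ e ∈ A, c e ≤ 1 := Finset.prod_le_one (fun e _ => (h e).1) (fun e _ => (h e).2)
  have h3 : 0 ≤ ∏ f ∈ B, (1 - c f) :=
    Finset.prod_nonneg fun f _ => by linarith [(h f).2]
  have h4 : ∏ f ∈ B, (1 - c f) ≤ 1 :=
    Finset.prod_le_one (fun f _ => by linarith [(h f).2]) (fun f _ => by linarith [(h f).1])
  exact ⟨mul_nonneg h1 h3, mul_le_one₀ h2 h3 h4⟩

section Cyl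

variable {τ : Type*} [Fintype τ]

open Classical in
/-- Comparison of a cylinder probability with the product of the marginals. -/
theorem abs_cyl_sub_phi_le (w : τ → ℝ) (hw0 : ∀ T, 0 ≤ w T) (hw1 : ∑ T, w T = 1)
    (mem : τ → E → Prop) (m : E → ℝ) (hm : ∀ e, m e = ∑ T, w T * (if mem T e then 1 else 0))
    (A B : Finset E) :
    |∑ T, w T * (if (∀ e ∈ A, mem T e) ∧ ∀ f ∈ B, ¬ mem T f then 1 else 0) - phi m A B| ≤
      2 * ∑ e ∈ A, min (m e) (1 - m e) + 2 * ∑ f ∈ B, min (m f) (1 - m f) := by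
  -- the rounding of the marginals
  set x : E → ℝ := fun e => if 1 / 2 < m e then 1 else 0 with hx
  have hm01 : ∀ e, 0 ≤ m e ∧ m e ≤ 1 := by
    intro e
    rw [hm e]
    constructor
    · exact Finset.sum_nonneg fun T _ => mul_nonneg (hw0 T) (by split_ifs <;> norm_num)
    · refine le_trans (Finset.sum_le_sum fun T _ => ?_) (le_of_eq hw1)
      have := hw0 T
      split_ifs <;> linarith
  have hx01 : ∀ e, 0 ≤ x e ∧ x e ≤ 1 := by
    intro e
    simp only [hx]
    split_ifs <;> norm_num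
  have hmx : ∀ e, |m e - x e| = min (m e) (1 - m e) := by
    intro e
    obtain ⟨h0, h1⟩ := hm01 e
    simp only [hx]
    split_ifs with h
    · rw [min_eq_right (by linarith), abs_of_nonpos (by linarith)]
      ring
    · rw [min_eq_left (by linarith), sub_zero, abs_of_nonneg h0]
  have hmx' : ∀ e, |(1 - m e) - (1 - x e)| = min (m e) (1 - m e) := by
    intro e
    rw [← hmx e, ← abs_neg]
    congr 1
    ring
  -- the indicator vector of a tree
  set y : τ → E → ℝ := fun T e => if mem T e then 1 else 0 with hy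
  have hy01 : ∀ T e, 0 ≤ y T e ∧ y T e ≤ 1 := by
    intro T e
    simp only [hy]
    split_ifs <;> norm_num
  have hyT : ∀ T, (if (∀ e ∈ A, mem T e) ∧ ∀ f ∈ B, ¬ mem T f then (1 : ℝ) else 0) =
      phi (y T) A B := by
    intro T
    unfold phi
    by_cases h : (∀ e ∈ A, mem T e) ∧ ∀ f ∈ B, ¬ mem T f
    · rw [if_pos h, Finset.prod_eq_one, Finset.prod_eq_one, one_mul]
      · intro f hf
        simp [hy, h.2 f hf]
      · intro e he
        simp [hy, h.1 e he]
    · rw [if_neg h]
      rw [not_and_or] at h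
      rcases h with h | h
      · push Not at h
        obtain ⟨e, he, hne⟩ := h
        rw [Finset.prod_eq_zero he (by simp [hy, hne]), zero_mul]
      · push Not at h
        obtain ⟨f, hf, hnf⟩ := h
        rw [Finset.prod_eq_zero hf (by simp [hy, hnf]), mul_zero]
  -- phi is Lipschitz
  have hphi : ∀ c c' : E → ℝ, (∀ e, 0 ≤ c e ∧ c e ≤ 1) → (∀ e, 0 ≤ c' e ∧ c' e ≤ 1) →
      |phi c A B - phi c' A B| ≤ ∑ e ∈ A, |c e - c' e| + ∑ f ∈ B, |c f - c' f| := by
    intro c c' hc hc'
    unfold phi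
    have h1 : 0 ≤ ∏ e ∈ A, c e ∧ ∏ e ∈ A, c e ≤ 1 :=
      ⟨Finset.prod_nonneg fun e _ => (hc e).1,
        Finset.prod_le_one (fun e _ => (hc e).1) (fun e _ => (hc e).2)⟩
    have h2 : 0 ≤ ∏ f ∈ B, (1 - c' f) ∧ ∏ f ∈ B, (1 - c' f) ≤ 1 :=
      ⟨Finset.prod_nonneg fun f _ => by linarith [(hc' f).2],
        Finset.prod_le_one (fun f _ => by linarith [(hc' f).2]) (fun f _ => by linarith [(hc' f).1])⟩
    refine (abs_mul_sub_mul_le h1 h2).trans (add_le_add ?_ ?_)
    · exact abs_prod_sub_prod_le A _ _ (fun e _ => hc e) (fun e _ => hc' e)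
    · refine (abs_prod_sub_prod_le B _ _ (fun f _ => ⟨by linarith [(hc f).2], by linarith [(hc f).1]⟩)
        (fun f _ => ⟨by linarith [(hc' f).2], by linarith [(hc' f).1]⟩)).trans (le_of_eq ?_)
      refine Finset.sum_congr rfl fun f _ => ?_
      rw [← abs_neg]
      congr 1
      ring
  -- the mass of the trees disagreeing with the rounding at `e`
  have hmass : ∀ e, ∑ T, w T * |y T e - x e| = min (m e) (1 - m e) := by
    intro e
    obtain ⟨h0, h1⟩ := hm01 e
    have hme : ∑ T, w T * y T e = m e := (hm e).symm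
    by_cases h : 1 / 2 < m e
    · have hxe : x e = 1 := if_pos h
      rw [min_eq_right (by linarith), hxe]
      have : ∀ T, w T * |y T e - 1| = w T - w T * y T e := by
        intro T
        simp only [hy]
        split_ifs <;> simp
      simp_rw [this]
      rw [Finset.sum_sub_distrib, hw1, hme]
    · have hxe : x e = 0 := if_neg h
      rw [min_eq_left (by linarith), hxe]
      have : ∀ T, w T * |y T e - 0| = w T * y T e := by
        intro T
        simp only [hy]
        split_ifs <;> simp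
      simp_rw [this]
      exact hme
  -- combine
  have h1 : |∑ T, w T * phi (y T) A B - phi x A B| ≤
      ∑ e ∈ A, min (m e) (1 - m e) + ∑ f ∈ B, min (m f) (1 - m f) := by
    have e1 : ∑ T, w T * phi (y T) A B - phi x A B = ∑ T, w T * (phi (y T) A B - phi x A B) := by
      simp_rw [mul_sub]
      rw [Finset.sum_sub_distrib, ← Finset.sum_mul, hw1, one_mul]
    rw [e1]
    calc |∑ T, w T * (phi (y T) A B - phi x A B)|
        ≤ ∑ T, |w T * (phi (y T) A B - phi x A B)| := Finset.abs_sum_le_sum_abs _ _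
      _ ≤ ∑ T, w T * (∑ e ∈ A, |y T e - x e| + ∑ f ∈ B, |y T f - x f|) := by
          refine Finset.sum_le_sum fun T _ => ?_
          rw [abs_mul, abs_of_nonneg (hw0 T)]
          exact mul_le_mul_of_nonneg_left (hphi _ _ (hy01 T) hx01) (hw0 T)
      _ = _ := by
          simp_rw [mul_add, Finset.mul_sum]
          rw [Finset.sum_add_distrib, Finset.sum_comm, Finset.sum_comm (s := Finset.univ) (t := B)]
          congr 1
          · exact Finset.sum_congr rfl fun e _ => hmass e
          · exact Finset.sum_congr rfl fun e _ => hmass e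
  have h2 : |phi m A B - phi x A B| ≤
      ∑ e ∈ A, min (m e) (1 - m e) + ∑ f ∈ B, min (m f) (1 - m f) := by
    refine (hphi _ _ hm01 hx01).trans (le_of_eq ?_)
    simp_rw [hmx]
  simp_rw [hyT]
  calc _ = |(∑ T, w T * phi (y T) A B - phi x A B) - (phi m A B - phi x A B)| := by
        congr 1; ring
    _ ≤ |∑ T, w T * phi (y T) A B - phi x A B| + |phi m A B - phi x A B| := abs_sub _ _
    _ ≤ _ := by linarith

end Cyl

end Vale.Agent.Lib.P143
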