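import Vale.Agent.Lib.P143.InfLevel
import Vale.Agent.Lib.P143.JointMeas

/-! The graph factor: the construction is measurable in the graph and the labels, for graphs on a
fixed countable vertex set, and natural for graph isomorphisms. -/

open MeasureTheory Filter Topology
open Classical

noncomputable section

namespace Vale.Agent.Lib.P143

variable {V : Type*} [Countable V] {Ω : Type*} [MeasurableSpace Ω]

theorem measurable_arrOf_joint (L : LabNoise) (G : Ω → SimpleGraph V)
    (hG : ∀ a b, MeasurableSet {ω | (G ω).Adj a b}) {U : Ω → V → unitInterval}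
    (hU : ∀ v, Measurable fun ω => U ω v) (e : Sym2 V) (l k : ℕ) :
    Measurable fun ω => arrOf L (G ω) e (U ω) l k :=
  (measurable_pi_apply k).comp
    ((measurable_level l).comp (measurable_rawEdge_joint G hG hU L.hA L.hR e))

theorem measurable_flowDrift_joint (G : Ω → SimpleGraph V)
    (hG : ∀ a b, MeasurableSet {ω | (G ω).Adj a b}) {y : Ω → Sym2 V → ℝ}
    (hy : ∀ f, Measurable fun ω => y ω f) (e : Sym2 V) :
    Measurable fun ω => (flowDrift (G ω).edgeSet).m (y ω) e := by
  simp only [flowDrift_m]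
  exact measurable_const.sub (measurable_aval_joint G hG hy e)

theorem measurable_bA_joint (L : LabNoise) (G : Ω → SimpleGraph V)
    (hG : ∀ a b, MeasurableSet {ω | (G ω).Adj a b}) {U : Ω → V → unitInterval}
    (hU : ∀ v, Measurable fun ω => U ω v) (f : Sym2 V) :
    Measurable fun p : Ω × ℝ => bA (arrOf L (G p.1)) (U p.1) p.2 f :=
  measurable_bPath (A := fun ω => arrOf L (G ω) f (U ω))
    (fun l k => measurable_arrOf_joint L G hG hU f l k)

theorem measurable_bA_joint_fixed (L : LabNoise) (G : Ω → SimpleGraph V)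
    (hG : ∀ a b, MeasurableSet {ω | (G ω).Adj a b}) {U : Ω → V → unitInterval}
    (hU : ∀ v, Measurable fun ω => U ω v) (f : Sym2 V) (t : ℝ) :
    Measurable fun ω => bA (arrOf L (G ω)) (U ω) t f :=
  Measurable.comp (g := fun p : Ω × ℝ => bA (arrOf L (G p.1)) (U p.1) p.2 f)
    (f := fun ω => (ω, t)) (measurable_bA_joint L G hG hU f)
    (measurable_id.prodMk measurable_const)

theorem measurable_sol_joint_fixed (L : LabNoise) (G : Ω → SimpleGraph V)
    (hG : ∀ a b, MeasurableSet {ω | (G ω).Adj a b}) {U : Ω → V → unitInterval}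
    (hU : ∀ v, Measurable fun ω => U ω v) (f : Sym2 V) {t : ℝ} (ht : 0 ≤ t) :
    Measurable fun ω => sol (flowDrift (G ω).edgeSet) (bA (arrOf L (G ω)) (U ω)) t f := by
  have hD : ∀ y : Ω × ℝ → Sym2 V → ℝ, (∀ f, Measurable fun p => y p f) →
      ∀ e, Measurable fun p : Ω × ℝ => (flowDrift (G p.1).edgeSet).m (y p) e := by
    intro y hy e
    have hG' : ∀ a b, MeasurableSet {p : Ω × ℝ | (G p.1).Adj a b} := fun a b =>
      measurable_fst (hG a b)
    exact measurable_flowDrift_joint (fun p : Ω × ℝ => G p.1) hG' hy e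
  exact measurable_sol_param_fixed (fun ω => flowDrift (G ω).edgeSet) hD
    (b := fun ω => bA (arrOf L (G ω)) (U ω)) (measurable_bA_joint L G hG hU) f ht

theorem measurable_MM_joint (L : LabNoise) (G : Ω → SimpleGraph V)
    (hG : ∀ a b, MeasurableSet {ω | (G ω).Adj a b}) {U : Ω → V → unitInterval}
    (hU : ∀ v, Measurable fun ω => U ω v) (e : Sym2 V) (T : ℕ) :
    Measurable fun ω => MM L (G ω) (G ω).edgeSet e T (U ω) := by
  have h := measurable_flowDrift_joint G hG
    (y := fun ω f => bA (arrOf L (G ω)) (U ω) (T : ℝ) f +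
      sol (flowDrift (G ω).edgeSet) (bA (arrOf L (G ω)) (U ω)) (T : ℝ) f)
    (fun f => (measurable_bA_joint_fixed L G hG hU f (T : ℝ)).add
      (measurable_sol_joint_fixed L G hG hU f (Nat.cast_nonneg T))) e
  exact h

/-- Joint measurability of the factor. -/
theorem measurableSet_phiE_joint (L : LabNoise) (G : Ω → SimpleGraph V)
    (hG : ∀ a b, MeasurableSet {ω | (G ω).Adj a b}) {U : Ω → V → unitInterval}
    (hU : ∀ v, Measurable fun ω => U ω v) (e : Sym2 V) :
    MeasurableSet {ω | phiE L (G ω) (U ω) e} :=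
  measurableSet_lt measurable_const
    (Measurable.limsup fun j => measurable_MM_joint L G hG hU e (tj j))

/-- The factor as a set of edges. -/
def phiSet (L : LabNoise) (G : SimpleGraph V) (U : V → unitInterval) : Set (Sym2 V) :=
  {e | e ∈ G.edgeSet ∧ phiE L G U e}

theorem phiSet_subset (L : LabNoise) (G : SimpleGraph V) (U : V → unitInterval) :
    phiSet L G U ⊆ G.edgeSet := fun _ he => he.1

theorem measurableSet_phiSet_joint (L : LabNoise) (G : Ω → SimpleGraph V)
    (hG : ∀ a b, MeasurableSet {ω | (G ω).Adj a b}) {U : Ω → V → unitInterval}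
    (hU : ∀ v, Measurable fun ω => U ω v) (e : Sym2 V) :
    MeasurableSet {ω | e ∈ phiSet L (G ω) (U ω)} := by
  refine MeasurableSet.inter ?_ (measurableSet_phiE_joint L G hG hU e)
  induction e using Sym2.ind with
  | _ a b => exact hG a b

/-- The factor is natural for isomorphisms of graphs. -/
theorem phiSet_natural {V' : Type*} [Countable V'] (L : LabNoise) (G : SimpleGraph V)
    (G' : SimpleGraph V') (π : V ≃ V') (hπ : ∀ a b, G'.Adj (π a) (π b) ↔ G.Adj a b)
    (U : V → unitInterval) :
    phiSet L G' (fun v' => U (π.symm v')) = Sym2.map π '' phiSet L G U := by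
  have hedge : ∀ e : Sym2 V, Sym2.map π e ∈ G'.edgeSet ↔ e ∈ G.edgeSet := by
    intro e
    induction e using Sym2.ind with
    | _ a b => exact hπ a b
  ext f'
  constructor
  · rintro ⟨h1, h2⟩
    refine ⟨Sym2.map π.symm f', ?_, map_map_symm π f'⟩
    have h3 : Sym2.map π (Sym2.map π.symm f') = f' := map_map_symm π f'
    refine ⟨(hedge _).1 (by rwa [h3]), ?_⟩
    rw [← phiE_natural L G G' π hπ U, h3]
    exact h2
  · rintro ⟨e, ⟨h1, h2⟩, rfl⟩
    exact ⟨(hedge e).2 h1, (phiE_natural L G G' π hπ U e).2 h2⟩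

/-- The Bernoulli configuration attached to the set of edges is the factor map. -/
theorem isFUSF_phiSet (L : LabNoise) {G : SimpleGraph V} (hG : ∀ v, (G.neighborSet v).Finite)
    (hc : G.Connected) :
    IsFUSF G ((iidU V).map fun U (e : G.edgeSet) => decide ((e : Sym2 V) ∈ phiSet L G U)) := by
  have h := isFUSF_phiMap L hG hc
  have heq : (fun U (e : G.edgeSet) => decide ((e : Sym2 V) ∈ phiSet L G U)) = phiMap L G := by
    funext U e
    unfold phiMap
    congr 1
    simp only [phiSet, Set.mem_ofPred_eq, eq_iff_iff]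
    exact ⟨fun h => h.2, fun h => ⟨e.2, h⟩⟩
  rw [heq]
  exact h

end Vale.Agent.Lib.P143
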